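import Vale.Agent.P025.R2.H210.Pts

/-!
# P025 G-DISC (5.1): all the names of the specification `Spec51` (helper210)

* `Lam`: `t2`, `lamInf`, `resc`, `pow0`, `pow2`, their lemmas;
* `Disc1`: `TT`, `Pole`, `Charts`, `ch2`, `ch0`;
* `DiscEx`: `exists_place_of_hom`, `Finite (Pole C K)`, `sum_N`, `exists_charts`;
* `Bij0`, `Bij2`: `bij2`, `bij0`; `Pts`: `dP`, `wP`, `ker_ch2`, `ker_ch0`, `edge_wP`,
  `dP_bijective`, `wP_bijective`, `ch2_surjective`, `ch0_surjective`, `subsingleton_V`, `isField`.
-/

open P025H373 P025H552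

universe u

namespace P025H210

variable {C : Type u} [NontriviallyNormedField C] [IsUltrametricDist C] [CompleteSpace C]
  [IsAlgClosed C]

omit [IsUltrametricDist C] [CompleteSpace C] [IsAlgClosed C] in
theorem resc_coeff (a : Cˣ) (f : LaurentSeries C) (n : ℤ) :
    (resc a f).coeff n = ((a ^ n : Cˣ) : C) * f.coeff n := by
  have h1 : LX ^ f.order * ofPS f.powerSeriesPart = f := by
    rw [LX_zpow]
    exact LaurentSeries.single_order_mul_powerSeriesPart f
  generalize f.order = k at h1
  generalize f.powerSeriesPart = g at h1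
  subst h1
  rw [map_mul, resc_ofPS, resc_LX_zpow, LX_zpow, mul_assoc, ← ofPS_C, HahnSeries.ofPowerSeries_C,
    HahnSeries.C_apply, HahnSeries.coeff_single_mul, sub_zero, HahnSeries.coeff_single_mul,
    HahnSeries.coeff_single_mul, one_mul, one_mul, PowerSeries.coeff_coe, PowerSeries.coeff_coe]
  split_ifs with h
  · rw [mul_zero, mul_zero]
  · rw [PowerSeries.coeff_rescale, ← mul_assoc]
    congr 1
    rw [← zpow_natCast, Int.natAbs_of_nonneg (not_lt.mp h), ← zpow_add₀ a.ne_zero]
    rw [show k + (n - k) = n by ring]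
    exact (Units.val_zpow_eq_zpow_val a n).symm

end P025H210
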