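import Vale.Agent.P025.R2.H210.DiscEx

/-!
# P025 G-DISC (5.1): `bij0` from `bij2` (helper210)
-/

open Polynomial TensorProduct P025H373 P025H544 P025H628 Vale.Agent.P019P

universe u v

namespace P025H210

noncomputable section

set_option linter.unusedSectionVars false

section sbl

variable {C : Type u} [NontriviallyNormedField C] [IsUltrametricDist C] [CompleteSpace C]
  [IsAlgClosed C]

/-- `a ↦ ∑ i < n, a_i (t ^ n) * t ^ i` is a bijection over `F0`. -/
theorem bij_pow0 (n : ℕ) (hn : 0 < n) : Function.Bijective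
    (fun (a : Fin n → F0 C) => ∑ i, pow0 n hn (a i) * tt C ^ (i : ℕ)) :=
  ⟨sbL_injective (near_pow hn), sbL_surjective (near_pow hn)⟩

theorem coe_sum2 {ι : Type*} (s : Finset ι) (f : ι → F2 C) :
    ((∑ i ∈ s, f i : F2 C) : F0 C) = ∑ i ∈ s, (f i : F0 C) :=
  map_sum (algebraMap (F2 C) (F0 C)) f s

/-- `a ↦ ∑ i < n, a_i (t ^ n) * t ^ i` is a bijection over `F2`. -/
theorem bij_pow2 (n : ℕ) (hn : 0 < n) : Function.Bijective
    (fun (a : Fin n → F2 C) => ∑ i, pow2 n hn (a i) * t2 ^ (i : ℕ)) := by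
  have key : ∀ a : Fin n → F2 C, ((∑ i, pow2 n hn (a i) * t2 ^ (i : ℕ) : F2 C) : F0 C) =
      sbL (near_pow hn) (fun i => (a i : F0 C)) := by
    intro a
    rw [coe_sum2, sbL_apply]
    rfl
  constructor
  · intro a b hab
    have h1 : sbL (near_pow (C := C) hn) (fun i => (a i : F0 C)) =
        sbL (near_pow hn) (fun i => (b i : F0 C)) := by
      rw [← key, ← key]
      exact congrArg _ hab
    funext i
    exact Subtype.ext (congrFun (sbL_injective _ h1) i)
  · intro y
    obtain ⟨a, ha, hay⟩ := exists_sum_F2 (near_pow hn) near_pow_mem_A2 y.2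
    refine ⟨fun i => ⟨a i, ha i⟩, Subtype.ext ?_⟩
    exact (key _).trans hay

end sbl

section charts

variable {C : Type u} [NontriviallyNormedField C] [IsUltrametricDist C] [CompleteSpace C]
  [IsAlgClosed C] [CharZero C]
  {K : Type v} [Field K] [Algebra C K] [Algebra (RatFunc C) K] [IsScalarTower C (RatFunc C) K]
  [FiniteDimensional (RatFunc C) K] [CFF C K]

theorem Charts.ch0_smul (D : Charts C K) (P : Pole C K) (γ c : Cˣ) (hc : γ ^ P.N = c)
    (hr : D.r0 ≤ ‖(c : C)‖) (a : F0r C c) (x : F0r C c ⊗[RatFunc C] K) :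
    D.ch0 P γ c hc hr (a • x) = pow0 P.N P.N_pos (show F0 C from a) * D.ch0 P γ c hc hr x := by
  induction x with
  | zero => simp
  | add x y hx hy => rw [smul_add, map_add, hx, hy, map_add, mul_add]
  | tmul b y =>
    rw [TensorProduct.smul_tmul', D.ch0_tmul, D.ch0_tmul, smul_eq_mul, ← mul_assoc]
    congr 1
    exact map_mul (pow0 (C := C) P.N P.N_pos) (show F0 C from a) (show F0 C from b)

theorem Charts.ch2_smul (D : Charts C K) (P : Pole C K) (γ c : Cˣ) (hc : γ ^ P.N = c)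
    (hr : D.r0 ≤ ‖(c : C)‖) (a : F2r C c) (x : F2r C c ⊗[RatFunc C] K) :
    D.ch2 P γ c hc hr (a • x) = pow2 P.N P.N_pos (show F2 C from a) * D.ch2 P γ c hc hr x := by
  induction x with
  | zero => simp
  | add x y hx hy => rw [smul_add, map_add, hx, hy, map_add, mul_add]
  | tmul b y =>
    rw [TensorProduct.smul_tmul', D.ch2_tmul, D.ch2_tmul, smul_eq_mul, ← mul_assoc]
    congr 1
    exact map_mul (pow2 (C := C) P.N P.N_pos) (show F2 C from a) (show F2 C from b)

/-- the dimension count -/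
theorem finrank_sigma [Fintype (Pole C K)] (A : Type*) [Field A] [Algebra (RatFunc C) A] :
    Module.finrank A ((Σ P : Pole C K, Fin P.N) → A) = Module.finrank A (A ⊗[RatFunc C] K) := by
  rw [Module.finrank_fintype_fun_eq_card, Fintype.card_sigma, Module.finrank_baseChange, ← sum_N]
  simp

theorem Charts.bij0_of_bij2 (D : Charts C K) (c : Cˣ) (hr : D.r0 ≤ ‖(c : C)‖) (γ : Pole C K → Cˣ)
    (hc : ∀ P, γ P ^ P.N = c)
    (h2 : Function.Surjective (fun (x : F2r C c ⊗[RatFunc C] K) (P : Pole C K) =>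
      D.ch2 P (γ P) c (hc P) hr x)) :
    Function.Bijective (fun (x : F0r C c ⊗[RatFunc C] K) (P : Pole C K) =>
      D.ch0 P (γ P) c (hc P) hr x) := by
  classical
  have hfin : Fintype (Pole C K) := Fintype.ofFinite _
  choose x hx using fun i : (Σ P : Pole C K, Fin P.N) =>
    h2 (Pi.single (M := fun _ : Pole C K => F2 C) i.1 (t2 ^ (i.2 : ℕ)))
  let Ψ : ((Σ P : Pole C K, Fin P.N) → F0r C c) →ₗ[F0r C c] F0r C c ⊗[RatFunc C] K :=
    { toFun := fun a => ∑ i, a i • bc (RatFunc C) (F2r C c) (F0r C c) K (x i)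
      map_add' := fun a b => by simp [add_smul, Finset.sum_add_distrib]
      map_smul' := fun r a => by simp [mul_smul, Finset.smul_sum] }
  have key : ∀ (a : (Σ P : Pole C K, Fin P.N) → F0r C c) (Q : Pole C K),
      D.ch0 Q (γ Q) c (hc Q) hr (Ψ a) = ∑ j : Fin Q.N,
        pow0 Q.N Q.N_pos (show F0 C from a ⟨Q, j⟩) * tt C ^ (j : ℕ) := by
    intro a Q
    change D.ch0 Q (γ Q) c (hc Q) hr (∑ i, a i • bc (RatFunc C) (F2r C c) (F0r C c) K (x i)) = _
    rw [map_sum, Fintype.sum_sigma, Finset.sum_eq_single Q]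
    · refine Finset.sum_congr rfl fun j _ => ?_
      rw [D.ch0_smul, D.ch0_bc]
      congr 1
      have h3 := congrFun (hx ⟨Q, j⟩) Q
      change D.ch2 Q (γ Q) c (hc Q) hr (x ⟨Q, j⟩) = _ at h3
      rw [h3, Pi.single_eq_same]
      rfl
    · intro P _ hPQ
      refine Finset.sum_eq_zero fun j _ => ?_
      rw [D.ch0_smul, D.ch0_bc]
      have h3 := congrFun (hx ⟨P, j⟩) Q
      change D.ch2 Q (γ Q) c (hc Q) hr (x ⟨P, j⟩) = _ at h3
      rw [h3, Pi.single_eq_of_ne (Ne.symm hPQ)]
      exact mul_zero _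
    · intro h
      exact absurd (Finset.mem_univ _) h
  have hbij : Function.Bijective (fun (a : (Σ P : Pole C K, Fin P.N) → F0r C c) (Q : Pole C K) =>
      D.ch0 Q (γ Q) c (hc Q) hr (Ψ a)) := by
    constructor
    · intro a b hab
      funext ⟨Q, j⟩
      have h3 := congrFun hab Q
      change D.ch0 Q (γ Q) c (hc Q) hr (Ψ a) = D.ch0 Q (γ Q) c (hc Q) hr (Ψ b) at h3
      rw [key, key] at h3
      exact congrFun ((bij_pow0 Q.N Q.N_pos).1 h3) j
    · intro z
      choose a ha using fun Q : Pole C K => (bij_pow0 (C := C) Q.N Q.N_pos).2 (z Q)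
      let b : (Σ P : Pole C K, Fin P.N) → F0r C c := fun i => a i.1 i.2
      refine ⟨b, ?_⟩
      funext Q
      exact (key b Q).trans (ha Q)
  have hinj : Function.Injective Ψ := fun a b hab => hbij.1 (by
    funext Q
    change D.ch0 Q (γ Q) c (hc Q) hr (Ψ a) = D.ch0 Q (γ Q) c (hc Q) hr (Ψ b)
    rw [hab])
  have hsurj : Function.Surjective Ψ :=
    (LinearMap.injective_iff_surjective_of_finrank_eq_finrank (finrank_sigma (F0r C c))).mp hinj
  constructor
  · intro y z hyz
    obtain ⟨a, rfl⟩ := hsurj y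
    obtain ⟨b, rfl⟩ := hsurj z
    rw [hbij.1 hyz]
  · intro z
    obtain ⟨a, ha⟩ := hbij.2 z
    exact ⟨Ψ a, ha⟩

end charts

end

end P025H210
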