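import Vale.Agent.P025.R2.H210.Bij0

/-!
# P025 G-DISC (5.1): `bij2` and `bij0` (helper210)
-/

open Polynomial TensorProduct P025H373 P025H544 P025H628 Vale.Agent.P019P

universe u v

namespace P025H210

noncomputable section

set_option linter.unusedSectionVars false

/-- a sum with a unique term of smallest order is not zero -/
theorem sum_ne_zero_of_order {k ι : Type*} [Field k] (s : Finset ι) (z : ι → LaurentSeries k)
    (i : ι) (hi : i ∈ s) (h0 : z i ≠ 0)
    (h : ∀ j ∈ s, j ≠ i → z j ≠ 0 → (z i).order < (z j).order) : ∑ j ∈ s, z j ≠ 0 := by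
  intro h1
  have h2 : (∑ j ∈ s, z j).coeff (z i).order = 0 := by rw [h1]; rfl
  rw [HahnSeries.coeff_sum, Finset.sum_eq_single_of_mem i hi] at h2
  · exact h0 (HahnSeries.coeff_order_eq_zero.mp h2)
  · intro j hj hji
    rcases eq_or_ne (z j) 0 with h3 | h3
    · rw [h3]; rfl
    · exact HahnSeries.coeff_eq_zero_of_lt_order (h j hj hji h3)

section charts

variable {C : Type u} [NontriviallyNormedField C] [IsUltrametricDist C] [CompleteSpace C]
  [IsAlgClosed C] [CharZero C]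
  {K : Type v} [Field K] [Algebra C K] [Algebra (RatFunc C) K] [IsScalarTower C (RatFunc C) K]
  [FiniteDimensional (RatFunc C) K] [CFF C K]

/-- functions with given behaviour at the poles of `T`. -/
theorem exists_basis : ∃ y : (Σ P : Pole C K, Fin P.N) → K, (∀ i, y i ≠ 0) ∧
    (∀ i, ord i.1.1 (y i) = (i.2 : ℕ)) ∧ ∀ i (Q : Pole C K), Q ≠ i.1 → ord Q.1 (y i) = Q.N := by
  classical
  have hfin : Fintype (Pole C K) := Fintype.ofFinite _
  choose y hy0 hy using fun i : (Σ P : Pole C K, Fin P.N) =>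
    exists_ord_eq ((Finset.univ : Finset (Pole C K)).image Subtype.val)
      (fun Q => if Q = i.1.1 then ((i.2 : ℕ) : ℤ) else -ord Q (TT C K))
  have hmem : ∀ Q : Pole C K, Q.1 ∈ (Finset.univ : Finset (Pole C K)).image Subtype.val :=
    fun Q => Finset.mem_image_of_mem _ (Finset.mem_univ Q)
  refine ⟨y, hy0, fun i => ?_, fun i Q hQ => ?_⟩
  · rw [hy i _ (hmem i.1), if_pos rfl]
  · rw [hy i _ (hmem Q), if_neg (fun h => hQ (Subtype.ext h)), Q.ord_eq, neg_neg]

theorem Charts.bij2 (D : Charts C K) (c : Cˣ) (hr : D.r0 ≤ ‖(c : C)‖) (γ : Pole C K → Cˣ)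
    (hc : ∀ P, γ P ^ P.N = c) :
    Function.Bijective (fun (x : F2r C c ⊗[RatFunc C] K) (P : Pole C K) =>
      D.ch2 P (γ P) c (hc P) hr x) := by
  classical
  have hfin : Fintype (Pole C K) := Fintype.ofFinite _
  obtain ⟨y, hy0, hy1, hy2⟩ := exists_basis (C := C) (K := K)
  let Ψ : ((Σ P : Pole C K, Fin P.N) → F2r C c) →ₗ[F2r C c] F2r C c ⊗[RatFunc C] K :=
    { toFun := fun a => ∑ i, a i ⊗ₜ[RatFunc C] y i
      map_add' := fun a b => by simp [TensorProduct.add_tmul, Finset.sum_add_distrib]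
      map_smul' := fun r a => by simp [Finset.smul_sum, TensorProduct.smul_tmul'] }
  have key : ∀ (a : (Σ P : Pole C K, Fin P.N) → F2r C c) (Q : Pole C K),
      D.ch2 Q (γ Q) c (hc Q) hr (Ψ a) = ∑ i,
        pow2 Q.N Q.N_pos (show F2 C from a i) * D.ψ Q (γ Q) (y i) := by
    intro a Q
    change D.ch2 Q (γ Q) c (hc Q) hr (∑ i, a i ⊗ₜ[RatFunc C] y i) = _
    rw [map_sum]
    exact Finset.sum_congr rfl fun i _ => D.ch2_tmul Q (γ Q) c (hc Q) hr (a i) (y i)
  -- injectivity of `Φ ∘ Ψ`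
  have hinj0 : ∀ a : (Σ P : Pole C K, Fin P.N) → F2r C c,
      (∀ Q, D.ch2 Q (γ Q) c (hc Q) hr (Ψ a) = 0) → a = 0 := by
    intro a ha
    by_contra hne
    let b : (Σ P : Pole C K, Fin P.N) → F2 C := a
    let S : Finset (Σ P : Pole C K, Fin P.N) := Finset.univ.filter fun i => b i ≠ 0
    have hS : S.Nonempty := by
      by_contra hS
      rw [Finset.not_nonempty_iff_eq_empty] at hS
      apply hne
      funext i
      by_contra h1
      have : i ∈ S := Finset.mem_filter.mpr ⟨Finset.mem_univ i, h1⟩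
      rw [hS] at this
      exact absurd this (Finset.notMem_empty i)
    let μ : (Σ P : Pole C K, Fin P.N) → ℚ := fun i =>
      ((lamInf (b i)).order : ℚ) + ((i.2 : ℕ) : ℚ) / (i.1.N : ℚ)
    obtain ⟨i1, hi1, hmin⟩ := Finset.exists_min_image S μ hS
    have hb1 : b i1 ≠ 0 := (Finset.mem_filter.mp hi1).2
    set P := i1.1 with hP
    have hNP : (0 : ℚ) < (P.N : ℚ) := by exact_mod_cast P.N_pos
    have hrP : D.r0 ≤ ‖((γ P : Cˣ) : C)‖ ^ P.N := by rw [norm_pow_of_eq (hc P)]; exact hr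
    have hz : ∀ i, b i ≠ 0 → lamInf (pow2 P.N P.N_pos (b i) * D.ψ P (γ P) (y i)) ≠ 0 := by
      intro i hi
      apply lamInf_ne_zero
      refine mul_ne_zero ?_ ?_
      · exact (map_ne_zero_iff _ (pow2 (C := C) P.N P.N_pos : F2 C →+* F2 C).injective).mpr hi
      · exact (map_ne_zero_iff _ (D.ψ P (γ P) : K →+* F2 C).injective).mpr (hy0 i)
    have hord : ∀ i, b i ≠ 0 → (lamInf (pow2 P.N P.N_pos (b i) * D.ψ P (γ P) (y i))).order =
        P.N * (lamInf (b i)).order + ord P.1 (y i) := by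
      intro i hi
      have h1 := hz i hi
      rw [map_mul] at h1 ⊢
      rw [HahnSeries.order_mul (left_ne_zero_of_mul h1) (right_ne_zero_of_mul h1),
        order_lamInf_pow2, D.order_eq P (γ P) hrP (y i) (hy0 i)]
    have h2 := congrArg lamInf (ha P)
    rw [key, map_sum, map_zero] at h2
    refine sum_ne_zero_of_order Finset.univ
      (fun i => lamInf (pow2 P.N P.N_pos (b i) * D.ψ P (γ P) (y i))) i1 (Finset.mem_univ _)
      (hz i1 hb1) ?_ h2
    intro j _ hj hzj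
    have hbj : b j ≠ 0 := by
      rintro h3
      apply hzj
      rw [h3, map_zero, zero_mul, map_zero]
    have hjS : j ∈ S := Finset.mem_filter.mpr ⟨Finset.mem_univ j, hbj⟩
    have hμ := hmin j hjS
    change (lamInf (pow2 P.N P.N_pos (b i1) * D.ψ P (γ P) (y i1))).order <
      (lamInf (pow2 P.N P.N_pos (b j) * D.ψ P (γ P) (y j))).order
    rw [hord i1 hb1, hord j hbj, hy1 i1]
    have h4 : ((P.N * (lamInf (b i1)).order + ((i1.2 : ℕ) : ℤ) : ℤ) : ℚ) = P.N * μ i1 := by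
      push_cast
      change _ = (P.N : ℚ) * (((lamInf (b i1)).order : ℚ) + ((i1.2 : ℕ) : ℚ) / (P.N : ℚ))
      field_simp
    have h5 : (P.N : ℚ) * μ i1 ≤ P.N * μ j := mul_le_mul_of_nonneg_left hμ hNP.le
    rcases eq_or_ne P j.1 with hPj | hPj
    · -- the same block
      have hNN : P.N = j.1.N := congrArg Pole.N hPj
      have h6 : ord P.1 (y j) = ((j.2 : ℕ) : ℤ) := by
        rw [show P.1 = j.1.1 from congrArg Subtype.val hPj]
        exact hy1 j
      have h7 : ((P.N * (lamInf (b j)).order + ((j.2 : ℕ) : ℤ) : ℤ) : ℚ) = P.N * μ j := by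
        push_cast
        change _ = (P.N : ℚ) * (((lamInf (b j)).order : ℚ) + ((j.2 : ℕ) : ℚ) / (j.1.N : ℚ))
        have hNQ : (j.1.N : ℚ) = (P.N : ℚ) := by exact_mod_cast hNN.symm
        rw [hNQ]
        field_simp
      rw [h6]
      refine lt_of_le_of_ne ?_ ?_
      · have h8 := h4.trans_le (h5.trans_eq h7.symm)
        exact_mod_cast h8
      · intro h9
        apply hj
        have hl1 : (i1.2 : ℕ) < P.N := i1.2.2
        have hl2 : (j.2 : ℕ) < P.N := by
          rw [hNN]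
          exact j.2.2
        have h10 : ((j.2 : ℕ) : ℤ) = ((i1.2 : ℕ) : ℤ) := by
          have e1 : (P.N * (lamInf (b i1)).order + ((i1.2 : ℕ) : ℤ)) % (P.N : ℤ) =
              ((i1.2 : ℕ) : ℤ) := by
            rw [Int.mul_add_emod_self_left]
            exact Int.emod_eq_of_lt (by positivity) (by exact_mod_cast hl1)
          have e2 : (P.N * (lamInf (b j)).order + ((j.2 : ℕ) : ℤ)) % (P.N : ℤ) =
              ((j.2 : ℕ) : ℤ) := by
            rw [Int.mul_add_emod_self_left]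
            exact Int.emod_eq_of_lt (by positivity) (by exact_mod_cast hl2)
          rw [← e2, ← h9, e1]
        have h11 : (j.2 : ℕ) = (i1.2 : ℕ) := by exact_mod_cast h10
        obtain ⟨Q, j2⟩ := j
        obtain ⟨P', i2⟩ := i1
        change P' = Q at hPj
        subst hPj
        exact congrArg _ (Fin.ext h11)
    · -- another block
      rw [hy2 j P hPj]
      have h6 : μ j < ((lamInf (b j)).order : ℚ) + 1 := by
        change ((lamInf (b j)).order : ℚ) + ((j.2 : ℕ) : ℚ) / (j.1.N : ℚ) < _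
        have hN : (0 : ℚ) < (j.1.N : ℚ) := by exact_mod_cast j.1.N_pos
        have : ((j.2 : ℕ) : ℚ) / (j.1.N : ℚ) < 1 := by
          rw [div_lt_one hN]
          exact_mod_cast j.2.2
        linarith
      have h7 : (P.N : ℚ) * μ j < P.N * (((lamInf (b j)).order : ℚ) + 1) :=
        mul_lt_mul_of_pos_left h6 hNP
      have h8 : ((P.N * (lamInf (b i1)).order + ((i1.2 : ℕ) : ℤ) : ℤ) : ℚ) <
          ((P.N * (lamInf (b j)).order + (P.N : ℤ) : ℤ) : ℚ) := by
        rw [h4]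
        push_cast
        linarith
      exact_mod_cast h8
  have hinj1 : ∀ a a' : (Σ P : Pole C K, Fin P.N) → F2r C c,
      (∀ Q, D.ch2 Q (γ Q) c (hc Q) hr (Ψ a) = D.ch2 Q (γ Q) c (hc Q) hr (Ψ a')) → a = a' := by
    intro a a' h
    refine sub_eq_zero.mp (hinj0 (a - a') fun Q => ?_)
    rw [map_sub, map_sub, h, sub_self]
  have hinj : Function.Injective Ψ := fun a a' h => hinj1 a a' fun Q => by rw [h]
  have hsurj : Function.Surjective Ψ :=
    (LinearMap.injective_iff_surjective_of_finrank_eq_finrank (finrank_sigma (F2r C c))).mp hinj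
  -- coordinates on the product side
  choose θ hθ using fun (Q : Pole C K) (z : F2 C) => (bij_pow2 (C := C) Q.N Q.N_pos).2 z
  have hθ' : ∀ (Q : Pole C K) (z : F2 C), ∑ i, pow2 Q.N Q.N_pos (θ Q z i) * t2 ^ (i : ℕ) = z := hθ
  have huniq : ∀ (Q : Pole C K) (a b : Fin Q.N → F2 C),
      ∑ i, pow2 Q.N Q.N_pos (a i) * t2 ^ (i : ℕ) = ∑ i, pow2 Q.N Q.N_pos (b i) * t2 ^ (i : ℕ) →
      a = b := fun Q a b h => (bij_pow2 (C := C) Q.N Q.N_pos).1 h
  let Θ : ((Σ P : Pole C K, Fin P.N) → F2r C c) →ₗ[F2r C c]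
      ((Σ P : Pole C K, Fin P.N) → F2r C c) :=
    { toFun := fun a i => θ i.1 (D.ch2 i.1 (γ i.1) c (hc i.1) hr (Ψ a)) i.2
      map_add' := fun a b => by
        funext ⟨Q, j⟩
        refine congrFun (huniq Q (θ Q (D.ch2 Q (γ Q) c (hc Q) hr (Ψ (a + b))))
          (fun j => θ Q (D.ch2 Q (γ Q) c (hc Q) hr (Ψ a)) j +
            θ Q (D.ch2 Q (γ Q) c (hc Q) hr (Ψ b)) j) ?_) j
        rw [hθ', map_add, map_add]
        conv_lhs => rw [← hθ' Q (D.ch2 Q (γ Q) c (hc Q) hr (Ψ a)),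
          ← hθ' Q (D.ch2 Q (γ Q) c (hc Q) hr (Ψ b)), ← Finset.sum_add_distrib]
        refine Finset.sum_congr rfl fun i _ => ?_
        rw [map_add, add_mul]
      map_smul' := fun r a => by
        funext ⟨Q, j⟩
        refine congrFun (huniq Q (θ Q (D.ch2 Q (γ Q) c (hc Q) hr (Ψ (r • a))))
          (fun j => (show F2 C from r) * θ Q (D.ch2 Q (γ Q) c (hc Q) hr (Ψ a)) j) ?_) j
        rw [hθ', map_smul, D.ch2_smul]
        conv_lhs => rw [← hθ' Q (D.ch2 Q (γ Q) c (hc Q) hr (Ψ a)), Finset.mul_sum]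
        refine Finset.sum_congr rfl fun i _ => ?_
        rw [map_mul, mul_assoc] }
  have hΘinj : Function.Injective Θ := by
    intro a a' h
    refine hinj1 a a' fun Q => ?_
    rw [← hθ' Q (D.ch2 Q (γ Q) c (hc Q) hr (Ψ a)), ← hθ' Q (D.ch2 Q (γ Q) c (hc Q) hr (Ψ a'))]
    refine Finset.sum_congr rfl fun i _ => ?_
    have h3 : θ Q (D.ch2 Q (γ Q) c (hc Q) hr (Ψ a)) i =
        θ Q (D.ch2 Q (γ Q) c (hc Q) hr (Ψ a')) i := congrFun h ⟨Q, i⟩
    rw [h3]
  have hΘsurj : Function.Surjective Θ := LinearMap.injective_iff_surjective.mp hΘinj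
  constructor
  · intro x x' h
    obtain ⟨a, rfl⟩ := hsurj x
    obtain ⟨a', rfl⟩ := hsurj x'
    rw [hinj1 a a' fun Q => congrFun h Q]
  · intro z
    let b : (Σ P : Pole C K, Fin P.N) → F2r C c := fun i => θ i.1 (z i.1) i.2
    obtain ⟨a, ha⟩ := hΘsurj b
    refine ⟨Ψ a, ?_⟩
    funext Q
    change D.ch2 Q (γ Q) c (hc Q) hr (Ψ a) = z Q
    rw [← hθ' Q (D.ch2 Q (γ Q) c (hc Q) hr (Ψ a)), ← hθ' Q (z Q)]
    refine Finset.sum_congr rfl fun i _ => ?_
    have h3 : θ Q (D.ch2 Q (γ Q) c (hc Q) hr (Ψ a)) i = θ Q (z Q) i := congrFun ha ⟨Q, i⟩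
    rw [h3]

theorem Charts.bij0 (D : Charts C K) (c : Cˣ) (hr : D.r0 ≤ ‖(c : C)‖) (γ : Pole C K → Cˣ)
    (hc : ∀ P, γ P ^ P.N = c) :
    Function.Bijective (fun (x : F0r C c ⊗[RatFunc C] K) (P : Pole C K) =>
      D.ch0 P (γ P) c (hc P) hr x) :=
  D.bij0_of_bij2 c hr γ hc (D.bij2 c hr γ hc).2

end charts

end

end P025H210
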