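import Mathlib

/-! # Cartan's lemma (multiplicative decomposition) in complete ultrametric rings

`M` a complete ultrametric normed ring (for example matrices over a complete ultrametric field),
`A`, `B` closed subrings such that every `x : M` is `a + b` with `a ∈ A`, `b ∈ B` and
`‖a‖, ‖b‖ ≤ ‖x‖`. Then every `g` with `‖g - 1‖ < 1` is `u * v` with `u ∈ A`, `v ∈ B` both invertible
in `A`, `B`. -/

open Filter Topology

namespace P025H210

variable {M : Type*} [NormedRing M] [NormOneClass M] [IsUltrametricDist M] [CompleteSpace M]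

omit [CompleteSpace M] in
lemma norm_one_add_le {x : M} (h1 : ‖x‖ ≤ 1) : ‖1 + x‖ ≤ 1 := by
  refine (IsUltrametricDist.norm_add_le_max _ _).trans ?_
  rw [norm_one]
  exact max_le le_rfl h1

/-- `1 + x` for `x ∈ A`, `‖x‖ < 1` has an inverse in the closed subring `A`, close to `1 - x`. -/
lemma exists_inv_mem (A : Subring M) (hA : IsClosed (A : Set M)) {x : M} (hx : x ∈ A)
    (h1 : ‖x‖ < 1) :
    ∃ y ∈ A, (1 + x) * y = 1 ∧ y * (1 + x) = 1 ∧ ‖y - 1‖ ≤ ‖x‖ ∧ ‖y - 1 + x‖ ≤ ‖x‖ ^ 2 := by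
  have h1' : ‖-x‖ < 1 := by rwa [norm_neg]
  have hs : Summable (fun n : ℕ => (-x) ^ n) := summable_geometric_of_norm_lt_one h1'
  set y : M := ∑' n : ℕ, (-x) ^ n with hy
  have hm1 : (1 - -x) * y = 1 := mul_neg_geom_series (-x) h1'
  have hm2 : y * (1 - -x) = 1 := geom_series_mul_neg (-x) h1'
  rw [sub_neg_eq_add] at hm1 hm2
  have ht : Tendsto (fun N : ℕ => ∑ n ∈ Finset.range N, (-x) ^ n) atTop (𝓝 y) :=
    hs.hasSum.tendsto_sum_nat
  have hyA : y ∈ A :=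
    hA.mem_of_tendsto ht (Eventually.of_forall fun N =>
      A.sum_mem fun n _ => A.pow_mem (A.neg_mem hx) n)
  have hynorm : ‖y‖ ≤ 1 := by
    refine le_of_tendsto ht.norm (Eventually.of_forall fun N => ?_)
    refine IsUltrametricDist.norm_sum_le_of_forall_le_of_nonneg zero_le_one fun n _ => ?_
    calc ‖(-x) ^ n‖ ≤ ‖-x‖ ^ n := norm_pow_le _ _
      _ ≤ 1 := pow_le_one₀ (norm_nonneg _) h1'.le
  have e0 : y + x * y = 1 := by rw [← hm1, add_mul, one_mul]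
  have e1 : y - 1 = -(x * y) := by rw [← e0]; abel
  have e2 : y - 1 + x = x * (x * y) := by
    have h : x = x * y + x * (x * y) := by rw [← mul_add, e0, mul_one]
    calc y - 1 + x = -(x * y) + x := by rw [e1]
      _ = -(x * y) + (x * y + x * (x * y)) := by rw [← h]
      _ = x * (x * y) := by abel
  refine ⟨y, hyA, hm1, hm2, ?_, ?_⟩
  · rw [e1, norm_neg]
    calc ‖x * y‖ ≤ ‖x‖ * ‖y‖ := norm_mul_le _ _
      _ ≤ ‖x‖ * 1 := by gcongr
      _ = ‖x‖ := mul_one _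
  · rw [e2]
    calc ‖x * (x * y)‖ ≤ ‖x‖ * ‖x * y‖ := norm_mul_le _ _
      _ ≤ ‖x‖ * (‖x‖ * ‖y‖) := by gcongr; exact norm_mul_le _ _
      _ ≤ ‖x‖ * (‖x‖ * 1) := by gcongr
      _ = ‖x‖ ^ 2 := by ring

omit [NormOneClass M] [CompleteSpace M] in
lemma norm_add_le_of {x y : M} {c : ℝ} (hx : ‖x‖ ≤ c) (hy : ‖y‖ ≤ c) : ‖x + y‖ ≤ c :=
  (IsUltrametricDist.norm_add_le_max _ _).trans (max_le hx hy)

omit [NormOneClass M] [IsUltrametricDist M] [CompleteSpace M] in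
lemma norm_mul_le_of {x y : M} {c d : ℝ} (hx : ‖x‖ ≤ c) (hy : ‖y‖ ≤ d) (hc : 0 ≤ c) :
    ‖x * y‖ ≤ c * d :=
  (norm_mul_le _ _).trans (mul_le_mul hx hy (norm_nonneg _) hc)

/-- one step of the iteration -/
lemma cartan_step (A B : Subring M) (hA : IsClosed (A : Set M)) (hB : IsClosed (B : Set M))
    (hdec : ∀ x : M, ∃ a ∈ A, ∃ b ∈ B, x = a + b ∧ ‖a‖ ≤ ‖x‖ ∧ ‖b‖ ≤ ‖x‖) {g : M}
    (hg : ‖g - 1‖ < 1) :
    ∃ c ∈ A, ∃ c' ∈ A, ∃ d ∈ B, ∃ d' ∈ B, ∃ g' : M,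
      c * c' = 1 ∧ c' * c = 1 ∧ d * d' = 1 ∧ d' * d = 1 ∧ g = c * g' * d ∧
      ‖g' - 1‖ ≤ ‖g - 1‖ ^ 2 ∧ ‖c - 1‖ ≤ ‖g - 1‖ ∧ ‖c' - 1‖ ≤ ‖g - 1‖ ∧
      ‖d - 1‖ ≤ ‖g - 1‖ ∧ ‖d' - 1‖ ≤ ‖g - 1‖ := by
  obtain ⟨a, ha, b, hb, hab, hna, hnb⟩ := hdec (g - 1)
  obtain ⟨p, hp, p1, p2, p3, p4⟩ := exists_inv_mem A hA ha (hna.trans_lt hg)
  obtain ⟨q, hq, q1, q2, q3, q4⟩ := exists_inv_mem B hB hb (hnb.trans_lt hg)
  set r := ‖g - 1‖ with hr
  have hr0 : 0 ≤ r := norm_nonneg _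
  have hg' : g = 1 + (a + b) := by rw [← hab]; abel
  refine ⟨1 + a, A.add_mem A.one_mem ha, p, hp, 1 + b, B.add_mem B.one_mem hb, q, hq, p * g * q,
    p1, p2, q1, q2, ?_, ?_, by simpa using hna, p3.trans hna, by simpa using hnb, q3.trans hnb⟩
  · calc g = ((1 + a) * p) * g * (q * (1 + b)) := by rw [p1, q2, one_mul, mul_one]
      _ = (1 + a) * (p * g * q) * (1 + b) := by simp only [mul_assoc]
  · set α := p - 1 + a with hα
    set β := q - 1 + b with hβ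
    have hp' : p = 1 - a + α := by rw [hα]; abel
    have hq' : q = 1 - b + β := by rw [hβ]; abel
    have hα2 : ‖α‖ ≤ r ^ 2 := p4.trans (by gcongr)
    have hβ2 : ‖β‖ ≤ r ^ 2 := q4.trans (by gcongr)
    have hexp : p * g * q - 1 =
        -(a * a) - a * b - b * b + a * a * b + a * b * b + α * (g * q) + (1 - a) * g * β := by
      have h1 : (1 - a) * g * (1 - b) =
          1 - a * a - a * b - b * b + a * a * b + a * b * b := by
        rw [hg']; noncomm_ring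
      calc p * g * q - 1 = (1 - a) * g * q + α * (g * q) - 1 := by
            rw [hp']; noncomm_ring
        _ = (1 - a) * g * (1 - b) + (1 - a) * g * β + α * (g * q) - 1 := by
            nth_rewrite 1 [hq']; noncomm_ring
        _ = _ := by rw [h1]; abel
    rw [hexp]
    have hr1 : r ≤ 1 := hg.le
    have hgn : ‖g‖ ≤ 1 := by
      have : g = 1 + (g - 1) := by abel
      rw [this]; exact norm_one_add_le hr1
    have hqn : ‖q‖ ≤ 1 := by
      have : q = 1 + (q - 1) := by abel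
      rw [this]; exact norm_one_add_le (q3.trans (hnb.trans hr1))
    have han : ‖1 - a‖ ≤ 1 := by
      rw [sub_eq_add_neg]; exact norm_one_add_le (by rw [norm_neg]; exact hna.trans hr1)
    have aa : ‖a * a‖ ≤ r ^ 2 := by
      rw [sq]; exact norm_mul_le_of hna hna hr0
    have ab : ‖a * b‖ ≤ r ^ 2 := by
      rw [sq]; exact norm_mul_le_of hna hnb hr0
    have bb : ‖b * b‖ ≤ r ^ 2 := by
      rw [sq]; exact norm_mul_le_of hnb hnb hr0
    have hr2 : 0 ≤ r ^ 2 := sq_nonneg r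
    have aab : ‖a * a * b‖ ≤ r ^ 2 := by
      calc ‖a * a * b‖ ≤ r ^ 2 * 1 := norm_mul_le_of aa (hnb.trans hr1) hr2
        _ = r ^ 2 := mul_one _
    have abb : ‖a * b * b‖ ≤ r ^ 2 := by
      calc ‖a * b * b‖ ≤ r ^ 2 * 1 := norm_mul_le_of ab (hnb.trans hr1) hr2
        _ = r ^ 2 := mul_one _
    have t1 : ‖α * (g * q)‖ ≤ r ^ 2 := by
      calc ‖α * (g * q)‖ ≤ r ^ 2 * (1 * 1) :=
            norm_mul_le_of hα2 (norm_mul_le_of hgn hqn zero_le_one) hr2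
        _ = r ^ 2 := by ring
    have t2 : ‖(1 - a) * g * β‖ ≤ r ^ 2 := by
      calc ‖(1 - a) * g * β‖ ≤ (1 * 1) * r ^ 2 :=
            norm_mul_le_of (norm_mul_le_of han hgn zero_le_one) hβ2 (by norm_num)
        _ = r ^ 2 := by ring
    have n1 : ‖-(a * a)‖ ≤ r ^ 2 := by rwa [norm_neg]
    have n2 : ‖-(a * b)‖ ≤ r ^ 2 := by rwa [norm_neg]
    have n3 : ‖-(b * b)‖ ≤ r ^ 2 := by rwa [norm_neg]
    simp only [sub_eq_add_neg]
    have t2' : ‖(1 + -a) * g * β‖ ≤ r ^ 2 := by rwa [← sub_eq_add_neg]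
    exact norm_add_le_of (norm_add_le_of (norm_add_le_of (norm_add_le_of (norm_add_le_of
      (norm_add_le_of n1 n2) n3) aab) abb) t1) t2'

/-- the data after `n` steps -/
structure CStep (A B : Subring M) (g : M) (r : ℝ) where
  u : M
  u' : M
  v : M
  v' : M
  h : M
  n : ℕ
  hu : u ∈ A
  hu' : u' ∈ A
  hv : v ∈ B
  hv' : v' ∈ B
  uu' : u * u' = 1
  u'u : u' * u = 1
  vv' : v * v' = 1
  v'v : v' * v = 1
  eq : g = u * h * v
  hh : ‖h - 1‖ ≤ r ^ (n + 1)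
  nu : ‖u - 1‖ ≤ r
  nu' : ‖u' - 1‖ ≤ r
  nv : ‖v - 1‖ ≤ r
  nv' : ‖v' - 1‖ ≤ r

omit [CompleteSpace M] in
lemma norm_le_one_of {x : M} {r : ℝ} (hx : ‖x - 1‖ ≤ r) (hr : r ≤ 1) : ‖x‖ ≤ 1 := by
  have : x = 1 + (x - 1) := by abel
  rw [this]; exact norm_one_add_le (hx.trans hr)

omit [CompleteSpace M] in
lemma norm_mul_sub_one_le {x y : M} {r : ℝ} (hr : r ≤ 1) (hx : ‖x - 1‖ ≤ r) (hy : ‖y - 1‖ ≤ r) :
    ‖x * y - 1‖ ≤ r := by
  have hr0 : 0 ≤ r := (norm_nonneg _).trans hx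
  have : x * y - 1 = (x - 1) * y + (y - 1) := by noncomm_ring
  rw [this]
  refine norm_add_le_of ?_ hy
  calc ‖(x - 1) * y‖ ≤ r * 1 := norm_mul_le_of hx (norm_le_one_of hy hr) hr0
    _ = r := mul_one _

/-- the next step, with the control of the differences -/
lemma exists_next (A B : Subring M) (hA : IsClosed (A : Set M)) (hB : IsClosed (B : Set M))
    (hdec : ∀ x : M, ∃ a ∈ A, ∃ b ∈ B, x = a + b ∧ ‖a‖ ≤ ‖x‖ ∧ ‖b‖ ≤ ‖x‖) {g : M} {r : ℝ}
    (hr : r < 1) (s : CStep A B g r) :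
    ∃ t : CStep A B g r, t.n = s.n + 1 ∧ ‖s.u - t.u‖ ≤ r ^ (s.n + 1) ∧
      ‖s.u' - t.u'‖ ≤ r ^ (s.n + 1) ∧ ‖s.v - t.v‖ ≤ r ^ (s.n + 1) ∧
      ‖s.v' - t.v'‖ ≤ r ^ (s.n + 1) := by
  have hr0 : 0 ≤ r := (norm_nonneg _).trans s.nu
  have hlt : ‖s.h - 1‖ < 1 := s.hh.trans_lt (pow_lt_one₀ hr0 hr (Nat.succ_ne_zero _))
  obtain ⟨c, hc, c', hc', d, hd, d', hd', g', cc', c'c, dd', d'd, heq, hg', nc, nc', nd, nd'⟩ :=
    cartan_step A B hA hB hdec hlt
  have hle : ‖s.h - 1‖ ≤ r := s.hh.trans (by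
    calc r ^ (s.n + 1) ≤ r ^ 1 := pow_le_pow_of_le_one hr0 hr.le (by omega)
      _ = r := pow_one r)
  have key : ∀ {x y : M}, ‖x - 1‖ ≤ r → ‖y - 1‖ ≤ r ^ (s.n + 1) →
      ‖x - x * y‖ ≤ r ^ (s.n + 1) ∧ ‖x - y * x‖ ≤ r ^ (s.n + 1) := by
    intro x y hx hy
    have hx1 := norm_le_one_of hx hr.le
    have hy' : ‖1 - y‖ ≤ r ^ (s.n + 1) := by rwa [norm_sub_rev]
    constructor
    · have : x - x * y = x * (1 - y) := by noncomm_ring
      rw [this]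
      calc ‖x * (1 - y)‖ ≤ 1 * r ^ (s.n + 1) := norm_mul_le_of hx1 hy' zero_le_one
        _ = _ := one_mul _
    · have : x - y * x = (1 - y) * x := by noncomm_ring
      rw [this]
      calc ‖(1 - y) * x‖ ≤ r ^ (s.n + 1) * 1 := norm_mul_le_of hy' hx1 (by positivity)
        _ = _ := mul_one _
  refine ⟨⟨s.u * c, c' * s.u', d * s.v, s.v' * d', g', s.n + 1, A.mul_mem s.hu hc,
    A.mul_mem hc' s.hu', B.mul_mem hd s.hv, B.mul_mem s.hv' hd', ?_, ?_, ?_, ?_, ?_, ?_,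
    norm_mul_sub_one_le hr.le s.nu (nc.trans hle), norm_mul_sub_one_le hr.le (nc'.trans hle) s.nu',
    norm_mul_sub_one_le hr.le (nd.trans hle) s.nv, norm_mul_sub_one_le hr.le s.nv' (nd'.trans hle)⟩,
    rfl, (key s.nu (nc.trans s.hh)).1, (key s.nu' (nc'.trans s.hh)).2,
    (key s.nv (nd.trans s.hh)).2, (key s.nv' (nd'.trans s.hh)).1⟩
  · calc s.u * c * (c' * s.u') = s.u * (c * c') * s.u' := by simp only [mul_assoc]
      _ = 1 := by rw [cc', mul_one, s.uu']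
  · calc c' * s.u' * (s.u * c) = c' * (s.u' * s.u) * c := by simp only [mul_assoc]
      _ = 1 := by rw [s.u'u, mul_one, c'c]
  · calc d * s.v * (s.v' * d') = d * (s.v * s.v') * d' := by simp only [mul_assoc]
      _ = 1 := by rw [s.vv', mul_one, dd']
  · calc s.v' * d' * (d * s.v) = s.v' * (d' * d) * s.v := by simp only [mul_assoc]
      _ = 1 := by rw [d'd, mul_one, s.v'v]
  · calc g = s.u * s.h * s.v := s.eq
      _ = s.u * (c * g' * d) * s.v := by rw [heq]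
      _ = s.u * c * g' * (d * s.v) := by simp only [mul_assoc]
  · calc ‖g' - 1‖ ≤ ‖s.h - 1‖ ^ 2 := hg'
      _ ≤ (r ^ (s.n + 1)) ^ 2 := by gcongr; exact s.hh
      _ = r ^ ((s.n + 1) * 2) := (pow_mul _ _ _).symm
      _ ≤ r ^ (s.n + 1 + 1) := pow_le_pow_of_le_one hr0 hr.le (by omega)

/-- **Cartan's lemma.** -/
theorem cartan (A B : Subring M) (hA : IsClosed (A : Set M)) (hB : IsClosed (B : Set M))
    (hdec : ∀ x : M, ∃ a ∈ A, ∃ b ∈ B, x = a + b ∧ ‖a‖ ≤ ‖x‖ ∧ ‖b‖ ≤ ‖x‖) {g : M}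
    (hg : ‖g - 1‖ < 1) :
    ∃ u ∈ A, ∃ u' ∈ A, ∃ v ∈ B, ∃ v' ∈ B, u * u' = 1 ∧ u' * u = 1 ∧ v * v' = 1 ∧ v' * v = 1 ∧
      g = u * v ∧ ‖u - 1‖ ≤ ‖g - 1‖ ∧ ‖u' - 1‖ ≤ ‖g - 1‖ ∧ ‖v - 1‖ ≤ ‖g - 1‖ ∧
      ‖v' - 1‖ ≤ ‖g - 1‖ := by
  classical
  set r := ‖g - 1‖ with hr
  have hr0 : 0 ≤ r := norm_nonneg _
  let s0 : CStep A B g r := ⟨1, 1, 1, 1, g, 0, A.one_mem, A.one_mem, B.one_mem, B.one_mem,
    by simp, by simp, by simp, by simp, by simp, by simp [hr], by simpa using hr0,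
    by simpa using hr0, by simpa using hr0, by simpa using hr0⟩
  choose nx hn hu hu' hv hv' using exists_next A B hA hB hdec (g := g) hg
  let S : ℕ → CStep A B g r := fun n => Nat.rec s0 (fun _ t => nx t) n
  have hS : ∀ n, S (n + 1) = nx (S n) := fun n => rfl
  have hSn : ∀ n, (S n).n = n := by
    intro n
    induction n with
    | zero => rfl
    | succ n ih => rw [hS, hn, ih]
  have lim : ∀ f : CStep A B g r → M, (∀ s, ‖f s - f (nx s)‖ ≤ r ^ (s.n + 1)) →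
      ∃ x, Tendsto (fun n => f (S n)) atTop (𝓝 x) := by
    intro f hf
    have hc : CauchySeq (fun n => f (S n)) := by
      refine cauchySeq_of_le_geometric r r hg fun n => ?_
      rw [dist_eq_norm, hS]
      calc ‖f (S n) - f (nx (S n))‖ ≤ r ^ ((S n).n + 1) := hf _
        _ = r * r ^ n := by rw [hSn, pow_succ, mul_comm]
    exact cauchySeq_tendsto_of_complete hc
  obtain ⟨u, hu⟩ := lim (fun s => s.u) hu
  obtain ⟨u', hu'⟩ := lim (fun s => s.u') hu'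
  obtain ⟨v, hv⟩ := lim (fun s => s.v) hv
  obtain ⟨v', hv'⟩ := lim (fun s => s.v') hv'
  have hh : Tendsto (fun n => (S n).h) atTop (𝓝 1) := by
    rw [tendsto_iff_norm_sub_tendsto_zero]
    refine squeeze_zero (fun _ => norm_nonneg _) (fun n => (S n).hh) ?_
    have : Tendsto (fun n : ℕ => r ^ (n + 1)) atTop (𝓝 0) :=
      (tendsto_pow_atTop_nhds_zero_of_lt_one hr0 hg).comp (tendsto_add_atTop_nat 1)
    refine this.congr fun n => by rw [hSn]
  have nrm : ∀ (f : CStep A B g r → M) (x : M), (∀ s, ‖f s - 1‖ ≤ r) →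
      Tendsto (fun n => f (S n)) atTop (𝓝 x) → ‖x - 1‖ ≤ r := fun f x hf hx =>
    le_of_tendsto (hx.sub_const 1).norm (Eventually.of_forall fun n => hf _)
  refine ⟨u, hA.mem_of_tendsto hu (Eventually.of_forall fun n => (S n).hu),
    u', hA.mem_of_tendsto hu' (Eventually.of_forall fun n => (S n).hu'),
    v, hB.mem_of_tendsto hv (Eventually.of_forall fun n => (S n).hv),
    v', hB.mem_of_tendsto hv' (Eventually.of_forall fun n => (S n).hv'), ?_, ?_, ?_, ?_, ?_,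
    nrm _ _ (fun s => s.nu) hu, nrm _ _ (fun s => s.nu') hu', nrm _ _ (fun s => s.nv) hv,
    nrm _ _ (fun s => s.nv') hv'⟩
  · exact tendsto_nhds_unique (hu.mul hu') (tendsto_const_nhds.congr fun n => (S n).uu'.symm)
  · exact tendsto_nhds_unique (hu'.mul hu) (tendsto_const_nhds.congr fun n => (S n).u'u.symm)
  · exact tendsto_nhds_unique (hv.mul hv') (tendsto_const_nhds.congr fun n => (S n).vv'.symm)
  · exact tendsto_nhds_unique (hv'.mul hv) (tendsto_const_nhds.congr fun n => (S n).v'v.symm)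
  · have h1 := (hu.mul hh).mul hv
    rw [mul_one] at h1
    exact tendsto_nhds_unique (tendsto_const_nhds.congr fun n => (S n).eq) h1

end P025H210
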