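import Mathlib

/-! # Algebraic power series over an ultrametric field have geometric coefficient bounds -/

open Polynomial

namespace P025H210

variable {C : Type*} [NormedField C] [IsUltrametricDist C]


/-- coefficients up to `n` bounded by `a M ^ i` -/
def Bd (M : ℝ) (a : ℝ) (n : ℕ) (f : PowerSeries C) : Prop :=
  ∀ i ≤ n, ‖PowerSeries.coeff i f‖ ≤ a * M ^ i

lemma Bd.mul {M a b : ℝ} (hM : 0 ≤ M) (ha : 0 ≤ a) (hb : 0 ≤ b) {n : ℕ} {f g : PowerSeries C}
    (hf : Bd M a n f) (hg : Bd M b n g) : Bd M (a * b) n (f * g) := by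
  intro i hi
  rw [PowerSeries.coeff_mul]
  refine IsUltrametricDist.norm_sum_le_of_forall_le_of_nonneg (by positivity) ?_
  rintro ⟨u, v⟩ huv
  have huv : u + v = i := Finset.HasAntidiagonal.mem_antidiagonal.1 huv
  show ‖PowerSeries.coeff u f * PowerSeries.coeff v g‖ ≤ _
  rw [norm_mul]
  calc ‖PowerSeries.coeff u f‖ * ‖PowerSeries.coeff v g‖ ≤ (a * M ^ u) * (b * M ^ v) := by
        gcongr
        · exact hf u (by omega)
        · exact hg v (by omega)
    _ = a * b * M ^ i := by rw [← huv, pow_add]; ring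

lemma Bd.pow {M a : ℝ} (hM : 0 ≤ M) (ha : 0 ≤ a) {n : ℕ} {f : PowerSeries C}
    (hf : Bd M a n f) (j : ℕ) : Bd M (a ^ j) n (f ^ j) := by
  induction j with
  | zero =>
    intro i hi
    rw [pow_zero, pow_zero, PowerSeries.coeff_one]
    split
    · next h => simp [h]
    · next h => simpa using (by positivity : (0 : ℝ) ≤ 1 * M ^ i)
  | succ j ih =>
    rw [pow_succ, pow_succ]
    exact ih.mul hM (by positivity) ha hf

lemma Bd.sum {M a : ℝ} (hM : 0 ≤ M) (ha : 0 ≤ a) {n : ℕ} {ι : Type*} (s : Finset ι)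
    (f : ι → PowerSeries C) (hf : ∀ j ∈ s, Bd M a n (f j)) : Bd M a n (∑ j ∈ s, f j) := by
  intro i hi
  rw [map_sum]
  exact IsUltrametricDist.norm_sum_le_of_forall_le_of_nonneg (by positivity)
    fun j hj => hf j hj i hi

omit [IsUltrametricDist C] in
lemma Bd.mono {M a b : ℝ} (hM : 0 ≤ M) (hab : a ≤ b) {n : ℕ} {f : PowerSeries C}
    (hf : Bd M a n f) : Bd M b n f := fun i hi =>
  (hf i hi).trans (by gcongr)

/-- all coefficients bounded -/
def BdA (a : ℝ) (f : PowerSeries C) : Prop := ∀ i, ‖PowerSeries.coeff i f‖ ≤ a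

omit [IsUltrametricDist C] in
lemma BdA.bd {a M : ℝ} (hM : 1 ≤ M) (ha : 0 ≤ a) {f : PowerSeries C} (hf : BdA a f) (n : ℕ) :
    Bd M a n f := fun i _ => (hf i).trans (by
  calc a = a * 1 := (mul_one a).symm
    _ ≤ a * M ^ i := by gcongr; exact one_le_pow₀ hM)

omit [IsUltrametricDist C] in
lemma exists_bdA (p : Polynomial C) : ∃ a : ℝ, 0 ≤ a ∧ BdA a (p : PowerSeries C) := by
  refine ⟨∑ i ∈ p.support, ‖p.coeff i‖, Finset.sum_nonneg fun _ _ => norm_nonneg _, fun i => ?_⟩
  rw [Polynomial.coeff_coe]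
  by_cases h : i ∈ p.support
  · exact Finset.single_le_sum (f := fun i => ‖p.coeff i‖) (fun _ _ => norm_nonneg _) h
  · rw [Polynomial.notMem_support_iff.1 h, norm_zero]
    exact Finset.sum_nonneg fun _ _ => norm_nonneg _

omit [IsUltrametricDist C] in
lemma BdA.of_X_pow_mul {a : ℝ} {n : ℕ} {f : PowerSeries C}
    (hf : BdA a (PowerSeries.X ^ n * f)) : BdA a f := fun i => by
  have := hf (i + n)
  rwa [PowerSeries.coeff_X_pow_mul] at this

omit [IsUltrametricDist C] in
lemma BdA.X_pow_mul {a : ℝ} (ha : 0 ≤ a) {n : ℕ} {f : PowerSeries C} (hf : BdA a f) :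
    BdA a (PowerSeries.X ^ n * f) := fun i => by
  rw [PowerSeries.coeff_X_pow_mul']
  split
  · exact hf _
  · simpa using ha

/-- the recursion -/
lemma bound_of_rec {U A w : PowerSeries C} {u a g : ℝ} {d : ℕ} {G : ℕ → PowerSeries C}
    (hU : PowerSeries.coeff 0 U ≠ 0) (hu : BdA u U) (ha : BdA a A) (hg0 : 0 ≤ g)
    (hg : ∀ j, BdA g (G j))
    (h : U * w = -A - PowerSeries.X * ∑ j ∈ Finset.range (d + 1), G j * w ^ j) :
    ∃ B M : ℝ, 1 ≤ B ∧ 1 ≤ M ∧ ∀ k, ‖PowerSeries.coeff k w‖ ≤ B * M ^ k := by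
  set t : ℝ := ‖PowerSeries.coeff 0 U‖ with ht
  have ht0 : 0 < t := norm_pos_iff.2 hU
  have hu0 : 0 ≤ u := (norm_nonneg _).trans (hu 0)
  have ha0 : 0 ≤ a := (norm_nonneg _).trans (ha 0)
  set B : ℝ := max 1 (a / t) with hB
  have hB1 : 1 ≤ B := le_max_left _ _
  have hB0 : 0 ≤ B := zero_le_one.trans hB1
  have hBa : a ≤ t * B := by
    have : a / t ≤ B := le_max_right _ _
    rw [div_le_iff₀ ht0] at this
    linarith
  set M : ℝ := max 1 (max (u / t) (g * B ^ d / t)) with hM
  have hM1 : 1 ≤ M := le_max_left _ _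
  have hM0 : 0 ≤ M := zero_le_one.trans hM1
  have hMu : u ≤ t * M := by
    have : u / t ≤ M := (le_max_left _ _).trans (le_max_right _ _)
    rw [div_le_iff₀ ht0] at this
    linarith
  have hMg : g * B ^ d ≤ t * M := by
    have : g * B ^ d / t ≤ M := (le_max_right _ _).trans (le_max_right _ _)
    rw [div_le_iff₀ ht0] at this
    linarith
  refine ⟨B, M, hB1, hM1, fun k => ?_⟩
  induction k using Nat.strong_induction_on with
  | _ k ih =>
  -- the coefficient equation
  have hk := congrArg (PowerSeries.coeff k) h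
  rw [PowerSeries.coeff_mul, Finset.Nat.sum_antidiagonal_eq_sum_range_succ_mk,
    Finset.sum_range_succ'] at hk
  simp only [Nat.sub_zero, map_sub, map_neg] at hk
  have hsum : ‖∑ i ∈ Finset.range k, PowerSeries.coeff (i + 1) U *
      PowerSeries.coeff (k - (i + 1)) w‖ ≤ t * (B * M ^ k) := by
    refine IsUltrametricDist.norm_sum_le_of_forall_le_of_nonneg (by positivity) fun i hi => ?_
    rw [Finset.mem_range] at hi
    rw [norm_mul]
    calc ‖PowerSeries.coeff (i + 1) U‖ * ‖PowerSeries.coeff (k - (i + 1)) w‖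
        ≤ u * (B * M ^ (k - (i + 1))) := by
          gcongr
          · exact hu _
          · exact ih _ (by omega)
      _ ≤ (t * M) * (B * M ^ (k - 1)) := by
          have h1 : M ^ (k - (i + 1)) ≤ M ^ (k - 1) := pow_le_pow_right₀ hM1 (by omega)
          gcongr
      _ = t * (B * M ^ (k - 1 + 1)) := by rw [pow_succ]; ring
      _ = t * (B * M ^ k) := by rw [Nat.sub_add_cancel (by omega)]
  have hA : ‖PowerSeries.coeff k A‖ ≤ t * (B * M ^ k) := by
    calc ‖PowerSeries.coeff k A‖ ≤ a := ha k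
      _ ≤ t * B := hBa
      _ = t * (B * 1) := by ring
      _ ≤ t * (B * M ^ k) := by gcongr; exact one_le_pow₀ hM1
  have hH : ‖PowerSeries.coeff k (PowerSeries.X * ∑ j ∈ Finset.range (d + 1), G j * w ^ j)‖ ≤
      t * (B * M ^ k) := by
    rcases Nat.eq_zero_or_pos k with rfl | hkpos
    · rw [PowerSeries.coeff_zero_X_mul, norm_zero]; positivity
    · obtain ⟨m, rfl⟩ : ∃ m, k = m + 1 := ⟨k - 1, by omega⟩
      rw [PowerSeries.coeff_succ_X_mul]
      have hw : Bd M B m w := fun i hi => ih i (by omega)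
      have : Bd M (g * B ^ d) m (∑ j ∈ Finset.range (d + 1), G j * w ^ j) := by
        refine Bd.sum hM0 (by positivity) _ _ fun j hj => ?_
        rw [Finset.mem_range] at hj
        refine (((hg j).bd hM1 hg0 m).mul hM0 hg0 (by positivity) (hw.pow hM0 hB0 j)).mono hM0 ?_
        have h1 : B ^ j ≤ B ^ d := pow_le_pow_right₀ hB1 (by omega)
        gcongr
      calc ‖PowerSeries.coeff m (∑ j ∈ Finset.range (d + 1), G j * w ^ j)‖
          ≤ g * B ^ d * M ^ m := this m le_rfl
        _ ≤ t * M * M ^ m := by gcongr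
        _ = t * (1 * M ^ (m + 1)) := by rw [pow_succ]; ring
        _ ≤ t * (B * M ^ (m + 1)) := by gcongr
  have hmain : PowerSeries.coeff 0 U * PowerSeries.coeff k w =
      -PowerSeries.coeff k A - PowerSeries.coeff k
        (PowerSeries.X * ∑ j ∈ Finset.range (d + 1), G j * w ^ j) -
        ∑ i ∈ Finset.range k, PowerSeries.coeff (i + 1) U * PowerSeries.coeff (k - (i + 1)) w := by
    rw [← hk]; ring
  have hle : t * ‖PowerSeries.coeff k w‖ ≤ t * (B * M ^ k) := by
    rw [ht, ← norm_mul, hmain, ← ht]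
    have nsub : ∀ x y : C, ‖x - y‖ ≤ max ‖x‖ ‖y‖ := fun x y => by
      rw [sub_eq_add_neg, ← norm_neg y]; exact IsUltrametricDist.norm_add_le_max _ _
    refine (nsub _ _).trans (max_le ?_ hsum)
    refine (nsub _ _).trans (max_le ?_ hH)
    rwa [norm_neg]
  exact le_of_mul_le_mul_left hle ht0

/-- a polynomial relation at `y` with nonvanishing derivative gives geometric bounds -/
lemma bound_of_simple {y : PowerSeries C} {f : Polynomial (Polynomial C)}
    (hf : Polynomial.aeval y f = 0) (hf' : Polynomial.aeval y (derivative f) ≠ 0) :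
    ∃ B M : ℝ, 1 ≤ B ∧ 1 ≤ M ∧ ∀ k, ‖PowerSeries.coeff k y‖ ≤ B * M ^ k := by
  classical
  -- order of the derivative
  obtain ⟨e, U', hU', hU'0⟩ : ∃ (e : ℕ) (U' : PowerSeries C),
      Polynomial.aeval y (derivative f) = PowerSeries.X ^ e * U' ∧ PowerSeries.coeff 0 U' ≠ 0 := by
    have hfin : FiniteMultiplicity (PowerSeries.X : PowerSeries C)
        (Polynomial.aeval y (derivative f)) := by
      by_contra hc
      apply hf'
      rw [FiniteMultiplicity.not_iff_forall] at hc
      ext n
      exact PowerSeries.X_pow_dvd_iff.1 (hc (n + 1)) n (Nat.lt_succ_self n)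
    obtain ⟨U', h1, h2⟩ := hfin.exists_eq_pow_mul_and_not_dvd
    refine ⟨_, U', h1, fun h0 => h2 ?_⟩
    rw [PowerSeries.X_dvd_iff, ← PowerSeries.coeff_zero_eq_constantCoeff_apply]
    exact h0
  -- truncation
  set Y0 : Polynomial C := PowerSeries.trunc (e + 1) y with hY0
  obtain ⟨w, hw⟩ : (PowerSeries.X : PowerSeries C) ^ (e + 1) ∣ y - (Y0 : PowerSeries C) := by
    rw [PowerSeries.X_pow_dvd_iff]
    intro m hm
    rw [map_sub, Polynomial.coeff_coe, hY0, PowerSeries.coeff_trunc, if_pos hm, sub_self]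
  have hy : y = (Y0 : PowerSeries C) + PowerSeries.X ^ (e + 1) * w := by rw [← hw]; ring
  -- Taylor expansion
  set φ : Polynomial C →+* PowerSeries C := algebraMap (Polynomial C) (PowerSeries C) with hφ
  have hφa : ∀ p : Polynomial C, φ p = (p : PowerSeries C) := fun p => by
    rw [hφ, PowerSeries.algebraMap_apply', Algebra.algebraMap_self, PowerSeries.map_id]
    rfl
  set F : Polynomial (PowerSeries C) := f.map φ with hF
  set a : PowerSeries C := φ Y0 with ha
  set h : PowerSeries C := PowerSeries.X ^ (e + 1) * w with hh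
  have hya : y = h + a := by rw [hy, ha, hφa]; ring
  set N := f.natDegree with hN
  set q : ℕ → Polynomial C := fun j => (taylor Y0 f).coeff j with hq
  have heval : F.eval y = ∑ j ∈ Finset.range (N + 2), φ (q j) * h ^ j := by
    rw [hya, ← taylor_eval, ha, ← map_taylor,
      Polynomial.eval_eq_sum_range' (n := N + 2) ?_ h]
    · simp only [coeff_map, hq]
    · refine lt_of_le_of_lt (natDegree_map_le) ?_
      rw [natDegree_taylor]; omega
  have hF0 : F.eval y = 0 := by rw [hF, hφ, eval_map_algebraMap, hf]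
  obtain ⟨U, hU, hU0⟩ : ∃ U : PowerSeries C, φ (q 1) = PowerSeries.X ^ e * U ∧
      PowerSeries.coeff 0 U ≠ 0 := by
    obtain ⟨c, hc⟩ := sub_dvd_eval_sub y a (derivative F)
    have h1 : (derivative F).eval y = PowerSeries.X ^ e * U' := by
      rw [← hU', hF, derivative_map, hφ, eval_map_algebraMap]
    have h2 : (derivative F).eval a = φ (q 1) := by
      rw [hq]
      simp only [taylor_coeff_one]
      rw [hF, derivative_map, ha, Polynomial.eval_map_apply]
    refine ⟨U' - PowerSeries.X * (w * c), ?_, ?_⟩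
    · have h3 : y - a = PowerSeries.X ^ (e + 1) * w := by rw [hya, hh]; ring
      rw [h3, h1, h2] at hc
      have : φ (q 1) = PowerSeries.X ^ e * U' - PowerSeries.X ^ (e + 1) * w * c := by
        rw [← hc]; ring
      rw [this]; ring
    · rw [map_sub, PowerSeries.coeff_zero_X_mul, sub_zero]; exact hU'0
  -- the bounded functions
  choose b hb0 hb using fun j => exists_bdA (C := C) (q j)
  set g : ℝ := ∑ j ∈ Finset.range (N + 2), b j with hg
  have hg0 : 0 ≤ g := Finset.sum_nonneg fun j _ => hb0 j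
  have hbg : ∀ j, BdA g (φ (q j)) := by
    intro j i
    rw [hφa]
    by_cases hj : j < N + 2
    · exact (hb j i).trans (Finset.single_le_sum (f := b) (fun j _ => hb0 j)
        (Finset.mem_range.2 hj))
    · have : q j = 0 := by
        rw [hq]
        exact coeff_eq_zero_of_natDegree_lt (by rw [natDegree_taylor]; omega)
      rw [this]; simpa using hg0
  set G : ℕ → PowerSeries C := fun j =>
    if j < 2 then 0 else PowerSeries.X ^ ((e + 1) * (j - 2)) * φ (q j) with hG
  have hGb : ∀ j, BdA g (G j) := by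
    intro j
    by_cases hj : j < 2
    · intro i; simp only [hG, if_pos hj, map_zero, norm_zero]; exact hg0
    · simp only [hG, if_neg hj]
      exact BdA.X_pow_mul hg0 (hbg j)
  set A : PowerSeries C := -(U * w) - PowerSeries.X * ∑ j ∈ Finset.range (N + 1 + 1), G j * w ^ j
    with hA
  have hkey : φ (q 0) = PowerSeries.X ^ (2 * e + 1) * A := by
    have h1 : ∑ j ∈ Finset.range (N + 2), φ (q j) * h ^ j = 0 := by rw [← heval, hF0]
    rw [Finset.sum_range_succ', Finset.sum_range_succ'] at h1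
    have h2 : ∑ j ∈ Finset.range (N + 1 + 1), G j * w ^ j =
        ∑ i ∈ Finset.range N, PowerSeries.X ^ ((e + 1) * i) * φ (q (i + 2)) * w ^ (i + 2) := by
      rw [Finset.sum_range_succ', Finset.sum_range_succ']
      have g0 : G 0 = 0 := by simp [hG]
      have g1 : G (0 + 1) = 0 := by simp [hG]
      rw [g0, g1, zero_mul, zero_mul, add_zero, add_zero]
      refine Finset.sum_congr rfl fun i _ => ?_
      have : ¬ (i + 1 + 1 < 2) := by omega
      simp only [hG, if_neg this]
      rfl
    have h3 : ∑ i ∈ Finset.range N, φ (q (i + 1 + 1)) * h ^ (i + 1 + 1) =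
        PowerSeries.X ^ (2 * e + 1) * (PowerSeries.X *
          ∑ i ∈ Finset.range N, PowerSeries.X ^ ((e + 1) * i) * φ (q (i + 2)) * w ^ (i + 2)) := by
      rw [Finset.mul_sum, Finset.mul_sum]
      refine Finset.sum_congr rfl fun i _ => ?_
      rw [hh, mul_pow, ← pow_mul]
      have : (e + 1) * (i + 1 + 1) = (2 * e + 1) + 1 + (e + 1) * i := by ring
      rw [this, pow_add, pow_add, pow_one]
      ring
    rw [h3, zero_add, pow_zero, mul_one, pow_one, hU] at h1
    have h4 : φ (q 0) = -(PowerSeries.X ^ (2 * e + 1) * (PowerSeries.X *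
          ∑ i ∈ Finset.range N, PowerSeries.X ^ ((e + 1) * i) * φ (q (i + 2)) * w ^ (i + 2))) -
          PowerSeries.X ^ e * U * h := by
      linear_combination h1
    rw [h4, hA, h2, hh]
    ring
  have hAb : BdA g A := by
    apply BdA.of_X_pow_mul (n := 2 * e + 1)
    rw [← hkey]; exact hbg 0
  have hUb : BdA g U := by
    apply BdA.of_X_pow_mul (n := e)
    rw [← hU]; exact hbg 1
  obtain ⟨B, M, hB, hM, hbound⟩ := bound_of_rec hU0 hUb hAb hg0 hGb
    (show U * w = -A - PowerSeries.X * ∑ j ∈ Finset.range (N + 1 + 1), G j * w ^ j by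
      rw [hA]; ring)
  -- back to `y`
  obtain ⟨b', hb'0, hb'⟩ := exists_bdA (C := C) Y0
  refine ⟨max b' B, M, hB.trans (le_max_right _ _), hM, fun k => ?_⟩
  have hM0 : 0 ≤ M := zero_le_one.trans hM
  rw [hy, map_add]
  refine (IsUltrametricDist.norm_add_le_max _ _).trans (max_le ?_ ?_)
  · calc ‖PowerSeries.coeff k (Y0 : PowerSeries C)‖ ≤ b' := hb' k
      _ = b' * 1 := (mul_one _).symm
      _ ≤ max b' B * M ^ k := by
        gcongr
        · exact le_max_left _ _
        · exact one_le_pow₀ hM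
  · rw [hh, PowerSeries.coeff_X_pow_mul']
    split
    · next hk =>
      calc ‖PowerSeries.coeff (k - (e + 1)) w‖ ≤ B * M ^ (k - (e + 1)) := hbound _
        _ ≤ max b' B * M ^ k := by
          have h1 : M ^ (k - (e + 1)) ≤ M ^ k := pow_le_pow_right₀ hM (by omega)
          have h2 : B ≤ max b' B := le_max_right _ _
          gcongr
    · rw [norm_zero]; positivity

/-- **Algebraic power series converge**: geometric bounds for the coefficients. -/
theorem alg_bound [CharZero C] {y : PowerSeries C} (hy : IsAlgebraic (Polynomial C) y) :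
    ∃ B M : ℝ, 1 ≤ B ∧ 1 ≤ M ∧ ∀ k, ‖PowerSeries.coeff k y‖ ≤ B * M ^ k := by
  classical
  -- minimal degree relation
  have hex : ∃ n : ℕ, ∃ f : Polynomial (Polynomial C), f.natDegree = n ∧ f ≠ 0 ∧
      Polynomial.aeval y f = 0 := by
    obtain ⟨f, hf, hf0⟩ := hy
    exact ⟨_, f, rfl, hf, hf0⟩
  obtain ⟨f, hfn, hf, hf0⟩ := Nat.find_spec hex
  refine bound_of_simple hf0 fun hd => ?_
  have hdeg : 0 < f.natDegree := by
    by_contra hc
    have h0 : f.natDegree = 0 := by omega
    rw [Polynomial.eq_C_of_natDegree_eq_zero h0] at hf0 hf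
    rw [aeval_C] at hf0
    have hinj : Function.Injective (algebraMap (Polynomial C) (PowerSeries C)) := by
      intro p q hpq
      rw [PowerSeries.algebraMap_apply', PowerSeries.algebraMap_apply', Algebra.algebraMap_self,
        PowerSeries.map_id] at hpq
      exact Polynomial.coe_injective C hpq
    apply hf
    rw [(injective_iff_map_eq_zero _).1 hinj _ hf0, map_zero]
  have hlt : (derivative f).natDegree < Nat.find hex := by
    rw [← hfn]; exact natDegree_derivative_lt (by omega)
  refine Nat.find_min hex hlt ⟨derivative f, rfl, ?_, hd⟩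
  intro h0
  have := derivative_eq_zero.1 h0
  omega

end P025H210
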