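import Vale.Agent.P025.R2.H210.Ev
import Vale.Agent.P025.R2.H210.Conv

/-!
# Charts from Laurent expansions
-/

open Polynomial P025H373 P025H552

universe u v

namespace P025H210

noncomputable section

set_option linter.unusedSectionVars false

attribute [local instance] RatFunc.liftAlgebra

section alg

variable {C : Type u} [Field C] {K : Type v} [Field K] [Algebra C K] [Algebra (RatFunc C) K]
  [IsScalarTower C (RatFunc C) K] [FiniteDimensional (RatFunc C) K]

theorem LX_zpow_eq (k : ℤ) :
    (LX : LaurentSeries C) ^ k = algebraMap (RatFunc C) (LaurentSeries C) (RatFunc.X ^ k) := by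
  rw [map_zpow₀, RatFunc.coe_X, LX]

theorem isScalarTower_laurent' : ∀ c : C, algebraMap C (LaurentSeries C) c =
    algebraMap (RatFunc C) (LaurentSeries C) (algebraMap C (RatFunc C) c) := by
  intro c
  have h1 : algebraMap C (RatFunc C) c = algebraMap C[X] (RatFunc C) (algebraMap C C[X] c) :=
    IsScalarTower.algebraMap_apply C C[X] (RatFunc C) c
  rw [h1]
  have h2 := IsScalarTower.algebraMap_apply C[X] (RatFunc C) (LaurentSeries C)
    (algebraMap C C[X] c)
  rw [← h2, ← ofPS_C, Polynomial.algebraMap_hahnSeries_apply]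
  simp

theorem isScalarTower_laurent : @IsScalarTower C (RatFunc C) (LaurentSeries C) Algebra.toSMul
    Algebra.toSMul Algebra.toSMul :=
  @IsScalarTower.of_algebraMap_eq C (RatFunc C) (LaurentSeries C) _ _ _ _ _ _
    isScalarTower_laurent'

/-- elements of `K` are algebraic over `C(X)`, if `T` is a power of `X`. -/
theorem isAlgebraic_of_hom (E : K →ₐ[C] LaurentSeries C) (N : ℤ)
    (hT : E (algebraMap (RatFunc C) K RatFunc.X) = LX ^ N) (y : K) :
    IsAlgebraic (RatFunc C) (E y) := by
  have htow := isScalarTower_laurent (C := C)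
  have hE : ∀ P : C[X], E (algebraMap (RatFunc C) K (algebraMap C[X] (RatFunc C) P)) =
      aeval ((LX : LaurentSeries C) ^ N) P := by
    intro P
    have h1 : algebraMap (RatFunc C) K (algebraMap C[X] (RatFunc C) P) =
        aeval (algebraMap (RatFunc C) K RatFunc.X) P := by
      rw [← RatFunc.algebraMap_X, Polynomial.aeval_algebraMap_apply,
        Polynomial.aeval_algebraMap_apply, Polynomial.aeval_X_left_apply]
    rw [h1, ← hT, ← Polynomial.aeval_algHom_apply]
  have hg : ∀ P : C[X], algebraMap (RatFunc C) (LaurentSeries C)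
      (aeval ((RatFunc.X : RatFunc C) ^ N) P) = aeval ((LX : LaurentSeries C) ^ N) P := by
    intro P
    rw [LX_zpow_eq, Polynomial.aeval_algebraMap_apply]
  let σ : RatFunc C →ₐ[C] RatFunc C := RatFunc.liftAlgHom (aeval ((RatFunc.X : RatFunc C) ^ N)) (by
    intro P hP
    rw [Submonoid.mem_comap, mem_nonZeroDivisors_iff_ne_zero]
    intro h0
    have h1 := hg P
    rw [h0, map_zero, ← hE] at h1
    have h2 : algebraMap C[X] (RatFunc C) P ≠ 0 :=
      RatFunc.algebraMap_ne_zero (nonZeroDivisors.ne_zero hP)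
    have h3 : E (algebraMap (RatFunc C) K (algebraMap C[X] (RatFunc C) P)) ≠ 0 :=
      (map_ne_zero_iff _ (E : K →+* LaurentSeries C).injective).mpr
        ((map_ne_zero_iff _ (algebraMap (RatFunc C) K).injective).mpr h2)
    exact h3 h1.symm)
  have hσ : ∀ f : RatFunc C, algebraMap (RatFunc C) (LaurentSeries C) (σ f) =
      E (algebraMap (RatFunc C) K f) := by
    intro f
    have h1 : ∀ P : C[X], σ (algebraMap C[X] (RatFunc C) P) =
        aeval ((RatFunc.X : RatFunc C) ^ N) P := by
      intro P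
      have := RatFunc.liftAlgHom_apply_div (aeval ((RatFunc.X : RatFunc C) ^ N))
        (by
          intro P hP
          rw [Submonoid.mem_comap, mem_nonZeroDivisors_iff_ne_zero]
          intro h0
          have h1 := hg P
          rw [h0, map_zero, ← hE] at h1
          have h2 : algebraMap C[X] (RatFunc C) P ≠ 0 :=
            RatFunc.algebraMap_ne_zero (nonZeroDivisors.ne_zero hP)
          have h3 : E (algebraMap (RatFunc C) K (algebraMap C[X] (RatFunc C) P)) ≠ 0 :=
            (map_ne_zero_iff _ (E : K →+* LaurentSeries C).injective).mpr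
              ((map_ne_zero_iff _ (algebraMap (RatFunc C) K).injective).mpr h2)
          exact h3 h1.symm) P 1
      simpa using this
    rw [← f.num_div_denom, map_div₀, map_div₀, h1, h1, map_div₀, map_div₀, hg, hg, hE, hE]
  obtain ⟨p, hp, hp0⟩ := (Algebra.IsAlgebraic.isAlgebraic (R := RatFunc C) y :
    IsAlgebraic (RatFunc C) y)
  refine ⟨p.map (σ : RatFunc C →+* RatFunc C), ?_, ?_⟩
  · rwa [Ne, Polynomial.map_eq_zero]
  · rw [Polynomial.aeval_def, Polynomial.eval₂_map]
    have h1 : (algebraMap (RatFunc C) (LaurentSeries C)).comp (σ : RatFunc C →+* RatFunc C) =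
        (E : K →+* LaurentSeries C).comp (algebraMap (RatFunc C) K) :=
      RingHom.ext hσ
    have h2 : E y = (E : K →+* LaurentSeries C) y := rfl
    rw [h1, h2, ← Polynomial.hom_eval₂]
    rw [Polynomial.aeval_def] at hp0
    rw [hp0, map_zero]

end alg

section conv

variable {C : Type u} [NontriviallyNormedField C] [IsUltrametricDist C] [CompleteSpace C]
  [IsAlgClosed C] [CharZero C]

/-- algebraic Laurent series converge -/
theorem exists_bound_laurent {z : LaurentSeries C} (hz : IsAlgebraic (RatFunc C) z) :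
    ∃ (m : ℤ) (g : PowerSeries C) (B M : ℝ), 0 ≤ M ∧
      (∀ k, ‖PowerSeries.coeff k g‖ ≤ B * M ^ k) ∧ z = LX ^ m * ofPS g := by
  by_cases h0 : z = 0
  · exact ⟨0, 0, 0, 0, le_rfl, fun k => by simp, by rw [h0, map_zero, mul_zero]⟩
  obtain ⟨k, u, hu, rfl⟩ := exists_decomp z h0
  have h1 : IsAlgebraic (RatFunc C) (ofPS u : LaurentSeries C) := by
    have h2 : (ofPS u : LaurentSeries C) = LX ^ (-k) * (LX ^ k * ofPS u) := by
      rw [← mul_assoc, ← zpow_add₀ LX_ne_zero, neg_add_cancel, zpow_zero, one_mul]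
    rw [h2, LX_zpow_eq (-k)]
    exact (isAlgebraic_algebraMap _).mul hz
  have h3 : IsAlgebraic C[X] (ofPS u : LaurentSeries C) :=
    (IsFractionRing.isAlgebraic_iff C[X] (RatFunc C) (LaurentSeries C)).mpr h1
  have : IsScalarTower C[X] (PowerSeries C) (LaurentSeries C) :=
    IsScalarTower.of_algebraMap_eq fun P => rfl
  have h4 : IsAlgebraic C[X] u :=
    (isAlgebraic_algebraMap_iff (R := C[X]) (S := PowerSeries C) (A := LaurentSeries C)
      (ofPS_inj (C := C))).mp h3
  obtain ⟨B, M, -, hM, hb⟩ := alg_bound h4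
  exact ⟨k, u, B, M, zero_le_one.trans hM, hb, rfl⟩

variable {K : Type v} [Field K] [Algebra C K] [Algebra (RatFunc C) K]
  [IsScalarTower C (RatFunc C) K] [FiniteDimensional (RatFunc C) K]

/-- **charts**: the expansion `E` is, for large `γ`, an embedding in functions on a disc. -/
theorem exists_chart (E : K →ₐ[C] LaurentSeries C) (N : ℤ)
    (hT : E (algebraMap (RatFunc C) K RatFunc.X) = LX ^ N) :
    ∃ M : ℝ, 0 ≤ M ∧ ∀ γ : Cˣ, M < ‖(γ : C)‖ → ∃ ψ : K →ₐ[C] F2 C,
      ∀ y, lamInf (ψ y) = resc γ⁻¹ (E y) := by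
  let b := Module.finBasis (RatFunc C) K
  choose m g B M hM hb hE using fun j => exists_bound_laurent (isAlgebraic_of_hom E N hT (b j))
  obtain ⟨M0, hM0, hMle⟩ : ∃ M0 : ℝ, 0 ≤ M0 ∧ ∀ j, M j ≤ M0 := by
    refine ⟨∑ j, M j, Finset.sum_nonneg fun j _ => hM j, fun j => ?_⟩
    exact Finset.single_le_sum (fun j _ => hM j) (Finset.mem_univ j)
  refine ⟨M0, hM0, fun γ hγ => ?_⟩
  let Φ : K →ₐ[C] LaurentSeries C := (resc γ⁻¹).comp E
  have hmem : ∀ y, Φ y ∈ (lamInf (C := C)).fieldRange := by
    have hTm : Φ (algebraMap (RatFunc C) K RatFunc.X) ∈ (lamInf (C := C)).fieldRange := by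
      obtain ⟨a, ha⟩ := exists_lamInf_LX (g := 1) (B := 1) (M := 0) le_rfl
        (fun k => by
          rw [PowerSeries.coeff_one]
          split_ifs with h
          · simp [h]
          · simp [zero_pow h]) N γ (norm_pos_iff.mpr γ.ne_zero)
      refine ⟨a, ?_⟩
      change lamInf a = resc γ⁻¹ (E _)
      rw [ha, hT, map_one, mul_one]
    have hrat : ∀ f : RatFunc C, Φ (algebraMap (RatFunc C) K f) ∈
        (lamInf (C := C)).fieldRange := by
      have hpoly : ∀ P : C[X], Φ (algebraMap (RatFunc C) K (algebraMap C[X] (RatFunc C) P)) ∈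
          (lamInf (C := C)).fieldRange := by
        intro P
        have h1 : algebraMap (RatFunc C) K (algebraMap C[X] (RatFunc C) P) =
            aeval (algebraMap (RatFunc C) K RatFunc.X) P := by
          rw [← RatFunc.algebraMap_X, Polynomial.aeval_algebraMap_apply,
            Polynomial.aeval_algebraMap_apply, Polynomial.aeval_X_left_apply]
        rw [h1, ← Polynomial.aeval_algHom_apply, Polynomial.aeval_eq_sum_range]
        refine sum_mem fun i _ => ?_
        rw [Algebra.smul_def]
        exact mul_mem ((lamInf (C := C)).fieldRange.algebraMap_mem _) (pow_mem hTm i)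
      intro f
      rw [← f.num_div_denom, map_div₀, map_div₀]
      exact div_mem (hpoly _) (hpoly _)
    intro y
    rw [← b.sum_repr y, map_sum]
    refine sum_mem fun j _ => ?_
    rw [Algebra.smul_def, map_mul]
    refine mul_mem (hrat _) ?_
    obtain ⟨a, ha⟩ := exists_lamInf_LX (hM j) (hb j) (m j) γ ((hMle j).trans_lt hγ)
    refine ⟨a, ?_⟩
    change lamInf a = resc γ⁻¹ (E _)
    rw [ha, ← hE j]
  let e : F2 C ≃ₐ[C] (lamInf (C := C)).fieldRange := AlgEquiv.ofInjectiveField (lamInf (C := C))
  let Ψ : K →ₐ[C] (lamInf (C := C)).fieldRange := Φ.codRestrict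
    (lamInf (C := C)).fieldRange.toSubalgebra hmem
  refine ⟨(e.symm : (lamInf (C := C)).fieldRange →ₐ[C] F2 C).comp Ψ, fun y => ?_⟩
  have h1 : (e (e.symm (Ψ y)) : LaurentSeries C) = Φ y := by
    rw [AlgEquiv.apply_symm_apply]; rfl
  exact h1

end conv

end

end P025H210
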