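import Vale.Agent.P025.R2.H628.Rad
import Vale.Agent.P025.R2.H210.Chart
import Vale.Agent.P025.R2.H816.J03

/-!
# P025 G-DISC (5.1): poles of `T`, charts, the maps `ch2`, `ch0`
-/

open Polynomial TensorProduct P025H373 P025H544 P025H628 Vale.Agent.P019P

universe u v

namespace P025H210

noncomputable section

set_option linter.unusedSectionVars false

section tlift

variable {R A B S : Type*} [CommRing R] [CommRing A] [CommRing B] [CommRing S] [Algebra R A]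
  [Algebra R B]

/-- ring homomorphisms out of a tensor product -/
def tlift (f : A →+* S) (g : B →+* S) (h : ∀ r, f (algebraMap R A r) = g (algebraMap R B r)) :
    A ⊗[R] B →+* S :=
  letI : Algebra R S := (g.comp (algebraMap R B)).toAlgebra
  ((Algebra.TensorProduct.productMap ({ f with commutes' := h } : A →ₐ[R] S)
    ({ g with commutes' := fun _ => rfl } : B →ₐ[R] S) : A ⊗[R] B →ₐ[R] S) : A ⊗[R] B →+* S)

theorem tlift_tmul (f : A →+* S) (g : B →+* S)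
    (h : ∀ r, f (algebraMap R A r) = g (algebraMap R B r)) (a : A) (b : B) :
    tlift f g h (a ⊗ₜ b) = f a * g b := by
  let _ : Algebra R S := (g.comp (algebraMap R B)).toAlgebra
  exact Algebra.TensorProduct.productMap_apply_tmul _ _ a b

end tlift

section charts

variable (C : Type u) [NontriviallyNormedField C] [IsUltrametricDist C] [CompleteSpace C]
  [IsAlgClosed C] [CharZero C]
  (K : Type v) [Field K] [Algebra C K] [Algebra (RatFunc C) K] [IsScalarTower C (RatFunc C) K]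
  [FiniteDimensional (RatFunc C) K] [CFF C K]

/-- the function `T`. -/
def TT : K := algebraMap (RatFunc C) K RatFunc.X

/-- the poles of `T`. -/
def Pole : Type v := {P : Plk C K // ord P (TT C K) < 0}

variable {C K}

/-- the order of the pole. -/
def Pole.N (P : Pole C K) : ℕ := (-ord P.1 (TT C K)).toNat

theorem Pole.N_pos (P : Pole C K) : 0 < P.N := by
  have h := P.2
  unfold Pole.N
  omega

theorem Pole.ord_eq (P : Pole C K) : ord P.1 (TT C K) = -(P.N : ℤ) := by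
  have h := P.2
  unfold Pole.N
  omega

variable (C K)

/-- Charts of the discs `|T| > ‖c‖`, `r0 ≤ ‖c‖`, around the poles of `T`: for `γ ^ N = c` the disc
around `P` is `|t| > 1` with `T = γ ^ N * t ^ N`. -/
structure Charts where
  r0 : ℝ
  r0_pos : 0 < r0
  ψ : ∀ (_P : Pole C K) (_γ : Cˣ), K →ₐ[C] F2 C
  map_T : ∀ (P : Pole C K) (γ : Cˣ), r0 ≤ ‖(γ : C)‖ ^ P.N →
    ψ P γ (TT C K) = algebraMap C (F2 C) ((γ : C) ^ P.N) * t2 ^ P.N
  order_eq : ∀ (P : Pole C K) (γ : Cˣ), r0 ≤ ‖(γ : C)‖ ^ P.N → ∀ y : K, y ≠ 0 →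
    (lamInf (ψ P γ y)).order = ord P.1 y
  scale : ∀ (P : Pole C K) (γ δ : Cˣ), r0 ≤ ‖(γ : C)‖ ^ P.N → ∀ (h : 1 ≤ ‖(δ : C)‖) (y : K),
    ψ P (γ * δ) y = sub2 (δ : C) δ.ne_zero h (ψ P γ y)

variable {C K}

theorem norm_pow_of_eq {N : ℕ} {γ c : Cˣ} (hc : γ ^ N = c) : ‖(γ : C)‖ ^ N = ‖(c : C)‖ := by
  rw [← hc, Units.val_pow_eq_pow_val, norm_pow]

/-- the map `f ↦ f (c t ^ N)` agrees with `ψ` on `C(t)`. -/
theorem Charts.agree (D : Charts C K) (P : Pole C K) (γ c : Cˣ) (hc : γ ^ P.N = c)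
    (hr : D.r0 ≤ ‖(c : C)‖) (f : RatFunc C) :
    pow2 P.N P.N_pos (algebraMap (RatFunc C) (F2 C) (P025H373.scale (c : C) c.ne_zero f)) =
      D.ψ P γ (algebraMap (RatFunc C) K f) := by
  let f1 : RatFunc C →ₐ[C] F2 C := (pow2 P.N P.N_pos).comp
    ((IsScalarTower.toAlgHom C (RatFunc C) (F2 C)).comp
      (P025H373.scale (c : C) c.ne_zero : RatFunc C →ₐ[C] RatFunc C))
  let f2 : RatFunc C →ₐ[C] F2 C := (D.ψ P γ).comp (IsScalarTower.toAlgHom C (RatFunc C) K)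
  have h : f1 = f2 := by
    apply ratFunc_ext
    have h1 : f1 RatFunc.X = algebraMap C (F2 C) (c : C) * t2 ^ P.N := by
      change pow2 P.N P.N_pos (algebraMap (RatFunc C) (F2 C)
        (P025H373.scale (c : C) c.ne_zero RatFunc.X)) = _
      rw [scale_X, map_mul, map_mul]
      congr 1
      · exact (pow2 P.N P.N_pos).commutes (c : C)
      · exact pow2_t2 _ _
    have h2 : f2 RatFunc.X = D.ψ P γ (TT C K) := rfl
    rw [h1, h2, D.map_T P γ (by rw [norm_pow_of_eq hc]; exact hr), ← Units.val_pow_eq_pow_val, hc]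
  exact DFunLike.congr_fun h f

/-- `t ↦ t ^ n` on `F2r`. -/
def pow2r (c : Cˣ) (n : ℕ) (hn : 0 < n) : F2r C c →+* F2 C := (pow2 (C := C) n hn).toRingHom

/-- `t ↦ t ^ n` on `F0r`. -/
def pow0r (c : Cˣ) (n : ℕ) (hn : 0 < n) : F0r C c →+* F0 C := (pow0 (C := C) n hn).toRingHom

/-- the component at `P` of the tensor product: `a ⊗ y ↦ a (t ^ N) * ψ y`. -/
def Charts.ch2 (D : Charts C K) (P : Pole C K) (γ c : Cˣ) (hc : γ ^ P.N = c)
    (hr : D.r0 ≤ ‖(c : C)‖) : F2r C c ⊗[RatFunc C] K →+* F2 C :=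
  tlift (pow2r c P.N P.N_pos) (D.ψ P γ : K →+* F2 C) (fun f => D.agree P γ c hc hr f)

theorem Charts.ch2_tmul (D : Charts C K) (P : Pole C K) (γ c : Cˣ) (hc : γ ^ P.N = c)
    (hr : D.r0 ≤ ‖(c : C)‖) (a : F2r C c) (y : K) :
    D.ch2 P γ c hc hr (a ⊗ₜ y) = pow2 P.N P.N_pos (show F2 C from a) * D.ψ P γ y :=
  tlift_tmul (pow2r c P.N P.N_pos) (D.ψ P γ : K →+* F2 C) (fun f => D.agree P γ c hc hr f) a y

/-- the component at `P` over `F0` -/
def Charts.ch0 (D : Charts C K) (P : Pole C K) (γ c : Cˣ) (hc : γ ^ P.N = c)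
    (hr : D.r0 ≤ ‖(c : C)‖) : F0r C c ⊗[RatFunc C] K →+* F0 C :=
  tlift (pow0r c P.N P.N_pos) ((algebraMap (F2 C) (F0 C)).comp (D.ψ P γ : K →+* F2 C))
    (fun f => congrArg (algebraMap (F2 C) (F0 C)) (D.agree P γ c hc hr f))

theorem Charts.ch0_tmul (D : Charts C K) (P : Pole C K) (γ c : Cˣ) (hc : γ ^ P.N = c)
    (hr : D.r0 ≤ ‖(c : C)‖) (a : F0r C c) (y : K) :
    D.ch0 P γ c hc hr (a ⊗ₜ y) =
      pow0 P.N P.N_pos (show F0 C from a) * (D.ψ P γ y : F0 C) :=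
  tlift_tmul (pow0r c P.N P.N_pos) ((algebraMap (F2 C) (F0 C)).comp (D.ψ P γ : K →+* F2 C))
    (fun f => congrArg (algebraMap (F2 C) (F0 C)) (D.agree P γ c hc hr f)) a y

theorem Charts.ch0_bc (D : Charts C K) (P : Pole C K) (γ c : Cˣ) (hc : γ ^ P.N = c)
    (hr : D.r0 ≤ ‖(c : C)‖) (x : F2r C c ⊗[RatFunc C] K) :
    D.ch0 P γ c hc hr (bc (RatFunc C) (F2r C c) (F0r C c) K x) = (D.ch2 P γ c hc hr x : F0 C) := by
  induction x with
  | zero => simp
  | add x y hx hy => rw [map_add, map_add, hx, hy, map_add]; rfl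
  | tmul a y =>
    rw [bc_tmul, D.ch0_tmul, D.ch2_tmul]
    rfl

end charts

end

end P025H210
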