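import Vale.Agent.P025.R2.H210.Disc1
import Vale.Agent.P025.R2.H401.Plc
import Vale.Agent.P025.R2.H552.LauK

/-!
# P025 G-DISC (5.1): existence of charts
-/

open Polynomial TensorProduct P025H373 P025H544 P025H628 Vale.Agent.P019P P025H552

universe u v

namespace P025H210

noncomputable section

set_option linter.unusedSectionVars false

section hom

variable {k : Type u} {K : Type v} [Field k] [Field K] [Algebra k K] [CFF k K]

/-- every `k`-homomorphism to Laurent series comes from a place (or is of order `0`). -/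
theorem exists_place_of_hom (φ : K →ₐ[k] LaurentSeries k) : ∃ (P : Plk k K) (e : ℕ),
    ∀ y : K, y ≠ 0 → (φ y).order = e * ord P y := P025H401.exists_place_of_hom φ

end hom

section charts

variable (C : Type u) [NontriviallyNormedField C] [IsUltrametricDist C] [CompleteSpace C]
  [IsAlgClosed C] [CharZero C]
  (K : Type v) [Field K] [Algebra C K] [Algebra (RatFunc C) K] [IsScalarTower C (RatFunc C) K]
  [FiniteDimensional (RatFunc C) K] [CFF C K]

instance : Finite (Pole C K) := P025H401.finite_poles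

variable {C K}

theorem sum_N [h : Fintype (Pole C K)] :
    ∑ P : Pole C K, P.N = Module.finrank (RatFunc C) K := by
  have h2 := @P025H401.sum_poles C K _ _ _ _ _ _ h
  exact h2

/-- the expansion at a pole with `T ↦ X ^ (-N)` -/
theorem exists_E (P : Pole C K) : ∃ E : K →ₐ[C] LaurentSeries C,
    E (TT C K) = LX ^ (-(P.N : ℤ)) ∧ ∀ y, y ≠ 0 → (E y).order = ord P.1 y := by
  obtain ⟨E, h1, h2⟩ := exists_lau_pole P.1 (TT C K) P.N P.N_pos P.ord_eq
  exact ⟨E, by rw [h1, LX_zpow], h2⟩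

variable (C K) in
/-- **Charts exist.** -/
theorem exists_charts : Nonempty (Charts C K) := by
  classical
  choose E hE1 hE2 using fun P : Pole C K => exists_E P
  choose M hM hψ using fun P : Pole C K => exists_chart (E P) (-(P.N : ℤ)) (hE1 P)
  choose ψ hψ' using hψ
  have : Fintype (Pole C K) := Fintype.ofFinite _
  -- the radius
  have hr : ∃ r0 : ℝ, 0 < r0 ∧ ∀ (P : Pole C K) (γ : Cˣ), r0 ≤ ‖(γ : C)‖ ^ P.N →
      M P < ‖(γ : C)‖ := by
    refine ⟨1 + ∑ P : Pole C K, (M P + 1) ^ P.N, ?_, ?_⟩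
    · have : 0 ≤ ∑ P : Pole C K, (M P + 1) ^ P.N :=
        Finset.sum_nonneg fun P _ => pow_nonneg (by have := hM P; linarith) _
      linarith
    · intro P γ h
      by_contra hcon
      rw [not_lt] at hcon
      have h1 : ‖(γ : C)‖ ^ P.N ≤ (M P + 1) ^ P.N :=
        pow_le_pow_left₀ (norm_nonneg _) (by linarith) _
      have h2 : (M P + 1) ^ P.N ≤ ∑ P : Pole C K, (M P + 1) ^ P.N :=
        Finset.single_le_sum (f := fun P : Pole C K => (M P + 1) ^ P.N)
          (fun P _ => pow_nonneg (by have := hM P; linarith) _) (Finset.mem_univ P)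
      linarith
  obtain ⟨r0, hr0, hr⟩ := hr
  -- a hom for all `γ` (junk for small `γ`)
  have hex : ∀ P : Pole C K, ∃ γ : Cˣ, M P < ‖(γ : C)‖ := by
    intro P
    obtain ⟨x, hx⟩ := NormedField.exists_lt_norm C (M P)
    exact ⟨Units.mk0 x (norm_pos_iff.mp ((hM P).trans_lt hx)), hx⟩
  let Ψ : ∀ (_P : Pole C K) (_γ : Cˣ), K →ₐ[C] F2 C := fun P γ =>
    if h : M P < ‖(γ : C)‖ then ψ P γ h else ψ P (hex P).choose (hex P).choose_spec
  have hΨ : ∀ (P : Pole C K) (γ : Cˣ), M P < ‖(γ : C)‖ → ∀ y,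
      lamInf (Ψ P γ y) = resc γ⁻¹ (E P y) := by
    intro P γ h y
    have h1 : Ψ P γ = ψ P γ h := dif_pos h
    rw [h1]
    exact hψ' P γ h y
  refine ⟨⟨r0, hr0, Ψ, ?_, ?_, ?_⟩⟩
  · intro P γ h
    apply lamInf_injective
    rw [hΨ P γ (hr P γ h), hE1, resc_LX_zpow, map_mul, AlgHom.commutes]
    have h1 := lamInf_t2_zpow (C := C) (P.N : ℤ)
    rw [zpow_natCast] at h1
    rw [h1, Units.val_inv_eq_inv_val, inv_zpow, zpow_neg, inv_inv, zpow_natCast]
  · intro P γ h y hy
    have hEy : E P y ≠ 0 := (map_ne_zero_iff _ (E P : K →+* LaurentSeries C).injective).mpr hy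
    rw [hΨ P γ (hr P γ h), order_resc _ hEy, hE2 P y hy]
  · intro P γ δ h hδ y
    apply lamInf_injective
    have h1 : r0 ≤ ‖((γ * δ : Cˣ) : C)‖ ^ P.N := by
      refine h.trans ?_
      rw [Units.val_mul, norm_mul]
      refine pow_le_pow_left₀ (norm_nonneg _) ?_ _
      exact le_mul_of_one_le_right (norm_nonneg _) hδ
    rw [hΨ P _ (hr P _ h1), lamInf_sub2, hΨ P γ (hr P γ h), resc_resc, mul_inv_rev]

end charts

end

end P025H210
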