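import Vale.Agent.P025.R2.H210.Lam

/-!
# Convergent power series are expansions of elements of `A2`
-/

open Polynomial P025H373 P025H552

universe u

namespace P025H210

noncomputable section

set_option linter.unusedSectionVars false

variable {C : Type u} [NontriviallyNormedField C] [IsUltrametricDist C] [CompleteSpace C]
  [IsAlgClosed C]

/-- `∑ c k t⁻ᵏ`. -/
def evS (c : ℕ → C) : F0 C := ∑' k, algebraMap C (F0 C) (c k) * ((tt C)⁻¹) ^ k

theorem summable_evS {c : ℕ → C} (hc : Summable fun k => ‖c k‖) :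
    Summable fun k => algebraMap C (F0 C) (c k) * ((tt C)⁻¹) ^ k := by
  refine Summable.of_norm (hc.congr fun k => ?_)
  rw [norm_mul, norm_pow, norm_inv, norm_tt, inv_one, one_pow, mul_one, norm_algebraMap_C]

theorem evS_mem {c : ℕ → C} (hc : Summable fun k => ‖c k‖) : evS c ∈ A2 C := by
  have h1 := (summable_evS hc).hasSum.tendsto_sum_nat
  refine isClosed_A2.mem_of_tendsto h1 (Filter.Eventually.of_forall fun n => ?_)
  exact sum_mem fun i _ => mul_mem ((A2 C).algebraMap_mem _) (pow_mem inv_tt_mem_A2 _)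

theorem evS_eq {c : ℕ → C} (hc : Summable fun k => ‖c k‖) :
    evS c = algebraMap C (F0 C) (c 0) + (tt C)⁻¹ * evS (fun k => c (k + 1)) := by
  rw [evS, (summable_evS hc).tsum_eq_zero_add, pow_zero, mul_one, evS, ← tsum_mul_left]
  congr 1
  refine tsum_congr fun k => ?_
  rw [pow_succ]
  ring

theorem tay2_evS {c : ℕ → C} (hc : Summable fun k => ‖c k‖) :
    tay2 (⟨evS c, evS_mem hc⟩ : A2 C) = PowerSeries.mk c := by
  have key : ∀ n : ℕ, ∀ (c : ℕ → C) (hc : Summable fun k => ‖c k‖),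
      PowerSeries.coeff n (tay2 (⟨evS c, evS_mem hc⟩ : A2 C)) = c n := by
    intro n
    induction n with
    | zero =>
      intro c hc
      have hc' : Summable fun k => ‖c (k + 1)‖ := (summable_nat_add_iff 1).mpr hc
      have e : (⟨evS c, evS_mem hc⟩ : A2 C) = algebraMap C (A2 C) (c 0) +
          sA * ⟨evS fun k => c (k + 1), evS_mem hc'⟩ := Subtype.ext (evS_eq hc)
      rw [e, map_add, map_mul, tay2_s, AlgHom.commutes, map_add, PowerSeries.coeff_zero_X_mul,
        add_zero]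
      simp
    | succ n ih =>
      intro c hc
      have hc' : Summable fun k => ‖c (k + 1)‖ := (summable_nat_add_iff 1).mpr hc
      have e : (⟨evS c, evS_mem hc⟩ : A2 C) = algebraMap C (A2 C) (c 0) +
          sA * ⟨evS fun k => c (k + 1), evS_mem hc'⟩ := Subtype.ext (evS_eq hc)
      rw [e, map_add, map_mul, tay2_s, AlgHom.commutes, map_add, PowerSeries.coeff_succ_X_mul,
        ih _ hc']
      have : PowerSeries.coeff (n + 1) (algebraMap C (PowerSeries C) (c 0)) = 0 := by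
        rw [PowerSeries.algebraMap_apply, Algebra.algebraMap_self, RingHom.id_apply,
          PowerSeries.coeff_C, if_neg (Nat.succ_ne_zero n)]
      rw [this, zero_add]
  ext n
  rw [key n c hc, PowerSeries.coeff_mk]

/-- a power series with coefficients `O(M ^ k)` is, after rescaling by `γ⁻¹`, `M < |γ|`, the
expansion of a function on `|t| > 1`. -/
theorem exists_tay2 {g : PowerSeries C} {B M : ℝ} (hM : 0 ≤ M)
    (hg : ∀ k, ‖PowerSeries.coeff k g‖ ≤ B * M ^ k) (γ : Cˣ) (hγ : M < ‖(γ : C)‖) :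
    ∃ a : A2 C, tay2 a = PowerSeries.rescale ((γ⁻¹ : Cˣ) : C) g := by
  have hγ0 : 0 < ‖(γ : C)‖ := norm_pos_iff.mpr γ.ne_zero
  have hc : Summable fun k => ‖((γ⁻¹ : Cˣ) : C) ^ k * PowerSeries.coeff k g‖ := by
    refine Summable.of_nonneg_of_le (fun k => norm_nonneg _) (fun k => ?_)
      ((summable_geometric_of_lt_one (r := M / ‖(γ : C)‖) (by positivity)
        ((div_lt_one hγ0).mpr hγ)).mul_left B)
    rw [norm_mul, norm_pow, Units.val_inv_eq_inv_val, norm_inv, div_pow, inv_pow]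
    calc (‖(γ : C)‖ ^ k)⁻¹ * ‖PowerSeries.coeff k g‖ ≤ (‖(γ : C)‖ ^ k)⁻¹ * (B * M ^ k) := by
          gcongr; exact hg k
      _ = B * (M ^ k / ‖(γ : C)‖ ^ k) := by field_simp
  refine ⟨⟨evS (fun k => ((γ⁻¹ : Cˣ) : C) ^ k * PowerSeries.coeff k g), evS_mem hc⟩, ?_⟩
  rw [tay2_evS hc]
  ext n
  rw [PowerSeries.coeff_mk, PowerSeries.coeff_rescale]

/-- the same for Laurent series -/
theorem exists_lamInf_LX {g : PowerSeries C} {B M : ℝ} (hM : 0 ≤ M)
    (hg : ∀ k, ‖PowerSeries.coeff k g‖ ≤ B * M ^ k) (m : ℤ) (γ : Cˣ) (hγ : M < ‖(γ : C)‖) :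
    ∃ a : F2 C, lamInf a = resc γ⁻¹ (LX ^ m * ofPS g) := by
  obtain ⟨a, ha⟩ := exists_tay2 hM hg γ hγ
  refine ⟨algebraMap C (F2 C) (((γ⁻¹ : Cˣ) : C) ^ m) * t2 ^ (-m) * iA2 a, ?_⟩
  rw [map_mul, map_mul, AlgHom.commutes, lamInf_t2_zpow, lamInf_iA2, ha, neg_neg, map_mul,
    resc_LX_zpow, resc_ofPS]

end

end P025H210
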