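import Mathlib

/-!
# Expansion in powers of an element

`A` a `k`-algebra, `p : A` such that every element of `A` is uniquely `c + p * b`, `c : k`, `b : A`.
Then there is a homomorphism `A → k⟦X⟧`, `p ↦ X`.
-/

open PowerSeries

namespace P025H210

/-- every element is uniquely `c + p * b`. -/
structure IsExp (k : Type*) {A : Type*} [Field k] [CommRing A] [Algebra k A] (p : A) : Prop where
  ex : ∀ a : A, ∃ (c : k) (b : A), a = algebraMap k A c + p * b
  uniq : ∀ (c : k) (b : A), algebraMap k A c + p * b = 0 → c = 0 ∧ b = 0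

namespace IsExp

variable {k A : Type*} [Field k] [CommRing A] [Algebra k A] {p : A} (h : IsExp k p)

include h

theorem ext {c c' : k} {b b' : A} (e : algebraMap k A c + p * b = algebraMap k A c' + p * b') :
    c = c' ∧ b = b' := by
  have h1 := h.uniq (c - c') (b - b') (by rw [map_sub, mul_sub]; linear_combination e)
  exact ⟨sub_eq_zero.mp h1.1, sub_eq_zero.mp h1.2⟩

/-- constant coefficient -/
noncomputable def cst (a : A) : k := (h.ex a).choose

/-- the rest -/
noncomputable def nxt (a : A) : A := (h.ex a).choose_spec.choose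

theorem eq (a : A) : a = algebraMap k A (h.cst a) + p * h.nxt a :=
  (h.ex a).choose_spec.choose_spec

theorem cst_nxt {a : A} {c : k} {b : A} (e : a = algebraMap k A c + p * b) :
    h.cst a = c ∧ h.nxt a = b :=
  h.ext ((h.eq a).symm.trans e)

theorem cst_add (a b : A) : h.cst (a + b) = h.cst a + h.cst b ∧
    h.nxt (a + b) = h.nxt a + h.nxt b := by
  refine h.cst_nxt ?_
  conv_lhs => rw [h.eq a, h.eq b]
  rw [map_add]; ring

theorem cst_mul (a b : A) : h.cst (a * b) = h.cst a * h.cst b ∧
    h.nxt (a * b) = h.cst a • h.nxt b + h.cst b • h.nxt a + p * (h.nxt a * h.nxt b) := by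
  refine h.cst_nxt ?_
  conv_lhs => rw [h.eq a, h.eq b]
  rw [map_mul, Algebra.smul_def, Algebra.smul_def]; ring

theorem cst_algebraMap (c : k) : h.cst (algebraMap k A c) = c ∧ h.nxt (algebraMap k A c) = 0 :=
  h.cst_nxt (by rw [mul_zero, add_zero])

theorem cst_mul_p (a : A) : h.cst (p * a) = 0 ∧ h.nxt (p * a) = a :=
  h.cst_nxt (by rw [map_zero, zero_add])

theorem cst_smul (c : k) (a : A) : h.cst (c • a) = c * h.cst a ∧ h.nxt (c • a) = c • h.nxt a := by
  refine h.cst_nxt ?_
  conv_lhs => rw [h.eq a]
  rw [map_mul, Algebra.smul_def, Algebra.smul_def]; ring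

/-- coefficient of the expansion -/
noncomputable def cf : ℕ → A → k
  | 0, a => h.cst a
  | n + 1, a => cf n (h.nxt a)

omit h in
theorem cf_zero (h : IsExp k p) (a : A) : h.cf 0 a = h.cst a := rfl

omit h in
theorem cf_succ (h : IsExp k p) (n : ℕ) (a : A) : h.cf (n + 1) a = h.cf n (h.nxt a) := rfl

theorem cf_add (n : ℕ) (a b : A) : h.cf n (a + b) = h.cf n a + h.cf n b := by
  induction n generalizing a b with
  | zero => exact (h.cst_add a b).1
  | succ n ih => rw [cf_succ, cf_succ, cf_succ, (h.cst_add a b).2, ih]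

theorem cf_smul (n : ℕ) (c : k) (a : A) : h.cf n (c • a) = c * h.cf n a := by
  induction n generalizing a with
  | zero => exact (h.cst_smul c a).1
  | succ n ih => rw [cf_succ, cf_succ, (h.cst_smul c a).2, ih]

theorem cf_zero_right (n : ℕ) : h.cf n (0 : A) = 0 := by
  have := h.cf_smul n 0 (0 : A)
  rwa [zero_smul, zero_mul] at this

/-- the expansion as a power series. -/
noncomputable def ser (a : A) : k⟦X⟧ := PowerSeries.mk fun n => h.cf n a

omit h in
theorem coeff_ser (h : IsExp k p) (n : ℕ) (a : A) : coeff n (h.ser a) = h.cf n a := by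
  rw [ser, coeff_mk]

theorem ser_add (a b : A) : h.ser (a + b) = h.ser a + h.ser b := by
  ext n
  rw [map_add, coeff_ser, coeff_ser, coeff_ser, h.cf_add]

theorem ser_smul (c : k) (a : A) : h.ser (c • a) = PowerSeries.C c * h.ser a := by
  ext n
  rw [coeff_C_mul, coeff_ser, coeff_ser, h.cf_smul]

theorem ser_zero : h.ser 0 = 0 := by
  ext n
  rw [coeff_ser, h.cf_zero_right, map_zero]

theorem ser_mul_p (a : A) : h.ser (p * a) = X * h.ser a := by
  ext n
  rw [coeff_ser]
  cases n with
  | zero => rw [cf_zero, (h.cst_mul_p a).1, coeff_zero_X_mul]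
  | succ n => rw [cf_succ, (h.cst_mul_p a).2, coeff_succ_X_mul, coeff_ser]

theorem ser_eq (a : A) : h.ser a = PowerSeries.C (h.cst a) + X * h.ser (h.nxt a) := by
  ext n
  rw [coeff_ser, map_add]
  cases n with
  | zero => rw [cf_zero, coeff_zero_X_mul, coeff_zero_C, add_zero]
  | succ n => rw [cf_succ, coeff_succ_X_mul, coeff_C, if_neg (Nat.succ_ne_zero n), coeff_ser,
      zero_add]

theorem ser_mul (a b : A) : h.ser (a * b) = h.ser a * h.ser b := by
  have key : ∀ n : ℕ, ∀ a b : A, coeff n (h.ser (a * b)) = coeff n (h.ser a * h.ser b) := by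
    intro n
    induction n using Nat.strong_induction_on with
    | _ n ih =>
      intro a b
      have e1 : h.ser a * h.ser b = PowerSeries.C (h.cst a * h.cst b) +
          X * (PowerSeries.C (h.cst a) * h.ser (h.nxt b) + PowerSeries.C (h.cst b) *
            h.ser (h.nxt a) + X * (h.ser (h.nxt a) * h.ser (h.nxt b))) := by
        conv_lhs => rw [h.ser_eq a, h.ser_eq b]
        rw [map_mul]; ring
      rw [e1, h.ser_eq (a * b), (h.cst_mul a b).1, (h.cst_mul a b).2, h.ser_add, h.ser_add,
        h.ser_smul, h.ser_smul, h.ser_mul_p]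
      cases n with
      | zero => rw [map_add, map_add, coeff_zero_X_mul, coeff_zero_X_mul]
      | succ n =>
        rw [map_add, map_add, coeff_succ_X_mul, coeff_succ_X_mul, map_add, map_add _ _ (X * _)]
        congr 2
        cases n with
        | zero => rw [coeff_zero_X_mul, coeff_zero_X_mul]
        | succ n =>
          rw [coeff_succ_X_mul, coeff_succ_X_mul]
          exact ih n (by omega) _ _
  ext n
  exact key n a b

theorem ser_algebraMap (c : k) : h.ser (algebraMap k A c) = PowerSeries.C c := by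
  rw [h.ser_eq, (h.cst_algebraMap c).1, (h.cst_algebraMap c).2, h.ser_zero, mul_zero, add_zero]

/-- the expansion homomorphism `A → k⟦X⟧`, `p ↦ X`. -/
noncomputable def expn : A →ₐ[k] k⟦X⟧ where
  toFun := h.ser
  map_one' := by rw [← map_one (algebraMap k A), h.ser_algebraMap, map_one]
  map_mul' := h.ser_mul
  map_zero' := h.ser_zero
  map_add' := h.ser_add
  commutes' c := h.ser_algebraMap c

theorem coeff_zero_expn (a : A) : constantCoeff (h.expn a) = h.cst a := by
  rw [← coeff_zero_eq_constantCoeff_apply]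
  exact h.coeff_ser 0 a

theorem expn_p_mul (a : A) : h.expn (p * a) = X * h.expn a := h.ser_mul_p a

theorem expn_p : h.expn p = X := by
  have := h.expn_p_mul 1
  rwa [mul_one, map_one, mul_one] at this

/-- `X ^ n` divides the expansion of `a` iff `p ^ n` divides `a` -/
theorem X_pow_dvd_iff (n : ℕ) (a : A) : X ^ n ∣ h.expn a ↔ p ^ n ∣ a := by
  constructor
  · intro hd
    induction n generalizing a with
    | zero => simp
    | succ n ih =>
      have h0 : h.cst a = 0 := by
        rw [← h.coeff_zero_expn, ← PowerSeries.X_dvd_iff]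
        exact (dvd_pow_self X (Nat.succ_ne_zero n)).trans hd
      have ha : a = p * h.nxt a := by
        conv_lhs => rw [h.eq a]
        rw [h0, map_zero, zero_add]
      rw [ha, h.expn_p_mul, pow_succ'] at hd
      have h2 : X ^ n ∣ h.expn (h.nxt a) := by
        obtain ⟨d, hd⟩ := hd
        refine ⟨d, ?_⟩
        have : X * (h.expn (h.nxt a)) = X * (X ^ n * d) := by rw [hd]; ring
        exact mul_left_cancel₀ PowerSeries.X_ne_zero this
      obtain ⟨d, hd'⟩ := ih _ h2
      exact ⟨d, by rw [ha, hd', pow_succ']; ring⟩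
  · rintro ⟨d, rfl⟩
    rw [map_mul, map_pow, h.expn_p]
    exact dvd_mul_right _ _

theorem expn_eq_zero_iff (a : A) : h.expn a = 0 ↔ ∀ n, p ^ n ∣ a := by
  constructor
  · intro h0 n
    rw [← h.X_pow_dvd_iff, h0]
    exact dvd_zero _
  · intro hd
    ext n
    have h1 := (h.X_pow_dvd_iff (n + 1) a).mpr (hd (n + 1))
    rw [PowerSeries.X_pow_dvd_iff] at h1
    rw [h1 n (Nat.lt_succ_self n), map_zero]

/-- uniqueness: a homomorphism `A → k⟦X⟧` with `p ↦ X` is the expansion. -/
theorem expn_unique (f : A →ₐ[k] k⟦X⟧) (hf : f p = X) : f = h.expn := by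
  have key : ∀ n : ℕ, ∀ a : A, coeff n (f a) = coeff n (h.expn a) := by
    intro n
    induction n with
    | zero =>
      intro a
      conv_lhs => rw [h.eq a, map_add, map_mul, hf, AlgHom.commutes]
      rw [map_add, coeff_zero_X_mul, add_zero, coeff_zero_eq_constantCoeff_apply (φ := h.expn a),
        h.coeff_zero_expn]
      simp
    | succ n ih =>
      intro a
      conv_lhs => rw [h.eq a, map_add, map_mul, hf, AlgHom.commutes]
      conv_rhs => rw [h.eq a, map_add, map_mul, h.expn_p, AlgHom.commutes]
      rw [map_add, map_add, coeff_succ_X_mul, coeff_succ_X_mul, ih]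
  ext a n
  exact key n a

end IsExp

end P025H210
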