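import Vale.Agent.P025.R2.H210.Ram3

/-!
# The substitution `t ↦ x` on `A2` and `F2` (`x / t ^ n ∈ A2`)
-/

open Polynomial Filter Topology P025H373 IntermediateField

universe u

namespace P025H210

section

variable {C : Type u} [NormedField C] [IsUltrametricDist C] {n : ℕ} {x : F0 C}

theorem aeval_mem_A2 {y : F0 C} (hy : y ∈ A2 C) (P : C[X]) : aeval y P ∈ A2 C := by
  rw [aeval_eq_sum_range]
  exact sum_mem fun i _ => Subalgebra.smul_mem _ (pow_mem hy i) _

theorem inv_mem_A2_of_near {y : F0 C} (hy : y ∈ A2 C) (h1 : ‖y - 1‖ < 1) : y⁻¹ ∈ A2 C := by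
  obtain ⟨z, hz, hz1, -, -⟩ := exists_inv_mem (A := F0 C) (A2 C).toSubring isClosed_A2
    (x := y - 1) (sub_mem hy (one_mem _)) h1
  rw [add_sub_cancel] at hz1
  rw [← eq_inv_of_mul_eq_one_right hz1]
  exact hz

theorem Near.ne_zero (h : Near n x) : x ≠ 0 := by
  rw [← norm_ne_zero_iff, h.norm_eq]; exact one_ne_zero

theorem Near.inv_mem_A2 (h : Near n x) (hx : x * ((tt C)⁻¹) ^ n ∈ A2 C) : x⁻¹ ∈ A2 C := by
  have h1 : ‖x * ((tt C)⁻¹) ^ n - 1‖ < 1 := by
    have e : x * ((tt C)⁻¹) ^ n - 1 = (x - tt C ^ n) * ((tt C)⁻¹) ^ n := by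
      rw [sub_mul, ← mul_pow, mul_inv_cancel₀ tt_ne_zero, one_pow]
    rw [e, norm_mul, norm_pow, norm_inv, norm_tt, inv_one, one_pow, mul_one]
    exact h.lt
  have h2 := mul_mem (inv_mem_A2_of_near hx h1) (pow_mem (inv_tt_mem_A2 (C := C)) n)
  have h3 : ((tt C)⁻¹) ^ n ≠ 0 := pow_ne_zero _ (inv_ne_zero tt_ne_zero)
  rwa [mul_inv, mul_assoc, inv_mul_cancel₀ h3, mul_one] at h2

theorem Near.norm_inv_sub (h : Near n x) : ‖x⁻¹ - ((tt C)⁻¹) ^ n‖ < 1 := by
  have hx := h.ne_zero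
  have ht : tt C ^ n ≠ 0 := pow_ne_zero _ tt_ne_zero
  have e : x⁻¹ - ((tt C)⁻¹) ^ n = -((x - tt C ^ n) * (x⁻¹ * (tt C ^ n)⁻¹)) := by
    rw [inv_pow]
    field_simp
    ring
  rw [e, norm_neg, norm_mul, norm_mul, norm_inv, norm_inv, h.norm_eq, norm_pow, norm_tt, one_pow,
    inv_one, mul_one, mul_one]
  exact h.lt

omit [IsUltrametricDist C] in
theorem aeval_reflect {E : Type*} [Field E] [Algebra C E] {y : E} (hy : y ≠ 0) (P : C[X]) {d : ℕ}
    (hd : P.natDegree ≤ d) : aeval y P = aeval y⁻¹ (reflect d P) * y ^ d := by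
  let _ := invertibleOfNonzero hy
  have h1 := eval₂_reflect_mul_pow (algebraMap C E) y d P hd
  have h2 : ⅟y = y⁻¹ := invOf_eq_inv y
  rw [h2] at h1
  exact h1.symm

theorem gp_reflect_le (d : ℕ) (P : C[X]) : gp (reflect d P) ≤ gp P := by
  rw [gp_le_iff]
  intro i
  rw [coeff_reflect]
  exact norm_coeff_le _ _

theorem gp_expand_le (P : C[X]) (h : gp P ≤ 1) (hn : 0 < n) : gp (expand C n P) ≤ 1 := by
  rwa [gp_expand hn]

theorem sb_mem_A2 (h : Near n x) (hx : x * ((tt C)⁻¹) ^ n ∈ A2 C) {y : F0 C} (hy : y ∈ A2 C) :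
    sb h y ∈ A2 C := by
  have hxi := h.inv_mem_A2 hx
  refine A2_induction (p := fun y => sb h y ∈ A2 C) ?_ ?_ hy
  · exact isClosed_A2.preimage (continuous_sb h)
  · intro P S hS hd h1
    have hS0 : S ≠ 0 := hS.ne_zero
    have hdn : P.natDegree ≤ S.natDegree := natDegree_le_natDegree hd
    have hgS : gp S ≤ 1 := gp_le_iff.mpr h1
    set d := S.natDegree with hdd
    rw [sb_div, aeval_reflect h.ne_zero P hdn, aeval_reflect h.ne_zero S le_rfl,
      mul_div_mul_right _ _ (pow_ne_zero _ h.ne_zero), div_eq_mul_inv]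
    refine mul_mem (aeval_mem_A2 hxi _) ?_
    set R := reflect d S with hR
    -- the inverse at `t ^ n`
    set y0 : F0 C := ((tt C)⁻¹) ^ n with hy0
    have hy0' : y0 = (tt C ^ n)⁻¹ := inv_pow _ _
    have htn : tt C ^ n ≠ 0 := pow_ne_zero _ tt_ne_zero
    have hSe : aeval (tt C ^ n) S = aeval y0 R * (tt C ^ n) ^ d := by
      rw [hy0', ← aeval_reflect htn S le_rfl]
    have hne : aeval (tt C ^ n) S ≠ 0 := (near_pow (C := C) h.pos).aeval_ne hS0
    have hn0 : ‖aeval y0 R‖ = 1 := by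
      have h3 := norm_aeval_pow (C := C) h.pos S
      rw [hSe, norm_mul, norm_pow, norm_pow, norm_tt, one_pow, one_pow, mul_one,
        gp_monic_of_le hS hgS] at h3
      exact h3
    have hne0 : aeval y0 R ≠ 0 := by rw [← norm_ne_zero_iff, hn0]; exact one_ne_zero
    have hinv : (aeval y0 R)⁻¹ ∈ A2 C := by
      have h4 : (aeval y0 R)⁻¹ = aeval (tt C) (X ^ (n * d) : C[X]) / aeval (tt C) (expand C n S) := by
        rw [map_pow, aeval_X, expand_aeval, hSe, pow_mul]
        have := pow_ne_zero d htn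
        field_simp
      rw [h4]
      refine div_mem_A2 (hS.expand h.pos) ?_ ?_
      · rw [degree_X_pow, degree_eq_natDegree (hS.expand h.pos).ne_zero, natDegree_expand,
          ← hdd, mul_comm]
      · rw [← gp_le_iff]; exact gp_expand_le _ hgS h.pos
    have hRle : gp R ≤ 1 := (gp_reflect_le d S).trans hgS
    have hclose : ‖aeval x⁻¹ R * (aeval y0 R)⁻¹ - 1‖ < 1 := by
      have e : aeval x⁻¹ R * (aeval y0 R)⁻¹ - 1 =
          (aeval x⁻¹ R - aeval y0 R) * (aeval y0 R)⁻¹ := by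
        rw [sub_mul, mul_inv_cancel₀ hne0]
      rw [e, norm_mul, norm_inv, hn0, inv_one, mul_one]
      refine (norm_aeval_sub_le ?_ ?_ R).trans_lt ?_
      · rw [norm_inv, h.norm_eq, inv_one]
      · rw [hy0, norm_pow, norm_inv, norm_tt, inv_one, one_pow]
      · calc ‖x⁻¹ - y0‖ * gp R ≤ ‖x⁻¹ - y0‖ * 1 :=
              mul_le_mul_of_nonneg_left hRle (norm_nonneg _)
          _ < 1 := by rw [mul_one]; exact h.norm_inv_sub
    have hmem : aeval x⁻¹ R * (aeval y0 R)⁻¹ ∈ A2 C := mul_mem (aeval_mem_A2 hxi R) hinv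
    have h5 := mul_mem (inv_mem_A2_of_near hmem hclose) hinv
    rwa [mul_inv, inv_inv, mul_assoc, mul_inv_cancel₀ hne0, mul_one] at h5

theorem near_pow_mem_A2 : tt C ^ n * ((tt C)⁻¹) ^ n ∈ A2 C := by
  rw [← mul_pow, mul_inv_cancel₀ tt_ne_zero, one_pow]
  exact one_mem _

/-- `a ↦ ∑ i < n, sb (a i) * t ^ (-i)` -/
noncomputable def sbM (h : Near n x) : (Fin n → F0 C) →+ F0 C where
  toFun a := ∑ i, sb h (a i) * ((tt C)⁻¹) ^ (i : ℕ)
  map_zero' := by simp
  map_add' a b := by simp [add_mul, Finset.sum_add_distrib]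

theorem sbM_apply (h : Near n x) (a : Fin n → F0 C) :
    sbM h a = ∑ i, sb h (a i) * ((tt C)⁻¹) ^ (i : ℕ) := rfl

theorem sbM_eq (h : Near n x) (a : Fin n → F0 C) :
    sbL h (fun i => a (Fin.rev i)) = sbM h a * tt C ^ (n - 1) := by
  rw [sbL_apply, sbM_apply, Finset.sum_mul]
  rw [← Equiv.sum_comp Fin.revPerm]
  refine Finset.sum_congr rfl fun i _ => ?_
  rw [Fin.revPerm_apply, Fin.rev_rev, mul_assoc]
  congr 1
  have h1 : n - 1 = (i : ℕ) + (Fin.rev i : ℕ) := by
    rw [Fin.val_rev]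
    have := i.2
    omega
  rw [h1, pow_add, ← mul_assoc, ← mul_pow, inv_mul_cancel₀ tt_ne_zero, one_pow, one_mul]

theorem norm_le_sbM (h : Near n x) (a : Fin n → F0 C) (i : Fin n) : ‖a i‖ ≤ ‖sbM h a‖ := by
  have h1 := norm_le_sbL h (fun i => a (Fin.rev i)) (Fin.rev i)
  rw [sbM_eq, norm_mul, norm_pow, norm_tt, one_pow, mul_one, Fin.rev_rev] at h1
  exact h1

theorem norm_sbM (h : Near n x) (a : Fin n → F0 C) : ‖sbM h a‖ = ‖a‖ := by
  refine le_antisymm ?_ ?_
  · rw [sbM_apply]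
    refine IsUltrametricDist.norm_sum_le_of_forall_le_of_nonneg (norm_nonneg _) fun i _ => ?_
    rw [norm_mul, norm_pow, norm_inv, norm_tt, inv_one, one_pow, mul_one, norm_sb]
    exact norm_le_pi_norm a i
  · rw [pi_norm_le_iff_of_nonneg (norm_nonneg _)]
    exact norm_le_sbM h a

theorem sbM_injective (h : Near n x) : Function.Injective (sbM h) := by
  rw [injective_iff_map_eq_zero]
  intro a ha
  rw [← norm_eq_zero, ← norm_sbM h, ha, norm_zero]

theorem isometry_sbM (h : Near n x) : Isometry (sbM h) :=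
  AddMonoidHomClass.isometry_of_norm _ (norm_sbM h)

theorem isClosed_image_sbM (h : Near n x) {S : Set (Fin n → F0 C)} (hS : IsClosed S) :
    IsClosed (sbM h '' S) :=
  (isometry_sbM h).isClosedEmbedding.isClosedMap S hS

theorem norm_sbM_sub_le (h : Near n x) (g : Fin n → RatFunc C) :
    ‖sbM h (fun i => algebraMap (RatFunc C) (F0 C) (g i)) -
      sbM (near_pow h.pos) (fun i => algebraMap (RatFunc C) (F0 C) (g i))‖ ≤
      ‖x - tt C ^ n‖ *
        ‖sbM (near_pow h.pos) (fun i => algebraMap (RatFunc C) (F0 C) (g i))‖ := by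
  have h1 := norm_le_sbM (near_pow (C := C) h.pos) (fun i => algebraMap (RatFunc C) (F0 C) (g i))
  set N := ‖sbM (near_pow h.pos) (fun i => algebraMap (RatFunc C) (F0 C) (g i))‖
  rw [sbM_apply, sbM_apply, ← Finset.sum_sub_distrib]
  refine IsUltrametricDist.norm_sum_le_of_forall_le_of_nonneg
    (mul_nonneg (norm_nonneg _) (norm_nonneg _)) fun i _ => ?_
  rw [← sub_mul, norm_mul, norm_pow, norm_inv, norm_tt, inv_one, one_pow, mul_one]
  refine (norm_sb_sub_le h (g i)).trans (mul_le_mul_of_nonneg_left ?_ (norm_nonneg _))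
  rw [← P025H373.norm_algebraMap]
  exact h1 i

end

section

variable {C : Type u} [NormedField C] [IsUltrametricDist C] [IsAlgClosed C] {n : ℕ} {x : F0 C}

/-- a multiple of a monic polynomial of norm one of the form `R (X ^ n)` -/
theorem exists_mul_expand (hn : 0 < n) (S : C[X]) (hS : S.Monic) (h1 : gp S ≤ 1) :
    ∃ S' R : C[X], R.Monic ∧ gp R ≤ 1 ∧ S * S' = expand C n R := by
  induction hd : S.natDegree generalizing S with
  | zero =>
    have : S = 1 := by
      rw [natDegree_eq_zero] at hd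
      obtain ⟨c, rfl⟩ := hd
      rw [Monic, leadingCoeff_C] at hS
      rw [hS, map_one]
    exact ⟨1, 1, monic_one, by simp, by rw [this, map_one, one_mul]⟩
  | succ m ih =>
    obtain ⟨a, ha⟩ : ∃ a, S.IsRoot a := by
      refine IsAlgClosed.exists_root S ?_
      rw [degree_eq_natDegree hS.ne_zero, hd]
      exact_mod_cast Nat.succ_ne_zero m
    obtain ⟨E, hE⟩ := dvd_iff_isRoot.mpr ha
    have hEm : E.Monic := (monic_X_sub_C a).of_mul_monic_left (hE ▸ hS)
    have hEn : E.natDegree = m := by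
      have := congrArg natDegree hE
      rw [(monic_X_sub_C a).natDegree_mul hEm, natDegree_X_sub_C, hd] at this
      omega
    have hgE1 : 1 ≤ gp E := by
      have := norm_coeff_le E E.natDegree
      rwa [hEm.coeff_natDegree, norm_one] at this
    have hprod : max 1 ‖a‖ * gp E ≤ 1 := by
      rw [← gp_X_sub_C, ← gp_mul, ← hE]; exact h1
    have ha1 : ‖a‖ ≤ 1 := by
      have h2 : ‖a‖ * 1 ≤ max 1 ‖a‖ * gp E :=
        mul_le_mul (le_max_right _ _) hgE1 zero_le_one (le_trans zero_le_one (le_max_left _ _))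
      linarith
    have hgE : gp E ≤ 1 := by
      have h2 : 1 * gp E ≤ max 1 ‖a‖ * gp E :=
        mul_le_mul_of_nonneg_right (le_max_left _ _) (gp_nonneg _)
      linarith
    obtain ⟨S', R, hR, hR1, hSR⟩ := ih E hEm hgE hEn
    obtain ⟨G, hG⟩ : (X - Polynomial.C a) ∣ (X ^ n - Polynomial.C (a ^ n) : C[X]) := by
      rw [map_pow]; exact sub_dvd_pow_sub_pow _ _ _
    refine ⟨S' * G, R * (X - Polynomial.C (a ^ n)), hR.mul (monic_X_sub_C _), ?_, ?_⟩
    · rw [gp_mul, gp_X_sub_C, norm_pow, max_eq_left (pow_le_one₀ (norm_nonneg _) ha1), mul_one]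
      exact hR1
    · rw [map_mul, map_sub, expand_X, expand_C, ← hSR, hE]
      linear_combination (- E * S') * hG

/-- elements of `pre2` over functions of `t ^ n` -/
theorem exists_pre2_sum (hn : 0 < n) {f : RatFunc C} (hf : f ∈ pre2 C) :
    ∃ g : Fin n → RatFunc C, (∀ i, g i ∈ pre2 C) ∧
      sbM (near_pow hn) (fun i => algebraMap (RatFunc C) (F0 C) (g i)) =
        algebraMap (RatFunc C) (F0 C) f := by
  obtain ⟨P, S, hS, hd, h1, rfl⟩ := hf
  obtain ⟨S', R, hR, hR1, hSR⟩ := exists_mul_expand hn S hS (gp_le_iff.mpr h1)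
  have hR0 := hR.ne_zero
  have hE0 : (expand C n R) ≠ 0 := (hR.expand hn).ne_zero
  have hS'0 : S' ≠ 0 := by rintro rfl; rw [mul_zero] at hSR; exact hE0 hSR.symm
  have hQe : algebraMap C[X] (RatFunc C) P / algebraMap C[X] (RatFunc C) S =
      algebraMap C[X] (RatFunc C) (P * S') / algebraMap C[X] (RatFunc C) (expand C n R) := by
    rw [← hSR, map_mul, map_mul, mul_div_mul_right _ _ (RatFunc.algebraMap_ne_zero hS'0)]
  rw [hQe]
  have hdeg : (P * S').natDegree ≤ n * R.natDegree := by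
    have h2 : (S * S').natDegree = n * R.natDegree := by
      rw [hSR, natDegree_expand, mul_comm]
    rw [natDegree_mul hS.ne_zero hS'0] at h2
    by_cases hP : P = 0
    · simp [hP]
    rw [natDegree_mul hP hS'0, ← h2]
    have := natDegree_le_natDegree hd
    omega
  generalize P * S' = Q at hdeg
  -- by linearity it suffices to treat monomials
  have key : ∀ (m : ℕ) (a : C), m ≤ n * R.natDegree → ∃ g : Fin n → RatFunc C,
      (∀ i, g i ∈ pre2 C) ∧ sbM (near_pow hn) (fun i => algebraMap (RatFunc C) (F0 C) (g i)) =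
        algebraMap (RatFunc C) (F0 C) (algebraMap C[X] (RatFunc C) (Polynomial.C a * X ^ m) /
          algebraMap C[X] (RatFunc C) (expand C n R)) := by
    intro m a hm
    -- `m = n * k - j`
    obtain ⟨k, j, hj, hkj⟩ : ∃ k j : ℕ, j < n ∧ n * k = m + j := by
      refine ⟨(m + (n - 1)) / n, (n - 1) - (m + (n - 1)) % n, by omega, ?_⟩
      have h2 := Nat.div_add_mod (m + (n - 1)) n
      have h3 := Nat.mod_lt (m + (n - 1)) hn
      omega
    have hk : k ≤ R.natDegree := by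
      by_contra hcon
      have h2 : n * (R.natDegree + 1) ≤ n * k := Nat.mul_le_mul_left n (by omega)
      rw [Nat.mul_succ] at h2
      omega
    refine ⟨fun i => if (i : ℕ) = j then
      algebraMap C[X] (RatFunc C) (Polynomial.C a * X ^ k) / algebraMap C[X] (RatFunc C) R else 0,
      ?_, ?_⟩
    · intro i
      by_cases hi : (i : ℕ) = j
      · simp only [hi, if_true]
        refine ⟨_, R, hR, ?_, gp_le_iff.mp hR1, rfl⟩
        refine (degree_C_mul_X_pow_le _ _).trans ?_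
        rw [degree_eq_natDegree hR0]
        exact_mod_cast hk
      · simp only [hi, if_false]
        exact zero_mem _
    · rw [sbM_apply, Finset.sum_eq_single (⟨j, hj⟩ : Fin n)]
      · simp only [if_true]
        rw [map_div₀ (algebraMap (RatFunc C) (F0 C)), map_div₀ (algebraMap (RatFunc C) (F0 C)),
          algebraMap_poly, algebraMap_poly, algebraMap_poly, algebraMap_poly, sb_div, expand_aeval, map_mul, map_mul, map_pow, map_pow, aeval_X, aeval_X, aeval_C,
          aeval_C, ← pow_mul, hkj, pow_add]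
        have h4 : tt C ^ j ≠ 0 := pow_ne_zero _ tt_ne_zero
        have h5 : aeval (tt C ^ n) R ≠ 0 := (near_pow (C := C) hn).aeval_ne hR0
        rw [inv_pow]
        field_simp
      · intro i _ hi
        have h2 : ¬ (i : ℕ) = j := fun h => hi (Fin.ext h)
        simp only [if_neg h2, map_zero, zero_mul]
      · intro h; exact absurd (Finset.mem_univ _) h
  rw [Q.as_sum_range_C_mul_X_pow, map_sum, Finset.sum_div, map_sum]
  choose g hg1 hg2 using fun m : Finset.range (Q.natDegree + 1) =>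
    key m (Q.coeff m) (by have := Finset.mem_range.mp m.2; omega)
  refine ⟨fun i => ∑ m, g m i, fun i => sum_mem fun m _ => hg1 m i, ?_⟩
  rw [← Finset.sum_coe_sort]
  simp only [← hg2]
  rw [← map_sum]
  congr 1
  funext i
  rw [map_sum, Finset.sum_apply]

theorem exists_sum_A2 (h : Near n x) (hx : x * ((tt C)⁻¹) ^ n ∈ A2 C) {y : F0 C}
    (hy : y ∈ A2 C) : ∃ a : Fin n → F0 C, (∀ i, a i ∈ A2 C) ∧ sbM h a = y := by
  set M : AddSubgroup (F0 C) := ((AddSubgroup.pi Set.univ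
    (fun _ : Fin n => (A2 C).toSubring.toAddSubgroup)).map (sbM h)) with hM
  have hM' : (M : Set (F0 C)) = sbM h '' {a | ∀ i, a i ∈ A2 C} := by
    rw [hM, AddSubgroup.coe_map]
    congr 1
    ext a
    simp [AddSubgroup.mem_pi]
  have key : (A2 C).toSubring.toAddSubgroup ≤ M := by
    refine subset_of_approx _ _ ?_ ?_ (θ := max (1 / 2) ‖x - tt C ^ n‖)
      (max_lt (by norm_num) h.lt) ?_
    · rw [hM']
      refine isClosed_image_sbM h ?_
      have : {a : Fin n → F0 C | ∀ i, a i ∈ A2 C} = ⋂ i, (fun a : Fin n → F0 C => a i) ⁻¹'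
          (A2 C : Set (F0 C)) := by ext a; simp
      rw [this]
      exact isClosed_iInter fun i => isClosed_A2.preimage (continuous_apply i)
    · intro z hz
      have hz' : z ∈ (M : Set (F0 C)) := hz
      rw [hM'] at hz'
      obtain ⟨a, ha, rfl⟩ := hz'
      change sbM h a ∈ A2 C
      rw [sbM_apply]
      exact sum_mem fun i _ => mul_mem (sb_mem_A2 h hx (ha i)) (pow_mem inv_tt_mem_A2 _)
    · intro y hy
      have hyA : y ∈ A2 C := hy
      by_cases hy1 : y = 0
      · exact ⟨0, AddSubgroup.zero_mem _, by simp [hy1]⟩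
      have hy0 : 0 < ‖y‖ := norm_pos_iff.mpr hy1
      obtain ⟨f, hfm, hf⟩ : ∃ f ∈ pre2 C, ‖y - algebraMap (RatFunc C) (F0 C) f‖ <
          max (1 / 2) ‖x - tt C ^ n‖ * ‖y‖ := by
        have hpos : 0 < max (1 / 2) ‖x - tt C ^ n‖ * ‖y‖ := by positivity
        have hcl : y ∈ closure ((pre2 C).map (ιA C) : Set (F0 C)) := hyA
        obtain ⟨z, hz, hzy⟩ := Metric.mem_closure_iff.mp hcl _ hpos
        obtain ⟨f, hf, rfl⟩ := hz
        exact ⟨f, hf, by rw [dist_eq_norm] at hzy; exact hzy⟩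
      obtain ⟨g, hg, hge⟩ := exists_pre2_sum h.pos hfm
      refine ⟨sbM h (fun i => algebraMap (RatFunc C) (F0 C) (g i)), ?_, ?_⟩
      · change _ ∈ (M : Set (F0 C))
        rw [hM']
        exact ⟨_, fun i => algebraMap_mem_A2 (hg i), rfl⟩
      have h2 := norm_sbM_sub_le h g
      rw [hge] at h2
      have hfy : ‖algebraMap (RatFunc C) (F0 C) f‖ = ‖y‖ := by
        refine norm_eq_of_sub_lt ?_
        rw [norm_sub_rev]
        refine hf.trans_le ?_
        calc _ ≤ 1 * ‖y‖ := mul_le_mul_of_nonneg_right (max_lt (by norm_num) h.lt).le hy0.le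
          _ = _ := one_mul _
      have e : y - sbM h (fun i => algebraMap (RatFunc C) (F0 C) (g i)) =
          (y - algebraMap (RatFunc C) (F0 C) f) -
            (sbM h (fun i => algebraMap (RatFunc C) (F0 C) (g i)) -
              algebraMap (RatFunc C) (F0 C) f) := by ring
      rw [e]
      refine (norm_sub_le_max' _ _).trans (max_le hf.le (h2.trans ?_))
      rw [hfy]
      exact mul_le_mul_of_nonneg_right (le_max_right _ _) hy0.le
  have h1 : y ∈ (M : Set (F0 C)) := key hy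
  rw [hM'] at h1
  obtain ⟨a, ha, h2⟩ := h1
  exact ⟨a, ha, h2⟩

omit [IsAlgClosed C] in
theorem A2_le_F2 {y : F0 C} (hy : y ∈ A2 C) : y ∈ F2 C := subset_adjoin _ _ hy

omit [IsAlgClosed C] in
theorem ratFunc_mem_F2 (f : RatFunc C) : algebraMap (RatFunc C) (F0 C) f ∈ F2 C :=
  (F2 C).algebraMap_mem f

omit [IsAlgClosed C] in
theorem tt_mem_F2 : tt C ∈ F2 C := ratFunc_mem_F2 _

omit [IsAlgClosed C] in
theorem Near.mem_F2 (h : Near n x) (hx : x * ((tt C)⁻¹) ^ n ∈ A2 C) : x ∈ F2 C := by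
  rw [← inv_inv x]
  exact inv_mem (A2_le_F2 (h.inv_mem_A2 hx))

omit [IsAlgClosed C] in
theorem sb_mem_F2 (h : Near n x) (hx : x * ((tt C)⁻¹) ^ n ∈ A2 C) {y : F0 C} (hy : y ∈ F2 C) :
    sb h y ∈ F2 C := by
  have hc : ∀ P : C[X], aeval x P ∈ F2 C := by
    intro P
    rw [aeval_eq_sum_range]
    refine sum_mem fun i _ => ?_
    rw [Algebra.smul_def]
    exact mul_mem (A2_le_F2 ((A2 C).algebraMap_mem _)) (pow_mem (h.mem_F2 hx) i)
  refine mem_of_A2_of_ratFunc ((F2 C).toSubfield.comap (sb h : F0 C →+* F0 C)) ?_ ?_ hy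
  · intro f
    change sb h (algebraMap (RatFunc C) (F0 C) f) ∈ F2 C
    rw [sb_algebraMap, ← f.num_div_denom, sbR_div]
    exact div_mem (hc _) (hc _)
  · intro z hz
    exact A2_le_F2 (sb_mem_A2 h hx hz)

theorem exists_sum_F2' (h : Near n x) (hx : x * ((tt C)⁻¹) ^ n ∈ A2 C) {y : F0 C}
    (hy : y ∈ F2 C) : ∃ a : Fin n → F0 C, (∀ i, a i ∈ F2 C) ∧ sbM h a = y := by
  set K : Subfield (F0 C) := (F2 C).toSubfield.map (sb h : F0 C →+* F0 C) with hK
  have hKm : ∀ a ∈ F2 C, sb h a ∈ K := fun a ha => ⟨a, ha, rfl⟩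
  obtain ⟨a, ha, hat⟩ := exists_sum_A2 h hx (pow_mem inv_tt_mem_A2 n)
  obtain ⟨q, hq, hqn, hq0⟩ := exists_monic (K := K) (t := (tt C)⁻¹)
    (fun i => ⟨sb h (a i), hKm _ (A2_le_F2 (ha i))⟩) hat.symm
  have hmem : y ∈ K⟮(tt C)⁻¹⟯ := by
    have hC : ∀ c : C, algebraMap C (F0 C) c ∈ K⟮(tt C)⁻¹⟯.toSubfield := by
      intro c
      refine K⟮(tt C)⁻¹⟯.algebraMap_mem ⟨algebraMap C (F0 C) c, ?_⟩
      have := hKm (algebraMap C (F0 C) c) (A2_le_F2 ((A2 C).algebraMap_mem c))
      rwa [AlgHom.commutes] at this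
    have hti : (tt C)⁻¹ ∈ K⟮(tt C)⁻¹⟯.toSubfield := mem_adjoin_simple_self K _
    have ht : tt C ∈ K⟮(tt C)⁻¹⟯.toSubfield := by
      have := inv_mem hti
      rwa [inv_inv] at this
    refine mem_of_A2_of_ratFunc K⟮(tt C)⁻¹⟯.toSubfield (ratFunc_mem _ hC ht) ?_ hy
    intro z hz
    obtain ⟨b, hb, hbz⟩ := exists_sum_A2 h hx hz
    rw [← hbz, sbM_apply]
    refine sum_mem fun i _ => mul_mem ?_ (pow_mem hti _)
    exact K⟮(tt C)⁻¹⟯.algebraMap_mem ⟨sb h (b i), hKm _ (A2_le_F2 (hb i))⟩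
  obtain ⟨b, hb⟩ := exists_sum_of_mem_adjoin hq hqn hq0 hmem
  choose c hc hcb using fun i => (b i).2
  refine ⟨c, hc, ?_⟩
  rw [hb, sbM_apply]
  refine Finset.sum_congr rfl fun i _ => ?_
  congr 1
  exact hcb i

theorem exists_sum_F2 (h : Near n x) (hx : x * ((tt C)⁻¹) ^ n ∈ A2 C) {y : F0 C}
    (hy : y ∈ F2 C) : ∃ a : Fin n → F0 C, (∀ i, a i ∈ F2 C) ∧ sbL h a = y := by
  obtain ⟨a, ha, hay⟩ := exists_sum_F2' h hx
    (mul_mem hy (pow_mem (inv_mem (tt_mem_F2 (C := C))) (n - 1)))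
  refine ⟨fun i => a (Fin.rev i), fun i => ha _, ?_⟩
  rw [sbM_eq, hay, mul_assoc, ← mul_pow, inv_mul_cancel₀ tt_ne_zero, one_pow, mul_one]

theorem mem_F2_of_sbL (h : Near n x) (hx : x * ((tt C)⁻¹) ^ n ∈ A2 C) {a : Fin n → F0 C}
    (ha : sbL h a ∈ F2 C) (i : Fin n) : a i ∈ F2 C := by
  obtain ⟨b, hb, hab⟩ := exists_sum_F2 h hx ha
  rw [← sbL_injective h hab]
  exact hb i

end

end P025H210
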