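import Vale.Agent.P025.R2.H552.F2lau
import Vale.Agent.P025.R2.H210.Ram4
import Vale.Agent.P025.R2.H210.Exp

/-!
# Expansion at infinity of `F2`, rescaling, powers
-/

open Polynomial P025H373 P025H552

universe u

namespace P025H210

noncomputable section

set_option linter.unusedSectionVars false

/-! ## orders of Laurent series -/

section ord

variable {C : Type u} [Field C]

theorem hasOrd_order {z : LaurentSeries C} (hz : z ≠ 0) : HasOrd z z.order := by
  refine ⟨z.powerSeriesPart, ?_, ?_⟩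
  · rw [← PowerSeries.coeff_zero_eq_constantCoeff_apply, LaurentSeries.powerSeriesPart_coeff]
    simpa using HahnSeries.coeff_order_eq_zero.not.2 hz
  · rw [LX_zpow]
    exact (LaurentSeries.single_order_mul_powerSeriesPart z).symm

theorem order_eq_of_hasOrd {z : LaurentSeries C} {k : ℤ} (h : HasOrd z k) : z.order = k :=
  (hasOrd_order h.ne_zero).unique h

theorem hasOrd_iff {z : LaurentSeries C} (hz : z ≠ 0) {k : ℤ} : HasOrd z k ↔ z.order = k :=
  ⟨order_eq_of_hasOrd, fun h => h ▸ hasOrd_order hz⟩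

theorem hasOrd_LX_zpow (k : ℤ) : HasOrd (LX ^ k : LaurentSeries C) k := ⟨1, by simp, by simp⟩

/-- rescaling of Laurent series: `X ↦ a X`. -/
def resc (a : Cˣ) : LaurentSeries C →ₐ[C] LaurentSeries C :=
  { P025H552.T a.ne_zero with
    commutes' := fun c => T_algebraMap a.ne_zero c }

theorem resc_apply (a : Cˣ) (f : LaurentSeries C) : resc a f = P025H552.T a.ne_zero f := rfl

theorem resc_ofPS (a : Cˣ) (f : PowerSeries C) :
    resc a (ofPS f) = ofPS (PowerSeries.rescale (a : C) f) := T_ofPS a.ne_zero f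

theorem resc_LX_zpow (a : Cˣ) (k : ℤ) :
    resc a (LX ^ k) = algebraMap C (LaurentSeries C) ((a : C) ^ k) * LX ^ k :=
  T_LX_zpow a.ne_zero k

theorem constantCoeff_rescale (a : C) (f : PowerSeries C) :
    PowerSeries.constantCoeff (PowerSeries.rescale a f) = PowerSeries.constantCoeff f := by
  rw [← PowerSeries.coeff_zero_eq_constantCoeff_apply, PowerSeries.coeff_rescale]; simp

theorem HasOrd.resc {f : LaurentSeries C} {k : ℤ} (h : HasOrd f k) (a : Cˣ) :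
    HasOrd (resc a f) k := by
  obtain ⟨u, hu, rfl⟩ := h
  refine ⟨PowerSeries.C ((a : C) ^ k) * PowerSeries.rescale (a : C) u, ?_, ?_⟩
  · rw [map_mul, constantCoeff_rescale, PowerSeries.constantCoeff_C]
    exact mul_ne_zero (zpow_ne_zero _ a.ne_zero) hu
  · rw [map_mul, resc_LX_zpow, resc_ofPS, map_mul, ofPS_C]
    ring

theorem resc_resc (a b : Cˣ) (f : LaurentSeries C) : resc a (resc b f) = resc (a * b) f := by
  by_cases hf : f = 0
  · rw [hf, map_zero, map_zero, map_zero]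
  obtain ⟨k, u, hu, rfl⟩ := exists_decomp f hf
  rw [map_mul, map_mul, map_mul, resc_LX_zpow, resc_LX_zpow, map_mul, resc_LX_zpow,
    AlgHom.commutes, resc_ofPS, resc_ofPS, resc_ofPS, Units.val_mul, mul_zpow, map_mul,
    PowerSeries.rescale_rescale]
  rw [mul_comm (b : C) (a : C)]
  ring

theorem order_resc (a : Cˣ) {f : LaurentSeries C} (hf : f ≠ 0) : (resc a f).order = f.order :=
  order_eq_of_hasOrd (HasOrd.resc (hasOrd_order hf) a)

end ord

section lam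

variable {C : Type u} [NontriviallyNormedField C] [IsUltrametricDist C] [CompleteSpace C]
  [IsAlgClosed C]

/-- the variable `t` of `F2` -/
def t2 : F2 C := algebraMap (RatFunc C) (F2 C) RatFunc.X

@[simp] theorem coe_t2 : ((t2 : F2 C) : F0 C) = tt C := rfl

theorem t2_ne_zero : (t2 : F2 C) ≠ 0 := fun h =>
  P025H373.tt_ne_zero (C := C) (congrArg (fun z : F2 C => (z : F0 C)) h)

theorem inv_t2 : (t2 : F2 C)⁻¹ = iA2 sA := s_eq

/-- expansion at infinity: `t⁻¹ ↦ X`. -/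
def lamInf : F2 C →ₐ[C] LaurentSeries C := (exists_phi2 (C := C)).choose

theorem lamInf_iA2 (a : A2 C) : lamInf (iA2 a) = ofPS (tay2 a) :=
  (exists_phi2 (C := C)).choose_spec a

theorem lamInf_injective : Function.Injective (lamInf (C := C)) :=
  RingHom.injective (lamInf (C := C)).toRingHom

theorem lamInf_ne_zero {x : F2 C} (hx : x ≠ 0) : lamInf x ≠ 0 :=
  (map_ne_zero_iff _ lamInf_injective).mpr hx

theorem lamInf_t2_zpow (k : ℤ) : lamInf (t2 ^ k : F2 C) = LX ^ (-k) := by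
  have h1 : lamInf ((t2 : F2 C)⁻¹) = LX := by
    rw [inv_t2, lamInf_iA2, tay2_s, ofPS_X]
  have h2 : (t2 : F2 C) ^ k = ((t2 : F2 C)⁻¹) ^ (-k) := by
    rw [inv_zpow, zpow_neg, inv_inv]
  rw [h2, map_zpow₀, h1]

theorem lamInf_t2 : lamInf (t2 : F2 C) = HahnSeries.single (-1) 1 := by
  rw [← LX_zpow, ← lamInf_t2_zpow, zpow_one]

/-- functions on `|t| > 1`, infinity included, have no pole at infinity. -/
theorem lamInf_A2 (x : F2 C) (hx : (x : F0 C) ∈ A2 C) : ∃ g : PowerSeries C,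
    lamInf x = ofPS g := by
  have h1 : iA2 (⟨(x : F0 C), hx⟩ : A2 C) = x := Subtype.ext rfl
  exact ⟨tay2 ⟨(x : F0 C), hx⟩, by rw [← lamInf_iA2, h1]⟩

/-- the expansion property of `A2` -/
theorem isExp2 : IsExp C (sA : A2 C) where
  ex a := ⟨evInf C a, taylorData.D a, taylorData.D_spec a⟩
  uniq c b h := by
    have h1 := (taylorData (C := C)).D_unique (x := 0) (c := c) (y := b) h.symm
    have h2 := (taylorData (C := C)).D_unique (x := 0) (c := 0) (y := 0) (by simp)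
    exact ⟨by rw [← h1.1, map_zero], by rw [← h1.2, h2.2]⟩

theorem expn_eq_tay2 : (isExp2 (C := C)).expn = tay2 :=
  ((isExp2 (C := C)).expn_unique tay2 tay2_s).symm

/-- every nonzero element of `A2` is `s ^ i * u`, `u ∞ ≠ 0`. -/
theorem exists_sA_pow {a : A2 C} (ha : a ≠ 0) : ∃ (i : ℕ) (u : A2 C), evInf C u ≠ 0 ∧
    a = sA ^ i * u := by
  have h0 := tay2_ne_zero ha
  obtain ⟨d, hd⟩ : (sA : A2 C) ^ (tay2 a).order.toNat ∣ a := by
    rw [← (isExp2 (C := C)).X_pow_dvd_iff, expn_eq_tay2]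
    exact PowerSeries.X_pow_order_dvd
  refine ⟨(tay2 a).order.toNat, d, ?_, hd⟩
  intro h1
  obtain ⟨e, he⟩ := (taylorData (C := C)).dvd d h1
  have h2 : (PowerSeries.X : PowerSeries C) ^ ((tay2 a).order.toNat + 1) ∣ tay2 a := by
    refine ⟨tay2 e, ?_⟩
    conv_lhs => rw [hd, he, map_mul, map_mul, map_pow, tay2_s]
    ring
  have h3 : (((tay2 a).order.toNat + 1 : ℕ) : ℕ∞) ≤ (tay2 a).order :=
    PowerSeries.nat_le_order _ _ (PowerSeries.X_pow_dvd_iff.mp h2)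
  have h4 : ((tay2 a).order.toNat : ℕ∞) = (tay2 a).order :=
    ENat.natCast_toNat (fun h => h0 (PowerSeries.order_eq_top.mp h))
  rw [← h4] at h3
  have h5 : (tay2 a).order.toNat + 1 ≤ (tay2 a).order.toNat := by exact_mod_cast h3
  omega

theorem hasOrd_iA2 {u : A2 C} (hu : evInf C u ≠ 0) : HasOrd (lamInf (iA2 u)) 0 := by
  rw [lamInf_iA2]
  refine hasOrd_ofPS ?_
  rwa [tay2, (taylorData (C := C)).constantCoeff_tayHom]

/-- every nonzero element of `F2` is `t ^ k * u / v`, `u, v ∈ A2` with nonzero value at infinity. -/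
theorem exists_t2_zpow {x : F2 C} (hx : x ≠ 0) : ∃ (k : ℤ) (u v : A2 C), evInf C u ≠ 0 ∧
    evInf C v ≠ 0 ∧ x = t2 ^ k * (iA2 u / iA2 v) := by
  obtain ⟨a, b, hb, rfl⟩ := exists_div_A2 x
  have ha : a ≠ 0 := by
    rintro rfl
    exact hx (by rw [map_zero, zero_div])
  obtain ⟨i, u, hu, rfl⟩ := exists_sA_pow ha
  obtain ⟨j, v, hv, rfl⟩ := exists_sA_pow hb
  refine ⟨(j : ℤ) - i, u, v, hu, hv, ?_⟩
  have h1 : iA2 (sA : A2 C) = (t2 : F2 C)⁻¹ := inv_t2.symm
  rw [map_mul, map_mul, map_pow, map_pow, h1, zpow_sub₀ t2_ne_zero, zpow_natCast, zpow_natCast]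
  have h2 := t2_ne_zero (C := C)
  have hv' : iA2 v ≠ 0 := by
    intro h0
    apply hv
    have : v = 0 := iA2_inj (by rw [h0, map_zero])
    rw [this, map_zero]
  rw [inv_pow, inv_pow]
  field_simp

theorem evInf_ne_zero_iA2 {v : A2 C} (hv : evInf C v ≠ 0) : iA2 v ≠ 0 := by
  intro h0
  apply hv
  have : v = 0 := iA2_inj (by rw [h0, map_zero])
  rw [this, map_zero]

theorem hasOrd_t2_zpow {k : ℤ} {u v : A2 C} (hu : evInf C u ≠ 0) (hv : evInf C v ≠ 0) :
    HasOrd (lamInf (t2 ^ k * (iA2 u / iA2 v))) (-k) := by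
  rw [map_mul, lamInf_t2_zpow, map_div₀]
  have := (hasOrd_LX_zpow (C := C) (-k)).mul ((hasOrd_iA2 hu).div (hasOrd_iA2 hv))
  simpa using this

/-! ## change of radius -/

/-- restriction of `sub2` to `A2` -/
theorem exists_sub2A (c : C) (hc : c ≠ 0) (h : 1 ≤ ‖c‖) : ∃ τ : A2 C →ₐ[C] A2 C,
    (∀ a, iA2 (τ a) = sub2 c hc h (iA2 a)) ∧ τ sA = algebraMap C (A2 C) c⁻¹ * sA := by
  let τ : F2 C →ₐ[C] F2 C := sub2 c hc h
  let τ0 : A2 C →ₐ[C] F0 C := ((F2 C).val.restrictScalars C).comp (τ.comp iA2)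
  let τA : A2 C →ₐ[C] A2 C :=
    τ0.codRestrict (A2 C) fun a => (sub2_mem_A2 c hc h (iA2 a) a.2).1
  have hτA : ∀ a, iA2 (τA a) = τ (iA2 a) := fun a => rfl
  refine ⟨τA, hτA, ?_⟩
  apply iA2_inj
  rw [hτA, map_mul, AlgHom.commutes]
  change sub2 c hc h (iA2 sA) = _
  rw [← s_eq, map_inv₀, sub2_algebraMap, scale_X, map_mul, mul_inv]
  congr 1
  have h1 : (algebraMap (RatFunc C) (F2 C)) (RatFunc.C c) = algebraMap C (F2 C) c := rfl
  rw [h1, map_inv₀]

theorem lamInf_sub2 (c : Cˣ) (h : 1 ≤ ‖(c : C)‖) (x : F2 C) :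
    lamInf (sub2 (c : C) c.ne_zero h x) = resc c⁻¹ (lamInf x) := by
  obtain ⟨τ, hτ, hs⟩ := exists_sub2A (c : C) c.ne_zero h
  have key : ∀ a : A2 C, lamInf (sub2 (c : C) c.ne_zero h (iA2 a)) = resc c⁻¹ (lamInf (iA2 a)) := by
    intro a
    rw [← hτ, lamInf_iA2, lamInf_iA2, resc_ofPS]
    congr 1
    have := (taylorData (C := C)).tayHom_tau τ (c : C)⁻¹ hs a
    rw [Units.val_inv_eq_inv_val]
    exact this
  obtain ⟨a, b, -, rfl⟩ := exists_div_A2 x
  rw [map_div₀, map_div₀, key, key, map_div₀, map_div₀]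

/-! ## `t ↦ t ^ n` -/

/-- `t ↦ t ^ n` on `F0`. -/
def pow0 (n : ℕ) (hn : 0 < n) : F0 C →ₐ[C] F0 C := sb (near_pow hn)

/-- `t ↦ t ^ n` on `F2`. -/
def pow2 (n : ℕ) (hn : 0 < n) : F2 C →ₐ[C] F2 C where
  toFun x := ⟨sb (near_pow hn) (x : F0 C), sb_mem_F2 _ near_pow_mem_A2 x.2⟩
  map_one' := Subtype.ext (map_one _)
  map_mul' x y := Subtype.ext (map_mul (sb (near_pow hn)) (x : F0 C) (y : F0 C))
  map_zero' := Subtype.ext (map_zero _)
  map_add' x y := Subtype.ext (map_add (sb (near_pow hn)) (x : F0 C) (y : F0 C))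
  commutes' c := Subtype.ext ((sb (near_pow hn)).commutes c)

theorem coe_pow2 (n : ℕ) (hn : 0 < n) (x : F2 C) :
    ((pow2 n hn x : F2 C) : F0 C) = sb (near_pow hn) (x : F0 C) := rfl

theorem pow2_t2 (n : ℕ) (hn : 0 < n) : pow2 n hn (t2 : F2 C) = t2 ^ n := by
  apply Subtype.ext
  rw [coe_pow2, coe_t2, sb_tt]
  rfl

theorem pow0_tt (n : ℕ) (hn : 0 < n) : pow0 n hn (tt C) = tt C ^ n := sb_tt _

/-- the value at infinity of `u (t ^ n)` -/
theorem exists_pow2A (n : ℕ) (hn : 0 < n) (u : A2 C) : ∃ u' : A2 C, iA2 u' = pow2 n hn (iA2 u) ∧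
    evInf C u' = evInf C u := by
  refine ⟨⟨sb (near_pow hn) (u : F0 C), sb_mem_A2 _ near_pow_mem_A2 u.2⟩, rfl, ?_⟩
  have h1 := (taylorData (C := C)).D_spec u
  set D := (taylorData (C := C)).D u
  set u' : A2 C := ⟨sb (near_pow hn) (u : F0 C), sb_mem_A2 _ near_pow_mem_A2 u.2⟩
  set D' : A2 C := ⟨sb (near_pow hn) (D : F0 C), sb_mem_A2 _ near_pow_mem_A2 D.2⟩
  obtain ⟨m, rfl⟩ : ∃ m, n = m + 1 := ⟨n - 1, by omega⟩
  have h2 : u' = algebraMap C (A2 C) (evInf C u) + sA * (sA ^ m * D') := by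
    apply Subtype.ext
    have h3 : (u : F0 C) = algebraMap C (F0 C) (evInf C u) + (tt C)⁻¹ * (D : F0 C) := by
      conv_lhs => rw [h1]
      rfl
    change sb (near_pow hn) (u : F0 C) = algebraMap C (F0 C) (evInf C u) +
      (tt C)⁻¹ * (((tt C)⁻¹) ^ m * sb (near_pow hn) (D : F0 C))
    rw [h3, map_add, map_mul, AlgHom.commutes, map_inv₀, sb_tt]
    rw [← mul_assoc, ← pow_succ', inv_pow]
  rw [h2, map_add, map_mul, taylorData.rho_s, zero_mul, add_zero, AlgHom.commutes]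
  rfl

theorem HasOrd.pow2 (n : ℕ) (hn : 0 < n) {x : F2 C} {k : ℤ} (h : HasOrd (lamInf x) k) :
    HasOrd (lamInf (pow2 n hn x)) (n * k) := by
  have hx : x ≠ 0 := by
    rintro rfl
    exact h.ne_zero (map_zero _)
  obtain ⟨j, u, v, hu, hv, rfl⟩ := exists_t2_zpow hx
  have h1 := (hasOrd_t2_zpow (k := j) hu hv).unique h
  obtain ⟨u', hu', hu1⟩ := exists_pow2A n hn u
  obtain ⟨v', hv', hv1⟩ := exists_pow2A n hn v
  have h2 : P025H210.pow2 n hn (t2 ^ j * (iA2 u / iA2 v)) =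
      t2 ^ ((n : ℤ) * j) * (iA2 u' / iA2 v') := by
    rw [map_mul, map_div₀, ← hu', ← hv', map_zpow₀, pow2_t2, zpow_mul, zpow_natCast]
  rw [h2]
  have h3 := hasOrd_t2_zpow (k := (n : ℤ) * j) (hu1 ▸ hu) (hv1 ▸ hv)
  rwa [← mul_neg, h1] at h3

/-- order of vanishing at infinity of `a (t ^ n)`. -/
theorem order_lamInf_pow2 (n : ℕ) (hn : 0 < n) (x : F2 C) :
    (lamInf (pow2 n hn x)).order = n * (lamInf x).order := by
  by_cases hx : x = 0
  · simp [hx]
  · exact order_eq_of_hasOrd (HasOrd.pow2 n hn (hasOrd_order (lamInf_ne_zero hx)))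

end lam

end

end P025H210
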