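import Vale.Agent.P025.R2.H210.Bij2
import Vale.Agent.P025.R2.H544.Points

/-!
# P025 G-DISC (5.1): the points over the discs `|T| > ‖c‖` and `V(K)` (helper210)
-/

open Polynomial TensorProduct P025H373 P025H544 P025H628 P025H552 Vale.Agent.P019P

universe u v

namespace P025H210

noncomputable section

set_option linter.unusedSectionVars false

section prod

variable {R : Type*} [CommRing R] {ι : Type*} {k : ι → Type*} [∀ i, Field (k i)]
  (φ : ∀ i, R →+* k i)

/-- the points of a finite product of fields -/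
theorem ker_bij [Finite ι] (h : Function.Bijective (fun (x : R) (i : ι) => φ i x)) :
    Function.Bijective (fun i : ι => (⟨RingHom.ker (φ i), RingHom.ker_isPrime (φ i)⟩ :
      PrimeSpectrum R)) := by
  classical
  have := Fintype.ofFinite ι
  choose e he using fun i : ι => h.2 (Pi.single i 1)
  have he1 : ∀ i, φ i (e i) = 1 := fun i => by
    have := congrFun (he i) i
    simpa using this
  have he0 : ∀ i j, j ≠ i → φ j (e i) = 0 := fun i j hij => by
    have := congrFun (he i) j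
    simpa [Pi.single_apply, hij] using this
  constructor
  · intro i j hij
    by_contra hne
    have h1 : e i ∈ RingHom.ker (φ j) := he0 i j (Ne.symm hne)
    have h2 : RingHom.ker (φ i) = RingHom.ker (φ j) := congrArg PrimeSpectrum.asIdeal hij
    rw [← h2] at h1
    have h3 : φ i (e i) = 0 := h1
    rw [he1] at h3
    exact one_ne_zero h3
  · intro p
    have hprod : ∏ i, (1 - e i) = 0 := by
      apply h.1
      funext j
      change φ j (∏ i, (1 - e i)) = φ j 0
      rw [map_prod, map_zero]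
      exact Finset.prod_eq_zero (Finset.mem_univ j) (by rw [map_sub, map_one, he1, sub_self])
    have h1 : ∏ i, (1 - e i) ∈ p.asIdeal := by rw [hprod]; exact p.asIdeal.zero_mem
    obtain ⟨i, -, hi⟩ := (Ideal.IsPrime.prod_mem_iff (hp := p.isPrime)).mp h1
    have h2 : e i ∉ p.asIdeal := fun h3 => p.isPrime.ne_top ((Ideal.eq_top_iff_one _).mpr (by
      have := p.asIdeal.add_mem hi h3
      rwa [sub_add_cancel] at this))
    have h4 : RingHom.ker (φ i) ≤ p.asIdeal := by
      intro x hx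
      have h5 : x * e i = 0 := by
        apply h.1
        funext j
        change φ j (x * e i) = φ j 0
        rw [map_mul, map_zero]
        rcases eq_or_ne j i with rfl | hj
        · rw [show φ j x = 0 from hx, zero_mul]
        · rw [he0 i j hj, mul_zero]
      exact (p.isPrime.mem_or_mem (by rw [h5]; exact p.asIdeal.zero_mem)).resolve_right h2
    have hs : Function.Surjective (φ i) := fun y => by
      obtain ⟨x, hx⟩ := h.2 (Pi.single i y)
      exact ⟨x, by simpa using congrFun hx i⟩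
    refine ⟨i, PrimeSpectrum.ext ?_⟩
    have hm : (RingHom.ker (φ i)).IsMaximal := RingHom.ker_isMaximal_of_surjective (φ i) hs
    exact hm.eq_of_le p.isPrime.ne_top h4

end prod

section rot

variable {C : Type u} [NontriviallyNormedField C] [IsUltrametricDist C] [CompleteSpace C]
  [IsAlgClosed C]

/-- `t ↦ t ^ n` on `A2`. -/
def pow2A (n : ℕ) (hn : 0 < n) : A2 C →ₐ[C] A2 C :=
  ((sb (near_pow hn)).comp (A2 C).val).codRestrict (A2 C)
    fun a => sb_mem_A2 _ near_pow_mem_A2 a.2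

theorem iA2_pow2A (n : ℕ) (hn : 0 < n) (a : A2 C) : iA2 (pow2A n hn a) = pow2 n hn (iA2 a) := rfl

theorem pow2A_sA (n : ℕ) (hn : 0 < n) : pow2A n hn (sA : A2 C) = sA ^ n := by
  apply iA2_inj
  rw [iA2_pow2A, ← inv_t2, map_inv₀, pow2_t2, map_pow, ← inv_t2, inv_pow]

/-- a rotation fixes the functions of `t ^ n`. -/
theorem sub2_pow2 (n : ℕ) (hn : 0 < n) (ζ : Cˣ) (hζ : ζ ^ n = 1) (h : 1 ≤ ‖(ζ : C)‖) (x : F2 C) :
    sub2 (ζ : C) ζ.ne_zero h (pow2 n hn x) = pow2 n hn x := by
  obtain ⟨τ, hτ, hs⟩ := exists_sub2A (ζ : C) ζ.ne_zero h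
  have hs' : τ (sA ^ n) = sA ^ n := by
    rw [map_pow, hs, mul_pow, ← map_pow, inv_pow, ← Units.val_pow_eq_pow_val, hζ]
    simp
  have key : ∀ (m : ℕ) (a : A2 C), (sA : A2 C) ^ m ∣ τ (pow2A n hn a) - pow2A n hn a := by
    intro m
    induction m with
    | zero => intro a; rw [pow_zero]; exact one_dvd _
    | succ m ih =>
      intro a
      have h1 := (taylorData (C := C)).D_spec a
      obtain ⟨d, hd⟩ := ih ((taylorData (C := C)).D a)
      have h2 : τ (pow2A n hn a) - pow2A n hn a =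
          sA ^ n * (τ (pow2A n hn ((taylorData (C := C)).D a)) -
            pow2A n hn ((taylorData (C := C)).D a)) := by
        conv_lhs => rw [h1]
        rw [map_add, map_mul, map_add, map_mul, pow2A_sA, hs', AlgHom.commutes, AlgHom.commutes]
        ring
      rw [h2, hd]
      obtain ⟨k, rfl⟩ : ∃ k, n = k + 1 := ⟨n - 1, by omega⟩
      exact ⟨sA ^ k * d, by ring⟩
  have key2 : ∀ a : A2 C, τ (pow2A n hn a) = pow2A n hn a := by
    intro a
    by_contra hne
    obtain ⟨i, u, hu, hi⟩ := exists_sA_pow (sub_ne_zero.mpr hne)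
    obtain ⟨d, hd⟩ := key (i + 1) a
    have h3 : u = sA * d := by
      have h4 : (sA : A2 C) ^ i * u = sA ^ i * (sA * d) := by rw [← hi, hd]; ring
      exact mul_left_cancel₀ (pow_ne_zero _ (taylorData (C := C)).ne_zero) h4
    apply hu
    rw [h3, map_mul, (taylorData (C := C)).rho_s, zero_mul]
  have key3 : ∀ a : A2 C, sub2 (ζ : C) ζ.ne_zero h (pow2 n hn (iA2 a)) = pow2 n hn (iA2 a) := by
    intro a
    rw [← iA2_pow2A, ← hτ, key2]
  obtain ⟨a, b, -, rfl⟩ := exists_div_A2 x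
  rw [map_div₀, map_div₀, key3, key3]

theorem norm_eq_one_of_pow {n : ℕ} (hn : 0 < n) {ζ : Cˣ} (hζ : ζ ^ n = 1) : ‖(ζ : C)‖ = 1 := by
  have h1 : ‖(ζ : C)‖ ^ n = 1 := by
    rw [← norm_pow, ← Units.val_pow_eq_pow_val, hζ, Units.val_one, norm_one]
  exact (pow_eq_one_iff_of_nonneg (norm_nonneg _) hn.ne').mp h1

theorem exists_root {n : ℕ} (hn : 0 < n) (c : Cˣ) : ∃ γ : Cˣ, γ ^ n = c := by
  obtain ⟨z, hz⟩ := IsAlgClosed.exists_pow_nat_eq (c : C) hn
  have h0 : z ≠ 0 := by
    rintro rfl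
    rw [zero_pow hn.ne'] at hz
    exact c.ne_zero hz.symm
  exact ⟨Units.mk0 z h0, Units.ext hz⟩

end rot

section charts

variable {C : Type u} [NontriviallyNormedField C] [IsUltrametricDist C] [CompleteSpace C]
  [IsAlgClosed C] [CharZero C]
  {K : Type v} [Field K] [Algebra C K] [Algebra (RatFunc C) K] [IsScalarTower C (RatFunc C) K]
  [FiniteDimensional (RatFunc C) K] [CFF C K]

/-- change of the root `γ`. -/
theorem Charts.ch2_rot (D : Charts C K) (P : Pole C K) (γ γ' c : Cˣ) (hc : γ ^ P.N = c)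
    (hc' : γ' ^ P.N = c) (hr : D.r0 ≤ ‖(c : C)‖) : ∃ (h : 1 ≤ ‖((γ⁻¹ * γ' : Cˣ) : C)‖),
    ∀ x : F2r C c ⊗[RatFunc C] K, D.ch2 P γ' c hc' hr x =
      sub2 ((γ⁻¹ * γ' : Cˣ) : C) (γ⁻¹ * γ').ne_zero h (D.ch2 P γ c hc hr x) := by
  have hζ : (γ⁻¹ * γ') ^ P.N = 1 := by rw [mul_pow, inv_pow, hc, hc', inv_mul_cancel]
  have h : 1 ≤ ‖((γ⁻¹ * γ' : Cˣ) : C)‖ := (norm_eq_one_of_pow P.N_pos hζ).ge
  refine ⟨h, fun x => ?_⟩
  induction x with
  | zero => simp
  | add x y hx hy => rw [map_add, map_add, hx, hy, map_add]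
  | tmul a y =>
    rw [D.ch2_tmul, D.ch2_tmul, map_mul, sub2_pow2 _ _ _ hζ]
    congr 1
    have h1 := D.scale P γ (γ⁻¹ * γ') (by rw [norm_pow_of_eq hc]; exact hr) h y
    rwa [mul_inv_cancel_left] at h1

theorem Charts.ker_ch2_eq (D : Charts C K) (P : Pole C K) (γ γ' c : Cˣ) (hc : γ ^ P.N = c)
    (hc' : γ' ^ P.N = c) (hr : D.r0 ≤ ‖(c : C)‖) :
    RingHom.ker (D.ch2 P γ' c hc' hr) = RingHom.ker (D.ch2 P γ c hc hr) := by
  obtain ⟨h, h1⟩ := D.ch2_rot P γ γ' c hc hc' hr
  ext x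
  rw [RingHom.mem_ker, RingHom.mem_ker, h1, map_eq_zero_iff]
  exact (sub2 ((γ⁻¹ * γ' : Cˣ) : C) (γ⁻¹ * γ').ne_zero h : F2 C →+* F2 C).injective

/-- the point of `P` on the `D`-side: the kernel of `ch2`. -/
def Charts.dP (D : Charts C K) (c : Cˣ) (hr : D.r0 ≤ ‖(c : C)‖) (P : Pole C K) :
    Pt (RatFunc C) (F2r C c) K :=
  ⟨RingHom.ker (D.ch2 P (exists_root P.N_pos c).choose c (exists_root P.N_pos c).choose_spec hr),
    RingHom.ker_isPrime _⟩

theorem Charts.ker_ch2 (D : Charts C K) (P : Pole C K) (γ c : Cˣ) (hc : γ ^ P.N = c)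
    (hr : D.r0 ≤ ‖(c : C)‖) : RingHom.ker (D.ch2 P γ c hc hr) = (D.dP c hr P).asIdeal :=
  D.ker_ch2_eq P _ _ c _ _ hr

theorem Charts.dP_bijective (D : Charts C K) (c : Cˣ) (hr : D.r0 ≤ ‖(c : C)‖) :
    Function.Bijective (D.dP c hr) :=
  ker_bij _ (D.bij2 c hr (fun P => (exists_root P.N_pos c).choose)
    (fun P => (exists_root P.N_pos c).choose_spec))

/-- the edge of `P`: the kernel of `ch0`. -/
def Charts.wP (D : Charts C K) (c : Cˣ) (hr : D.r0 ≤ ‖(c : C)‖) (P : Pole C K) :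
    Pt (RatFunc C) (F0r C c) K :=
  ⟨RingHom.ker (D.ch0 P (exists_root P.N_pos c).choose c (exists_root P.N_pos c).choose_spec hr),
    RingHom.ker_isPrime _⟩

theorem Charts.wP_bijective (D : Charts C K) (c : Cˣ) (hr : D.r0 ≤ ‖(c : C)‖) :
    Function.Bijective (D.wP c hr) :=
  ker_bij _ (D.bij0 c hr (fun P => (exists_root P.N_pos c).choose)
    (fun P => (exists_root P.N_pos c).choose_spec))

/-- end point of the kernel of `ch0` -/
theorem Charts.comap_ker_ch0 (D : Charts C K) (P : Pole C K) (γ c : Cˣ) (hc : γ ^ P.N = c)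
    (hr : D.r0 ≤ ‖(c : C)‖) :
    (RingHom.ker (D.ch0 P γ c hc hr)).comap (bc (RatFunc C) (F2r C c) (F0r C c) K).toRingHom =
      (D.dP c hr P).asIdeal := by
  rw [← D.ker_ch2 P γ c hc hr]
  ext x
  rw [Ideal.mem_comap, RingHom.mem_ker, RingHom.mem_ker]
  change D.ch0 P γ c hc hr (bc (RatFunc C) (F2r C c) (F0r C c) K x) = 0 ↔ _
  rw [D.ch0_bc]
  exact ZeroMemClass.coe_eq_zero

theorem Charts.edge_wP (D : Charts C K) (c : Cˣ) (hr : D.r0 ≤ ‖(c : C)‖) (P : Pole C K) :
    edge (RatFunc C) (F2r C c) (F0r C c) K (D.wP c hr P) = D.dP c hr P :=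
  PrimeSpectrum.ext (D.comap_ker_ch0 P _ c _ hr)

theorem Charts.ker_ch0 (D : Charts C K) (P : Pole C K) (γ c : Cˣ) (hc : γ ^ P.N = c)
    (hr : D.r0 ≤ ‖(c : C)‖) : RingHom.ker (D.ch0 P γ c hc hr) = (D.wP c hr P).asIdeal := by
  obtain ⟨Q, hQ⟩ := (D.wP_bijective c hr).2 ⟨RingHom.ker (D.ch0 P γ c hc hr),
    RingHom.ker_isPrime _⟩
  have h1 : D.dP c hr Q = D.dP c hr P := by
    rw [← D.edge_wP, hQ]
    exact PrimeSpectrum.ext (D.comap_ker_ch0 P γ c hc hr)
  have h2 := (D.dP_bijective c hr).1 h1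
  subst h2
  exact (congrArg PrimeSpectrum.asIdeal hQ).symm

theorem Charts.ch2_surjective (D : Charts C K) (P : Pole C K) (γ c : Cˣ) (hc : γ ^ P.N = c)
    (hr : D.r0 ≤ ‖(c : C)‖) : Function.Surjective (D.ch2 P γ c hc hr) := by
  classical
  intro y
  choose g hg using fun Q : Pole C K => exists_root Q.N_pos c
  obtain ⟨x, hx⟩ := (D.bij2 c hr (Function.update g P γ) (fun Q => by
    rcases eq_or_ne Q P with rfl | hQ
    · rw [Function.update_self]; exact hc
    · rw [Function.update_of_ne hQ]; exact hg Q)).2 (Pi.single P y)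
  refine ⟨x, ?_⟩
  have h2 := congrFun hx P
  simp only [Pi.single_eq_same] at h2
  rw [← h2]
  congr 1
  simp

theorem Charts.ch0_surjective (D : Charts C K) (P : Pole C K) (γ c : Cˣ) (hc : γ ^ P.N = c)
    (hr : D.r0 ≤ ‖(c : C)‖) : Function.Surjective (D.ch0 P γ c hc hr) := by
  classical
  intro y
  choose g hg using fun Q : Pole C K => exists_root Q.N_pos c
  obtain ⟨x, hx⟩ := (D.bij0 c hr (Function.update g P γ) (fun Q => by
    rcases eq_or_ne Q P with rfl | hQ
    · rw [Function.update_self]; exact hc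
    · rw [Function.update_of_ne hQ]; exact hg Q)).2 (Pi.single P y)
  refine ⟨x, ?_⟩
  have h2 := congrFun hx P
  simp only [Pi.single_eq_same] at h2
  rw [← h2]
  congr 1
  simp

/-- `V(K)` is one point. -/
theorem Charts.subsingleton_V (D : Charts C K) (c : Cˣ) (hr : D.r0 ≤ ‖(c : C)‖) :
    Subsingleton (Pt (RatFunc C) (F1r C c) K) := by
  classical
  -- a section of `edge : E → D`
  let β : Pt (RatFunc C) (F2r C c) K → Pt (RatFunc C) (F1r C c) K := fun d =>
    edge (RatFunc C) (F1r C c) (F0r C c) K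
      (D.wP c hr ((Equiv.ofBijective _ (D.dP_bijective c hr)).symm d))
  obtain ⟨v0, h1, -⟩ := (patch (C := C) c).connected_fin (L := K) (X := _)
    (fun v : Pt (RatFunc C) (F1r C c) K => v) β (fun e => by
      obtain ⟨P, rfl⟩ := (D.wP_bijective c hr).2 e
      have h2 : (Equiv.ofBijective _ (D.dP_bijective c hr)).symm
          (edge (RatFunc C) (F2r C c) (F0r C c) K (D.wP c hr P)) = P := by
        rw [Equiv.symm_apply_eq, D.edge_wP]
        rfl
      change edge (RatFunc C) (F1r C c) (F0r C c) K (D.wP c hr P) =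
        edge (RatFunc C) (F1r C c) (F0r C c) K (D.wP c hr
          ((Equiv.ofBijective _ (D.dP_bijective c hr)).symm
          (edge (RatFunc C) (F2r C c) (F0r C c) K (D.wP c hr P))))
      rw [h2])
  exact ⟨fun v w => (h1 v).trans (h1 w).symm⟩

/-- `V(K)` is one point: `K1` is a field. -/
theorem Charts.isField (D : Charts C K) (c : Cˣ) (hr : D.r0 ≤ ‖(c : C)‖) :
    IsField (F1r C c ⊗[RatFunc C] K) := by
  have hss := D.subsingleton_V c hr
  have : CharZero (RatFunc C) := inferInstance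
  have : Algebra.IsSeparable (RatFunc C) K := inferInstance
  have hred : IsReduced (F1r C c ⊗[RatFunc C] K) := isReduced_tensor_fin
  obtain ⟨v⟩ := nonempty_pt (F := RatFunc C) (A := F1r C c) (L := K)
  have hmax : v.asIdeal.IsMaximal := isMaximal_pt v
  have hbot : v.asIdeal = ⊥ := by
    have h1 : nilradical (F1r C c ⊗[RatFunc C] K) = ⊥ := nilradical_eq_zero _
    rw [nilradical_eq_sInf] at h1
    have h2 : {J : Ideal (F1r C c ⊗[RatFunc C] K) | J.IsPrime} = {v.asIdeal} := by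
      ext J
      constructor
      · intro hJ
        exact congrArg PrimeSpectrum.asIdeal (hss.elim (⟨J, hJ⟩ : PrimeSpectrum _) v)
      · rintro rfl
        exact v.isPrime
    rwa [h2, sInf_singleton] at h1
  have hnt : Nontrivial (F1r C c ⊗[RatFunc C] K) := inferInstance
  rw [hbot] at hmax
  exact Ring.isField_iff_maximal_bot.mpr hmax

end charts

end

end P025H210
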