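import Vale.Agent.P025.R2.H373.Gauss2

/-!
# Substitutions `t ↦ x`, `‖x - t ^ n‖ < 1`, in the Gauss field

`sb x : F0 C →ₐ[C] F0 C` is isometric and `1, t, …, t ^ (n-1)` is an orthonormal basis of `F0 C` over
its image.
-/

open Polynomial Filter Topology P025H373

universe u

namespace P025H210

section Ext

variable {C : Type u} [NormedField C] [IsUltrametricDist C]

/-- extension of norm-nonincreasing homomorphisms from `C(t)` to `F0` -/
noncomputable def extF0 {E : Type*} [NormedField E] [CompleteSpace E] (f : RatFunc C →+* E)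
    (hf : ∀ r, ‖f r‖ ≤ gauss C r) : F0 C →+* E :=
  UniformSpace.Completion.extensionHom
    (f.comp (WithAbs.equiv (gauss C) : WithAbs (gauss C) →+* RatFunc C))
    (AddMonoidHomClass.continuous_of_bound
      (f.comp (WithAbs.equiv (gauss C) : WithAbs (gauss C) →+* RatFunc C)) 1 (fun x => by
        rw [one_mul]; exact hf _))

theorem extF0_algebraMap {E : Type*} [NormedField E] [CompleteSpace E] (f : RatFunc C →+* E)
    (hf : ∀ r, ‖f r‖ ≤ gauss C r) (r : RatFunc C) :
    extF0 f hf (algebraMap (RatFunc C) (F0 C) r) = f r :=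
  UniformSpace.Completion.extensionHom_coe
    (f.comp (WithAbs.equiv (gauss C) : WithAbs (gauss C) →+* RatFunc C))
    (AddMonoidHomClass.continuous_of_bound
      (f.comp (WithAbs.equiv (gauss C) : WithAbs (gauss C) →+* RatFunc C)) 1 (fun x => by
        rw [one_mul]; exact hf _)) ((WithAbs.equiv (gauss C)).symm r)

theorem continuous_extF0 {E : Type*} [NormedField E] [CompleteSpace E] (f : RatFunc C →+* E)
    (hf : ∀ r, ‖f r‖ ≤ gauss C r) : Continuous (extF0 f hf) :=
  UniformSpace.Completion.continuous_extension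

theorem norm_extF0 {E : Type*} [NormedField E] [CompleteSpace E] (f : RatFunc C →+* E)
    (hf : ∀ r, ‖f r‖ = gauss C r) (y : F0 C) : ‖extF0 f (fun r => (hf r).le) y‖ = ‖y‖ := by
  refine denseRange_algebraMap.induction_on (p := fun y : F0 C =>
    ‖extF0 f (fun r => (hf r).le) y‖ = ‖y‖) y ?_ ?_
  · exact isClosed_eq ((continuous_extF0 f _).norm) continuous_norm
  · intro r
    rw [extF0_algebraMap, P025H373.norm_algebraMap, hf]

end Ext

theorem norm_eq_of_sub_lt {E : Type*} [NormedAddCommGroup E] [IsUltrametricDist E] {a b : E}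
    (h : ‖a - b‖ < ‖b‖) : ‖a‖ = ‖b‖ := by
  have h1 := IsUltrametricDist.norm_add_eq_max_of_norm_ne_norm h.ne
  rw [sub_add_cancel, max_eq_right h.le] at h1
  exact h1

section Subst

variable {C : Type u} [NormedField C] [IsUltrametricDist C]

/-- `x` is close to `t ^ n` -/
structure Near (n : ℕ) (x : F0 C) : Prop where
  pos : 0 < n
  lt : ‖x - tt C ^ n‖ < 1

theorem near_pow {n : ℕ} (hn : 0 < n) : Near n (tt C ^ n) :=
  ⟨hn, by rw [sub_self, norm_zero]; exact one_pos⟩

variable {n : ℕ} {x : F0 C}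

theorem Near.norm_eq (h : Near n x) : ‖x‖ = 1 := by
  have h1 : ‖tt C ^ n‖ = 1 := by rw [norm_pow, norm_tt, one_pow]
  have h2 : ‖x‖ = ‖tt C ^ n‖ := norm_eq_of_sub_lt (by rw [h1]; exact h.lt)
  rw [h2, h1]

theorem norm_pow_sub_pow_le {E : Type*} [NormedField E] [IsUltrametricDist E] {a b : E}
    (ha : ‖a‖ ≤ 1) (hb : ‖b‖ ≤ 1) (k : ℕ) : ‖a ^ k - b ^ k‖ ≤ ‖a - b‖ := by
  induction k with
  | zero => simp
  | succ k ih =>
    have e : a ^ (k + 1) - b ^ (k + 1) = (a ^ k - b ^ k) * a + b ^ k * (a - b) := by ring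
    rw [e]
    refine (IsUltrametricDist.norm_add_le_max _ _).trans (max_le ?_ ?_)
    · rw [norm_mul]
      calc _ ≤ ‖a - b‖ * 1 := mul_le_mul ih ha (norm_nonneg _) (norm_nonneg _)
        _ = _ := mul_one _
    · rw [norm_mul, norm_pow]
      calc _ ≤ 1 * ‖a - b‖ := mul_le_mul (pow_le_one₀ (norm_nonneg _) hb) le_rfl
            (norm_nonneg _) zero_le_one
        _ = _ := one_mul _

theorem norm_aeval_sub_le {a b : F0 C} (ha : ‖a‖ ≤ 1) (hb : ‖b‖ ≤ 1) (P : C[X]) :
    ‖aeval a P - aeval b P‖ ≤ ‖a - b‖ * gp P := by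
  rw [aeval_eq_sum_range, aeval_eq_sum_range, ← Finset.sum_sub_distrib]
  refine IsUltrametricDist.norm_sum_le_of_forall_le_of_nonneg
    (mul_nonneg (norm_nonneg _) (gp_nonneg P)) fun i _ => ?_
  rw [← smul_sub, norm_smul, mul_comm]
  exact mul_le_mul (norm_pow_sub_pow_le ha hb i) (norm_coeff_le P i) (norm_nonneg _)
    (norm_nonneg _)

theorem gp_expand (hn : 0 < n) (P : C[X]) : gp (expand C n P) = gp P := by
  refine le_antisymm ?_ ?_
  · rw [gp_le_iff]
    intro i
    rw [coeff_expand hn]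
    split_ifs
    · exact norm_coeff_le _ _
    · rw [norm_zero]; exact gp_nonneg _
  · rw [gp_le_iff]
    intro i
    rw [← coeff_expand_mul hn P i]
    exact norm_coeff_le _ _

theorem aeval_expand (n : ℕ) (P : C[X]) : aeval (tt C) (expand C n P) = aeval (tt C ^ n) P := by
  rw [expand_aeval]

theorem norm_aeval_pow (hn : 0 < n) (P : C[X]) : ‖aeval (tt C ^ n) P‖ = gp P := by
  rw [← aeval_expand, norm_aeval, gp_expand hn]

theorem Near.norm_aeval (h : Near n x) (P : C[X]) : ‖aeval x P‖ = gp P := by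
  by_cases hP : P = 0
  · simp [hP]
  have hg : 0 < gp P := lt_of_le_of_ne (gp_nonneg P) fun h => hP (gp_eq_zero.mp h.symm)
  have h1 : ‖tt C ^ n‖ ≤ 1 := by rw [norm_pow, norm_tt, one_pow]
  have h2 : ‖aeval x P - aeval (tt C ^ n) P‖ < gp P := by
    refine (norm_aeval_sub_le h.norm_eq.le h1 P).trans_lt ?_
    calc _ < 1 * gp P := by gcongr; exact h.lt
      _ = _ := one_mul _
  have h3 : ‖aeval x P‖ = ‖aeval (tt C ^ n) P‖ :=
    norm_eq_of_sub_lt (by rw [norm_aeval_pow h.pos]; exact h2)
  rw [h3, norm_aeval_pow h.pos]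

theorem Near.aeval_ne (h : Near n x) {P : C[X]} (hP : P ≠ 0) : aeval x P ≠ 0 := by
  rw [← norm_ne_zero_iff, h.norm_aeval]
  exact fun h => hP (gp_eq_zero.mp h)

/-- `t ↦ x` on `C(t)` -/
noncomputable def sbR (h : Near n x) : RatFunc C →ₐ[C] F0 C :=
  RatFunc.liftAlgHom (aeval x) (by
    intro P hP
    rw [Submonoid.mem_comap, mem_nonZeroDivisors_iff_ne_zero]
    exact h.aeval_ne (nonZeroDivisors.ne_zero hP))

theorem sbR_div (h : Near n x) (P Q : C[X]) :
    sbR h (algebraMap _ _ P / algebraMap _ _ Q) = aeval x P / aeval x Q :=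
  RatFunc.liftAlgHom_apply_div _ _ P Q

theorem sbR_poly (h : Near n x) (P : C[X]) : sbR h (algebraMap _ _ P) = aeval x P := by
  have := sbR_div h P 1
  simpa using this

theorem norm_sbR (h : Near n x) (f : RatFunc C) : ‖sbR h f‖ = gauss C f := by
  rw [← f.num_div_denom, sbR_div, norm_div, h.norm_aeval, h.norm_aeval, gauss_div]

/-- `t ↦ x` on `F0` -/
noncomputable def sb (h : Near n x) : F0 C →ₐ[C] F0 C :=
  { extF0 (sbR h : RatFunc C →+* F0 C) (fun r => (norm_sbR h r).le) with
    commutes' := fun c => by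
      have h1 : algebraMap C (F0 C) c = algebraMap (RatFunc C) (F0 C) (algebraMap C _ c) := rfl
      have h2 := extF0_algebraMap (sbR h : RatFunc C →+* F0 C) (fun r => (norm_sbR h r).le)
        (algebraMap C _ c)
      simp only [RingHom.toMonoidHom_eq_coe, OneHom.toFun_eq_coe, MonoidHom.toOneHom_coe,
        MonoidHom.coe_coe]
      rw [h1, h2]
      exact (sbR h).commutes c }

theorem sb_algebraMap (h : Near n x) (f : RatFunc C) :
    sb h (algebraMap (RatFunc C) (F0 C) f) = sbR h f :=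
  extF0_algebraMap (sbR h : RatFunc C →+* F0 C) (fun r => (norm_sbR h r).le) f

theorem norm_sb (h : Near n x) (y : F0 C) : ‖sb h y‖ = ‖y‖ :=
  norm_extF0 (sbR h : RatFunc C →+* F0 C) (norm_sbR h) y

theorem continuous_sb (h : Near n x) : Continuous (sb h) :=
  continuous_extF0 (sbR h : RatFunc C →+* F0 C) (fun r => (norm_sbR h r).le)

theorem sb_aeval (h : Near n x) (P : C[X]) : sb h (aeval (tt C) P) = aeval x P := by
  rw [← algebraMap_poly, sb_algebraMap, sbR_poly]

@[simp] theorem sb_tt (h : Near n x) : sb h (tt C) = x := by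
  have := sb_aeval h X
  rwa [aeval_X, aeval_X] at this

theorem sb_div (h : Near n x) (P Q : C[X]) :
    sb h (aeval (tt C) P / aeval (tt C) Q) = aeval x P / aeval x Q := by
  rw [map_div₀, sb_aeval, sb_aeval]

theorem sb_injective (h : Near n x) : Function.Injective (sb h) :=
  (sb h : F0 C →+* F0 C).injective

/-- `sb` depends only on the image of `t` -/
theorem sb_unique (h : Near n x) (φ : F0 C →+* F0 C) (hc : Continuous φ)
    (hC : ∀ c : C, φ (algebraMap C _ c) = algebraMap C _ c) (ht : φ (tt C) = x) (y : F0 C) :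
    φ y = sb h y := by
  have key : ∀ P : C[X], φ (aeval (tt C) P) = aeval x P := by
    intro P
    rw [aeval_eq_sum_range, aeval_eq_sum_range, map_sum]
    refine Finset.sum_congr rfl fun i _ => ?_
    rw [Algebra.smul_def, Algebra.smul_def, map_mul, hC, map_pow, ht]
  refine denseRange_algebraMap.induction_on (p := fun y : F0 C => φ y = sb h y) y ?_ ?_
  · exact isClosed_eq hc (continuous_sb h)
  · intro f
    rw [← f.num_div_denom, map_div₀, algebraMap_poly, algebraMap_poly, map_div₀, key, key, sb_div]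

end Subst

end P025H210
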