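import Vale.Agent.P025.R2.H210.Ram

/-!
# `1, t, …, t ^ (n-1)` is an orthonormal basis of `F0` over the image of `t ↦ x`
-/

open Polynomial Filter Topology P025H373 IntermediateField

universe u

namespace P025H210

/-- elements of `K(t)`, `t` a root of a monic polynomial of degree `n`. -/
theorem exists_sum_of_mem_adjoin {K E : Type*} [Field K] [Field E] [Algebra K E] {t : E}
    {q : K[X]} {n : ℕ} (hq : q.Monic) (hn : q.natDegree = n) (h0 : aeval t q = 0) {y : E}
    (hy : y ∈ K⟮t⟯) : ∃ a : Fin n → K, y = ∑ i, algebraMap K E (a i) * t ^ (i : ℕ) := by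
  have hint : IsIntegral K t := ⟨q, hq, h0⟩
  have h1 : y ∈ K⟮t⟯.toSubalgebra := hy
  rw [adjoin_simple_toSubalgebra_of_isAlgebraic hint.isAlgebraic,
    Algebra.adjoin_singleton_eq_range_aeval] at h1
  obtain ⟨p, hp⟩ := h1
  have hp' : aeval t p = y := hp
  by_cases hq1 : q = 1
  · exfalso
    rw [hq1, map_one] at h0
    exact one_ne_zero h0
  have hlt : (p %ₘ q).natDegree < n := hn ▸ natDegree_modByMonic_lt p hq hq1
  have h2 : aeval t (p %ₘ q) = y := by
    have h3 := congrArg (aeval t) (modByMonic_add_div p q)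
    rw [map_add, map_mul, h0, zero_mul, add_zero, hp'] at h3
    exact h3
  refine ⟨fun i => (p %ₘ q).coeff i, ?_⟩
  rw [← h2, aeval_eq_sum_range' hlt, Finset.sum_range]
  exact Finset.sum_congr rfl fun i _ => by rw [Algebra.smul_def]

theorem norm_sub_le_max' {E : Type*} [NormedAddCommGroup E] [IsUltrametricDist E] (a b : E) :
    ‖a - b‖ ≤ max ‖a‖ ‖b‖ := by
  have := IsUltrametricDist.norm_add_le_max a (-b)
  rwa [norm_neg, ← sub_eq_add_neg] at this

theorem subset_of_approx {E : Type*} [NormedAddCommGroup E] (M S : AddSubgroup E)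
    (hM : IsClosed (M : Set E)) (hMS : M ≤ S) {θ : ℝ} (hθ : θ < 1)
    (h : ∀ y ∈ S, ∃ m ∈ M, ‖y - m‖ ≤ θ * ‖y‖) : S ≤ M := by
  intro y hy
  have hne : (M : Set E).Nonempty := ⟨0, M.zero_mem⟩
  have hd0 : 0 ≤ Metric.infDist y (M : Set E) := Metric.infDist_nonneg
  have h1 : ∀ m ∈ M, Metric.infDist y (M : Set E) ≤ θ * dist y m := by
    intro m hm
    obtain ⟨m', hm', h2⟩ := h (y - m) (S.sub_mem hy (hMS hm))
    have h3 := Metric.infDist_le_dist_of_mem (x := y) (M.add_mem hm hm')
    refine h3.trans ?_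
    rw [dist_eq_norm, dist_eq_norm, ← sub_sub]
    exact h2
  have h2 : Metric.infDist y (M : Set E) = 0 := by
    rcases le_or_gt θ 0 with h0 | h0
    · have h3 := h1 0 M.zero_mem
      have : θ * dist y 0 ≤ 0 := mul_nonpos_of_nonpos_of_nonneg h0 dist_nonneg
      linarith
    · have h3 : Metric.infDist y (M : Set E) / θ ≤ Metric.infDist y (M : Set E) := by
        rw [Metric.le_infDist hne]
        intro m hm
        rw [div_le_iff₀ h0, mul_comm]
        exact h1 m hm
      rw [div_le_iff₀ h0] at h3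
      nlinarith
  have h3 : y ∈ closure (M : Set E) := (Metric.mem_closure_iff_infDist_zero hne).mpr h2
  rwa [hM.closure_eq] at h3

section

variable {C : Type u} [NormedField C] [IsUltrametricDist C] {n : ℕ} {x : F0 C}

/-- `a ↦ ∑ i < n, sb (a i) * t ^ i` -/
noncomputable def sbL (h : Near n x) : (Fin n → F0 C) →+ F0 C where
  toFun a := ∑ i, sb h (a i) * tt C ^ (i : ℕ)
  map_zero' := by simp
  map_add' a b := by simp [add_mul, Finset.sum_add_distrib]

theorem sbL_apply (h : Near n x) (a : Fin n → F0 C) :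
    sbL h a = ∑ i, sb h (a i) * tt C ^ (i : ℕ) := rfl

theorem norm_sbL_le (h : Near n x) {a : Fin n → F0 C} {r : ℝ} (hr : 0 ≤ r)
    (ha : ∀ i, ‖a i‖ ≤ r) : ‖sbL h a‖ ≤ r := by
  rw [sbL_apply]
  refine IsUltrametricDist.norm_sum_le_of_forall_le_of_nonneg hr fun i _ => ?_
  rw [norm_mul, norm_pow, norm_tt, one_pow, mul_one, norm_sb]
  exact ha i

theorem continuous_sbL (h : Near n x) : Continuous (sbL h) := by
  change Continuous fun a : Fin n → F0 C => ∑ i, sb h (a i) * tt C ^ (i : ℕ)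
  refine continuous_finsetSum _ fun i _ => ?_
  exact ((continuous_sb h).comp (continuous_apply i)).mul continuous_const

omit [IsUltrametricDist C] in
theorem coeff_expand_sum (P : Fin n → C[X]) (i : Fin n) (k : ℕ) :
    (∑ j, expand C n (P j) * X ^ (j : ℕ)).coeff (n * k + i) = (P i).coeff k := by
  have hn : 0 < n := i.pos
  rw [finsetSum_coeff, Finset.sum_eq_single i]
  · rw [coeff_mul_X_pow, mul_comm, coeff_expand_mul hn]
  · intro j _ hj
    rw [coeff_mul_X_pow']
    split_ifs with h1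
    · rw [coeff_expand hn, if_neg]
      rintro ⟨c, hc⟩
      apply hj
      have h2 : n * k + (i : ℕ) = n * c + j := by omega
      have h3 : (n * k + (i : ℕ)) % n = (n * c + (j : ℕ)) % n := by rw [h2]
      rw [Nat.mul_add_mod, Nat.mul_add_mod, Nat.mod_eq_of_lt i.2, Nat.mod_eq_of_lt j.2] at h3
      exact Fin.ext h3.symm
    · rfl
  · intro h; exact absurd (Finset.mem_univ _) h

theorem gp_le_expand_sum (P : Fin n → C[X]) (i : Fin n) :
    gp (P i) ≤ gp (∑ j, expand C n (P j) * X ^ (j : ℕ)) := by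
  rw [gp_le_iff]
  intro k
  rw [← coeff_expand_sum P i k]
  exact norm_coeff_le _ _

theorem norm_le_sbL_poly (h : Near n x) (P : Fin n → C[X]) (i : Fin n) :
    gp (P i) ≤ ‖sbL h (fun j => aeval (tt C) (P j))‖ := by
  set Q := ∑ j, expand C n (P j) * X ^ (j : ℕ) with hQ
  by_cases hQ0 : Q = 0
  · have h1 := gp_le_expand_sum P i
    rw [← hQ, hQ0, gp_zero] at h1
    exact h1.trans (norm_nonneg _)
  have hg : 0 < gp Q := lt_of_le_of_ne (gp_nonneg Q) fun h => hQ0 (gp_eq_zero.mp h.symm)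
  have hQn : ‖aeval (tt C) Q‖ = gp Q := norm_aeval Q
  have hQe : aeval (tt C) Q = ∑ j, aeval (tt C ^ n) (P j) * tt C ^ (j : ℕ) := by
    rw [hQ, map_sum]
    refine Finset.sum_congr rfl fun j _ => ?_
    rw [map_mul, expand_aeval, map_pow, aeval_X]
  have h1 : ‖sbL h (fun j => aeval (tt C) (P j)) - aeval (tt C) Q‖ < ‖aeval (tt C) Q‖ := by
    rw [hQn]
    have h2 : sbL h (fun j => aeval (tt C) (P j)) - aeval (tt C) Q =
        ∑ j, (aeval x (P j) - aeval (tt C ^ n) (P j)) * tt C ^ (j : ℕ) := by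
      rw [sbL_apply, hQe, ← Finset.sum_sub_distrib]
      refine Finset.sum_congr rfl fun j _ => ?_
      rw [sb_aeval]; ring
    rw [h2]
    have h3 : ‖∑ j, (aeval x (P j) - aeval (tt C ^ n) (P j)) * tt C ^ (j : ℕ)‖ ≤
        ‖x - tt C ^ n‖ * gp Q := by
      refine IsUltrametricDist.norm_sum_le_of_forall_le_of_nonneg
        (mul_nonneg (norm_nonneg _) hg.le) fun j _ => ?_
      rw [norm_mul, norm_pow, norm_tt, one_pow, mul_one]
      refine (norm_aeval_sub_le h.norm_eq.le (by rw [norm_pow, norm_tt, one_pow]) (P j)).trans ?_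
      exact mul_le_mul_of_nonneg_left (gp_le_expand_sum P j) (norm_nonneg _)
    refine h3.trans_lt ?_
    calc _ < 1 * gp Q := mul_lt_mul_of_pos_right h.lt hg
      _ = _ := one_mul _
  rw [norm_eq_of_sub_lt h1, hQn]
  exact gp_le_expand_sum P i

theorem norm_le_sbL_rat (h : Near n x) (f : Fin n → RatFunc C) (i : Fin n) :
    ‖algebraMap (RatFunc C) (F0 C) (f i)‖ ≤
      ‖sbL h (fun j => algebraMap (RatFunc C) (F0 C) (f j))‖ := by
  obtain ⟨⟨D, hD⟩, hb⟩ := IsLocalization.exist_integer_multiples_of_finite (nonZeroDivisors C[X]) f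
  have hD0 : D ≠ 0 := nonZeroDivisors.ne_zero hD
  choose P hP using hb
  have hP' : ∀ j, aeval (tt C) (P j) = aeval (tt C) D * algebraMap (RatFunc C) (F0 C) (f j) := by
    intro j
    rw [← algebraMap_poly, hP j, ← algebraMap_poly, ← map_mul, Algebra.smul_def]
  have hDne : aeval (tt C) D ≠ 0 := fun h => hD0 (aeval_inj.mp h)
  have hDx : aeval x D ≠ 0 := h.aeval_ne hD0
  have h1 : sbL h (fun j => aeval (tt C) (P j)) =
      aeval x D * sbL h (fun j => algebraMap (RatFunc C) (F0 C) (f j)) := by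
    rw [sbL_apply, sbL_apply, Finset.mul_sum]
    refine Finset.sum_congr rfl fun j _ => ?_
    rw [hP' j, map_mul, sb_aeval, mul_assoc]
  have h2 := norm_le_sbL_poly h P i
  rw [← norm_aeval, hP' i, h1, norm_mul, norm_mul, norm_aeval, h.norm_aeval] at h2
  have hg : 0 < gp D := lt_of_le_of_ne (gp_nonneg D) fun h => hD0 (gp_eq_zero.mp h.symm)
  exact le_of_mul_le_mul_left h2 hg

/-- orthonormality -/
theorem norm_le_sbL (h : Near n x) (a : Fin n → F0 C) (i : Fin n) : ‖a i‖ ≤ ‖sbL h a‖ := by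
  have hd : DenseRange (Pi.map fun _ : Fin n => (algebraMap (RatFunc C) (F0 C))) :=
    DenseRange.piMap fun _ => denseRange_algebraMap
  refine hd.induction_on (p := fun a : Fin n → F0 C => ‖a i‖ ≤ ‖sbL h a‖) a ?_ ?_
  · exact isClosed_le (continuous_apply i).norm (continuous_sbL h).norm
  · intro f
    exact norm_le_sbL_rat h f i

theorem norm_sbL (h : Near n x) (a : Fin n → F0 C) : ‖sbL h a‖ = ‖a‖ := by
  refine le_antisymm (norm_sbL_le h (norm_nonneg _) fun i => norm_le_pi_norm a i) ?_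
  rw [pi_norm_le_iff_of_nonneg (norm_nonneg _)]
  exact norm_le_sbL h a

theorem sbL_injective (h : Near n x) : Function.Injective (sbL h) := by
  rw [injective_iff_map_eq_zero]
  intro a ha
  rw [← norm_eq_zero, ← norm_sbL h, ha, norm_zero]

theorem isometry_sbL (h : Near n x) : Isometry (sbL h) :=
  AddMonoidHomClass.isometry_of_norm _ (norm_sbL h)

theorem isClosed_image_sbL (h : Near n x) {S : Set (Fin n → F0 C)} (hS : IsClosed S) :
    IsClosed (sbL h '' S) :=
  (isometry_sbL h).isClosedEmbedding.isClosedMap S hS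

/-- `C(t)` over `C(t ^ n)` -/
theorem exists_rat_sum (hn : 0 < n) (f : RatFunc C) : ∃ g : Fin n → RatFunc C,
    algebraMap (RatFunc C) (F0 C) f =
      sbL (near_pow hn) (fun i => algebraMap (RatFunc C) (F0 C) (g i)) := by
  set φ : RatFunc C →+* F0 C := (sbR (near_pow (C := C) hn) : RatFunc C →+* F0 C) with hφ
  have hφa : ∀ g : RatFunc C, φ g = sb (near_pow hn) (algebraMap (RatFunc C) (F0 C) g) :=
    fun g => (sb_algebraMap _ g).symm
  set K : Subfield (F0 C) := φ.fieldRange with hK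
  set q : K[X] := X ^ n - Polynomial.C (⟨tt C ^ n, RatFunc.X, by
    rw [hφa, show algebraMap (RatFunc C) (F0 C) RatFunc.X = tt C from rfl, sb_tt]⟩ : K) with hq
  have hqm : q.Monic := monic_X_pow_sub_C _ hn.ne'
  have hqd : q.natDegree = n := natDegree_X_pow_sub_C
  have hq0 : aeval (tt C) q = 0 := by
    rw [hq, map_sub, map_pow, aeval_X, aeval_C, sub_eq_zero]
    rfl
  have hmem : algebraMap (RatFunc C) (F0 C) f ∈ K⟮tt C⟯ := by
    have hc : ∀ P : C[X], aeval (tt C) P ∈ K⟮tt C⟯ := by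
      intro P
      rw [aeval_eq_sum_range]
      refine sum_mem fun i _ => ?_
      rw [Algebra.smul_def]
      refine mul_mem ?_ (pow_mem (mem_adjoin_simple_self K (tt C)) i)
      exact K⟮tt C⟯.algebraMap_mem ⟨algebraMap C (F0 C) (P.coeff i), RatFunc.C (P.coeff i), by
        rw [hφa, ← algebraMap_C_eq, AlgHom.commutes]⟩
    rw [← f.num_div_denom, map_div₀, algebraMap_poly, algebraMap_poly]
    exact div_mem (hc _) (hc _)
  obtain ⟨a, ha⟩ := exists_sum_of_mem_adjoin hqm hqd hq0 hmem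
  choose g hg using fun i => (a i).2
  refine ⟨g, ?_⟩
  rw [ha, sbL_apply]
  refine Finset.sum_congr rfl fun i _ => ?_
  rw [← hφa, hg]
  rfl

theorem norm_sb_sub_le (h : Near n x) (f : RatFunc C) :
    ‖sb h (algebraMap (RatFunc C) (F0 C) f) -
      sb (near_pow h.pos) (algebraMap (RatFunc C) (F0 C) f)‖ ≤ ‖x - tt C ^ n‖ * gauss C f := by
  have h0 := near_pow (C := C) h.pos
  set P := f.num
  set Q := f.denom
  have hf : f = algebraMap _ _ P / algebraMap _ _ Q := f.num_div_denom.symm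
  have hQ : Q ≠ 0 := f.denom_ne_zero
  have hQ1 := h.aeval_ne hQ
  have hQ2 := h0.aeval_ne hQ
  have hg : 0 < gp Q := lt_of_le_of_ne (gp_nonneg Q) fun h => hQ (gp_eq_zero.mp h.symm)
  have hx1 := h.norm_eq.le
  have ht1 := h0.norm_eq.le
  have hP' := norm_aeval_sub_le hx1 ht1 P
  have hQ' := norm_aeval_sub_le hx1 ht1 Q
  have e : sb h (algebraMap (RatFunc C) (F0 C) f) - sb h0 (algebraMap (RatFunc C) (F0 C) f) =
      ((aeval x P - aeval (tt C ^ n) P) * aeval (tt C ^ n) Q -
        aeval (tt C ^ n) P * (aeval x Q - aeval (tt C ^ n) Q)) /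
        (aeval x Q * aeval (tt C ^ n) Q) := by
    rw [sb_algebraMap, sb_algebraMap, hf, sbR_div, sbR_div, div_sub_div _ _ hQ1 hQ2]
    congr 1
    ring
  rw [e, norm_div, norm_mul, h.norm_aeval, h0.norm_aeval, hf, gauss_div,
    div_le_iff₀ (mul_pos hg hg)]
  have h3 : ‖x - tt C ^ n‖ * (gp P / gp Q) * (gp Q * gp Q) = ‖x - tt C ^ n‖ * gp P * gp Q := by
    field_simp
  rw [h3]
  refine (norm_sub_le_max' _ _).trans (max_le ?_ ?_)
  · rw [norm_mul, h0.norm_aeval]
    exact mul_le_mul_of_nonneg_right hP' hg.le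
  · rw [norm_mul, h0.norm_aeval]
    calc gp P * ‖aeval x Q - aeval (tt C ^ n) Q‖ ≤ gp P * (‖x - tt C ^ n‖ * gp Q) :=
          mul_le_mul_of_nonneg_left hQ' (gp_nonneg P)
      _ = _ := by ring

/-- approximation: `sbL` of the plain components is close to `y` -/
theorem norm_sbL_sub_le (h : Near n x) (g : Fin n → RatFunc C) :
    ‖sbL h (fun i => algebraMap (RatFunc C) (F0 C) (g i)) -
      sbL (near_pow h.pos) (fun i => algebraMap (RatFunc C) (F0 C) (g i))‖ ≤
      ‖x - tt C ^ n‖ *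
        ‖sbL (near_pow h.pos) (fun i => algebraMap (RatFunc C) (F0 C) (g i))‖ := by
  have h1 := norm_le_sbL (near_pow (C := C) h.pos) (fun i => algebraMap (RatFunc C) (F0 C) (g i))
  set N := ‖sbL (near_pow h.pos) (fun i => algebraMap (RatFunc C) (F0 C) (g i))‖
  rw [sbL_apply, sbL_apply, ← Finset.sum_sub_distrib]
  refine IsUltrametricDist.norm_sum_le_of_forall_le_of_nonneg
    (mul_nonneg (norm_nonneg _) (norm_nonneg _)) fun i _ => ?_
  rw [← sub_mul, norm_mul, norm_pow, norm_tt, one_pow, mul_one]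
  refine (norm_sb_sub_le h (g i)).trans (mul_le_mul_of_nonneg_left ?_ (norm_nonneg _))
  rw [← P025H373.norm_algebraMap]
  exact h1 i

/-- every element of `F0` is `∑ i < n, sb (a i) * t ^ i` -/
theorem sbL_surjective (h : Near n x) : Function.Surjective (sbL h) := by
  have h1 : (⊤ : AddSubgroup (F0 C)) ≤ (sbL h).range := by
    refine subset_of_approx _ _ ?_ le_top (θ := max (1 / 2) ‖x - tt C ^ n‖)
      (max_lt (by norm_num) h.lt) ?_
    · have := isClosed_image_sbL h (S := Set.univ) isClosed_univ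
      rw [Set.image_univ] at this
      exact this
    · intro y _
      by_cases hy : y = 0
      · exact ⟨0, AddSubgroup.zero_mem _, by simp [hy]⟩
      have hy0 : 0 < ‖y‖ := norm_pos_iff.mpr hy
      obtain ⟨f, hf⟩ : ∃ f : RatFunc C, ‖y - algebraMap (RatFunc C) (F0 C) f‖ <
          max (1 / 2) ‖x - tt C ^ n‖ * ‖y‖ := by
        have hpos : 0 < max (1 / 2) ‖x - tt C ^ n‖ * ‖y‖ := by positivity
        obtain ⟨f, hf⟩ := Metric.denseRange_iff.mp denseRange_algebraMap y _ hpos
        exact ⟨f, by rwa [dist_eq_norm] at hf⟩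
      obtain ⟨g, hg⟩ := exists_rat_sum h.pos f
      refine ⟨sbL h (fun i => algebraMap (RatFunc C) (F0 C) (g i)), ⟨_, rfl⟩, ?_⟩
      have h2 := norm_sbL_sub_le h g
      rw [← hg] at h2
      have hfy : ‖algebraMap (RatFunc C) (F0 C) f‖ = ‖y‖ := by
        refine norm_eq_of_sub_lt ?_
        rw [norm_sub_rev]
        refine hf.trans_le ?_
        calc _ ≤ 1 * ‖y‖ := mul_le_mul_of_nonneg_right (max_lt (by norm_num) h.lt).le hy0.le
          _ = _ := one_mul _
      have e : y - sbL h (fun i => algebraMap (RatFunc C) (F0 C) (g i)) =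
          (y - algebraMap (RatFunc C) (F0 C) f) -
            (sbL h (fun i => algebraMap (RatFunc C) (F0 C) (g i)) -
              algebraMap (RatFunc C) (F0 C) f) := by ring
      rw [e]
      refine (norm_sub_le_max' _ _).trans (max_le hf.le (h2.trans ?_))
      rw [hfy]
      exact mul_le_mul_of_nonneg_right (le_max_right _ _) hy0.le
  intro y
  obtain ⟨a, ha⟩ := h1 (AddSubgroup.mem_top y)
  exact ⟨a, ha⟩

end

end P025H210
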