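import Vale.Agent.P025.R2.H210.Ram2

/-!
# The substitution `t ↦ x` on `A1` and `F1` (`x ∈ A1`)
-/

open Polynomial Filter Topology P025H373 IntermediateField

universe u

namespace P025H210

section

variable {C : Type u} [NormedField C] [IsUltrametricDist C] {n : ℕ} {x : F0 C}

theorem aeval_mem_A1' (hx : x ∈ A1 C) (P : C[X]) : aeval x P ∈ A1 C := by
  rw [aeval_eq_sum_range]
  exact sum_mem fun i _ => Subalgebra.smul_mem _ (pow_mem hx i) _

theorem sb_mem_A1 (h : Near n x) (hx : x ∈ A1 C) {y : F0 C} (hy : y ∈ A1 C) : sb h y ∈ A1 C := by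
  refine A1_induction (p := fun y => sb h y ∈ A1 C) ?_ ?_ hy
  · exact isClosed_A1.preimage (continuous_sb h)
  · intro P
    rw [sb_aeval]
    exact aeval_mem_A1' hx P

omit [IsUltrametricDist C] in
theorem exists_expand_sum (hn : 0 < n) (P : C[X]) :
    ∃ g : Fin n → C[X], P = ∑ i, expand C n (g i) * X ^ (i : ℕ) := by
  induction P using Polynomial.induction_on' with
  | add p q hp hq =>
    obtain ⟨g, hg⟩ := hp
    obtain ⟨g', hg'⟩ := hq
    refine ⟨fun i => g i + g' i, ?_⟩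
    rw [hg, hg', ← Finset.sum_add_distrib]
    refine Finset.sum_congr rfl fun i _ => ?_
    simp only [map_add, add_mul]
  | monomial m a =>
    refine ⟨fun i => if (i : ℕ) = m % n then monomial (m / n) a else 0, ?_⟩
    rw [Finset.sum_eq_single (⟨m % n, Nat.mod_lt _ hn⟩ : Fin n)]
    · simp only [if_true]
      rw [expand_monomial, ← C_mul_X_pow_eq_monomial, ← C_mul_X_pow_eq_monomial, mul_assoc,
        ← pow_add, Nat.div_add_mod']
    · intro j _ hj
      have h1 : ¬ (j : ℕ) = m % n := fun h => hj (Fin.ext h)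
      simp only [if_neg h1, map_zero, zero_mul]
    · intro h; exact absurd (Finset.mem_univ _) h

theorem exists_sum_A1 (h : Near n x) (hx : x ∈ A1 C) {y : F0 C} (hy : y ∈ A1 C) :
    ∃ a : Fin n → F0 C, (∀ i, a i ∈ A1 C) ∧ sbL h a = y := by
  set M : AddSubgroup (F0 C) := ((AddSubgroup.pi Set.univ
    (fun _ : Fin n => (A1 C).toSubring.toAddSubgroup)).map (sbL h)) with hM
  have hM' : (M : Set (F0 C)) = sbL h '' {a | ∀ i, a i ∈ A1 C} := by
    rw [hM, AddSubgroup.coe_map]
    congr 1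
    ext a
    simp [AddSubgroup.mem_pi]
  have key : (A1 C).toSubring.toAddSubgroup ≤ M := by
    refine subset_of_approx _ _ ?_ ?_ (θ := max (1 / 2) ‖x - tt C ^ n‖)
      (max_lt (by norm_num) h.lt) ?_
    · rw [hM']
      refine isClosed_image_sbL h ?_
      have : {a : Fin n → F0 C | ∀ i, a i ∈ A1 C} = ⋂ i, (fun a : Fin n → F0 C => a i) ⁻¹'
          (A1 C : Set (F0 C)) := by ext a; simp
      rw [this]
      exact isClosed_iInter fun i => isClosed_A1.preimage (continuous_apply i)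
    · intro z hz
      have hz' : z ∈ (M : Set (F0 C)) := hz
      rw [hM'] at hz'
      obtain ⟨a, ha, rfl⟩ := hz'
      change sbL h a ∈ A1 C
      rw [sbL_apply]
      exact sum_mem fun i _ => mul_mem (sb_mem_A1 h hx (ha i)) (pow_mem tt_mem_A1 _)
    · intro y hy
      have hyA : y ∈ A1 C := hy
      by_cases hy1 : y = 0
      · exact ⟨0, AddSubgroup.zero_mem _, by simp [hy1]⟩
      have hy0 : 0 < ‖y‖ := norm_pos_iff.mpr hy1
      obtain ⟨P, hf⟩ : ∃ P : C[X], ‖y - aeval (tt C) P‖ <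
          max (1 / 2) ‖x - tt C ^ n‖ * ‖y‖ := by
        have hpos : 0 < max (1 / 2) ‖x - tt C ^ n‖ * ‖y‖ := by positivity
        have hcl : y ∈ closure (Algebra.adjoin C {tt C} : Set (F0 C)) := hyA
        obtain ⟨z, hz, hzy⟩ := Metric.mem_closure_iff.mp hcl _ hpos
        rw [SetLike.mem_coe, Algebra.adjoin_singleton_eq_range_aeval] at hz
        obtain ⟨P, rfl⟩ := hz
        exact ⟨P, by rw [dist_eq_norm] at hzy; exact hzy⟩
      obtain ⟨g, hg⟩ := exists_expand_sum h.pos P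
      have hPe : aeval (tt C) P = sbL (near_pow h.pos) (fun i => algebraMap (RatFunc C) (F0 C)
          (algebraMap _ _ (g i))) := by
        conv_lhs => rw [hg]
        rw [map_sum, sbL_apply]
        refine Finset.sum_congr rfl fun j _ => ?_
        rw [map_mul, expand_aeval, map_pow, aeval_X, algebraMap_poly, sb_aeval]
      refine ⟨sbL h (fun i => algebraMap (RatFunc C) (F0 C) (algebraMap _ _ (g i))), ?_, ?_⟩
      · change _ ∈ (M : Set (F0 C))
        rw [hM']
        exact ⟨_, fun i => by rw [algebraMap_poly]; exact aeval_mem_A1 _, rfl⟩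
      have h2 := norm_sbL_sub_le h (fun i => algebraMap _ _ (g i))
      rw [← hPe] at h2
      have hfy : ‖aeval (tt C) P‖ = ‖y‖ := by
        refine norm_eq_of_sub_lt ?_
        rw [norm_sub_rev]
        refine hf.trans_le ?_
        calc _ ≤ 1 * ‖y‖ := mul_le_mul_of_nonneg_right (max_lt (by norm_num) h.lt).le hy0.le
          _ = _ := one_mul _
      have e : y - sbL h (fun i => algebraMap (RatFunc C) (F0 C) (algebraMap _ _ (g i))) =
          (y - aeval (tt C) P) -
            (sbL h (fun i => algebraMap (RatFunc C) (F0 C) (algebraMap _ _ (g i))) -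
              aeval (tt C) P) := by ring
      rw [e]
      refine (norm_sub_le_max' _ _).trans (max_le hf.le (h2.trans ?_))
      rw [hfy]
      exact mul_le_mul_of_nonneg_right (le_max_right _ _) hy0.le
  have h1 : y ∈ (M : Set (F0 C)) := key hy
  rw [hM'] at h1
  obtain ⟨a, ha, h2⟩ := h1
  exact ⟨a, ha, h2⟩

theorem mem_A1_of_sbL (h : Near n x) (hx : x ∈ A1 C) {a : Fin n → F0 C} (ha : sbL h a ∈ A1 C)
    (i : Fin n) : a i ∈ A1 C := by
  obtain ⟨b, hb, hab⟩ := exists_sum_A1 h hx ha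
  rw [← sbL_injective h hab]
  exact hb i

theorem A1_le_F1 {y : F0 C} (hy : y ∈ A1 C) : y ∈ F1 C := subset_adjoin _ _ hy

theorem sb_mem_F1 (h : Near n x) (hx : x ∈ A1 C) {y : F0 C} (hy : y ∈ F1 C) : sb h y ∈ F1 C := by
  have hle : F1 C ≤
      { (F1 C).toSubfield.comap (sb h : F0 C →+* F0 C) with
        algebraMap_mem' := fun f => by
          change sb h (algebraMap (RatFunc C) (F0 C) f) ∈ F1 C
          rw [sb_algebraMap, ← f.num_div_denom, sbR_div]
          exact div_mem (A1_le_F1 (aeval_mem_A1' hx _)) (A1_le_F1 (aeval_mem_A1' hx _)) } := by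
    refine adjoin_le_iff.mpr fun z hz => ?_
    exact A1_le_F1 (sb_mem_A1 h hx hz)
  exact hle hy

theorem mem_of_A1_of_ratFunc (S : Subfield (F0 C)) (h1 : ∀ f, algebraMap (RatFunc C) (F0 C) f ∈ S)
    (h2 : ∀ y ∈ A1 C, y ∈ S) {y : F0 C} (hy : y ∈ F1 C) : y ∈ S := by
  have hle : F1 C ≤ { S with algebraMap_mem' := h1 } := adjoin_le_iff.mpr h2
  exact hle hy

theorem mem_of_A2_of_ratFunc (S : Subfield (F0 C)) (h1 : ∀ f, algebraMap (RatFunc C) (F0 C) f ∈ S)
    (h2 : ∀ y ∈ A2 C, y ∈ S) {y : F0 C} (hy : y ∈ F2 C) : y ∈ S := by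
  have hle : F2 C ≤ { S with algebraMap_mem' := h1 } := adjoin_le_iff.mpr h2
  exact hle hy

/-- the monic equation of `t` of degree `n` -/
theorem exists_monic {K E : Type*} [Field K] [Field E] [Algebra K E] {t : E} {n : ℕ}
    (a : Fin n → K) (h : t ^ n = ∑ i, algebraMap K E (a i) * t ^ (i : ℕ)) :
    ∃ q : K[X], q.Monic ∧ q.natDegree = n ∧ aeval t q = 0 := by
  set p : K[X] := ∑ i : Fin n, Polynomial.C (a i) * X ^ (i : ℕ) with hp
  have hd : p.degree < n := by
    rw [hp]
    exact degree_sum_fin_lt a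
  refine ⟨X ^ n - p, ?_, ?_, ?_⟩
  · rw [Monic, leadingCoeff_sub_of_degree_lt (by rwa [degree_X_pow])]
    exact leadingCoeff_X_pow n
  · rw [natDegree_sub_eq_left_of_natDegree_lt, natDegree_X_pow]
    rw [natDegree_X_pow]
    by_cases h0 : p = 0
    · rw [h0, natDegree_zero]
      rcases Nat.eq_zero_or_pos n with hn | hn
      · exfalso
        subst hn
        simp at h
      · exact hn
    · rw [degree_eq_natDegree h0] at hd
      exact_mod_cast hd
  · rw [map_sub, map_pow, aeval_X, hp, map_sum, h, sub_eq_zero]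
    refine Finset.sum_congr rfl fun i _ => ?_
    rw [map_mul, aeval_C, map_pow, aeval_X]

theorem ratFunc_mem (S : Subfield (F0 C)) (hC : ∀ c : C, algebraMap C (F0 C) c ∈ S)
    (ht : tt C ∈ S) (f : RatFunc C) : algebraMap (RatFunc C) (F0 C) f ∈ S := by
  have hc : ∀ P : C[X], aeval (tt C) P ∈ S := by
    intro P
    rw [aeval_eq_sum_range]
    refine sum_mem fun i _ => ?_
    rw [Algebra.smul_def]
    exact mul_mem (hC _) (pow_mem ht i)
  rw [← f.num_div_denom, map_div₀, algebraMap_poly, algebraMap_poly]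
  exact div_mem (hc _) (hc _)

theorem exists_sum_F1 (h : Near n x) (hx : x ∈ A1 C) {y : F0 C} (hy : y ∈ F1 C) :
    ∃ a : Fin n → F0 C, (∀ i, a i ∈ F1 C) ∧ sbL h a = y := by
  set K : Subfield (F0 C) := (F1 C).toSubfield.map (sb h : F0 C →+* F0 C) with hK
  have hKm : ∀ a ∈ F1 C, sb h a ∈ K := fun a ha => ⟨a, ha, rfl⟩
  obtain ⟨a, ha, hat⟩ := exists_sum_A1 h hx (pow_mem tt_mem_A1 n)
  obtain ⟨q, hq, hqn, hq0⟩ := exists_monic (K := K) (t := tt C)
    (fun i => ⟨sb h (a i), hKm _ (A1_le_F1 (ha i))⟩) hat.symm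
  have hmem : y ∈ K⟮tt C⟯ := by
    have hC : ∀ c : C, algebraMap C (F0 C) c ∈ K⟮tt C⟯.toSubfield := by
      intro c
      refine K⟮tt C⟯.algebraMap_mem ⟨algebraMap C (F0 C) c, ?_⟩
      have := hKm (algebraMap C (F0 C) c) (A1_le_F1 ((A1 C).algebraMap_mem c))
      rwa [AlgHom.commutes] at this
    have ht : tt C ∈ K⟮tt C⟯.toSubfield := mem_adjoin_simple_self K (tt C)
    refine mem_of_A1_of_ratFunc K⟮tt C⟯.toSubfield (ratFunc_mem _ hC ht) ?_ hy
    intro z hz
    obtain ⟨b, hb, hbz⟩ := exists_sum_A1 h hx hz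
    rw [← hbz, sbL_apply]
    refine sum_mem fun i _ => mul_mem ?_ (pow_mem ht _)
    exact K⟮tt C⟯.algebraMap_mem ⟨sb h (b i), hKm _ (A1_le_F1 (hb i))⟩
  obtain ⟨b, hb⟩ := exists_sum_of_mem_adjoin hq hqn hq0 hmem
  choose c hc hcb using fun i => (b i).2
  refine ⟨c, hc, ?_⟩
  rw [hb, sbL_apply]
  refine Finset.sum_congr rfl fun i _ => ?_
  congr 1
  exact hcb i

theorem mem_F1_of_sbL (h : Near n x) (hx : x ∈ A1 C) {a : Fin n → F0 C} (ha : sbL h a ∈ F1 C)
    (i : Fin n) : a i ∈ F1 C := by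
  obtain ⟨b, hb, hab⟩ := exists_sum_F1 h hx ha
  rw [← sbL_injective h hab]
  exact hb i

end

end P025H210
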